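import Crest.Statements.S0109
import Crest.Agent.Lib.OTFinal

set_option autoImplicit false
open MeasureTheory
open scoped ENNReal NNReal
open Crest.AnalysisR.OT
open Crest Crest.AnalysisR Crest.AnalysisR.OT

namespace Crest.Agent.S0109

open Crest.Agent.OT in
/-- The ENNReal form of the squared distance. -/
lemma lintegral_eq {d : ℕ} {ρ : Measure (EE d)} [IsProbabilityMeasure ρ] {T₁ T₂ : EE d → EE d}
    (hT₁ : Measurable T₁) (hT₂ : Measurable T₂) {B : ℝ}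
    (hB : ∀ᵐ x ∂ρ, ‖T₁ x - T₂ x‖ ^ 2 ≤ B) :
    ∫⁻ x, ‖T₁ x - T₂ x‖ₑ ^ 2 ∂ρ = ENNReal.ofReal (∫ x, ‖T₁ x - T₂ x‖ ^ 2 ∂ρ) := by
  have hi : Integrable (fun x => ‖T₁ x - T₂ x‖ ^ 2) ρ := by
    refine Integrable.of_bound
      (by fun_prop : Measurable fun x => ‖T₁ x - T₂ x‖ ^ 2).aestronglyMeasurable B ?_
    filter_upwards [hB] with x hx
    rw [Real.norm_eq_abs, abs_of_nonneg (sq_nonneg _)]
    exact hx
  rw [ofReal_integral_eq_lintegral_ofReal hi (ae_of_all _ fun x => sq_nonneg _)]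
  apply lintegral_congr
  intro x
  rw [ENNReal.ofReal_pow (norm_nonneg _), ofReal_norm_eq_enorm]

/-- Fix d ≥ 2, a compact convex K ⊆ ℝᵈ with nonempty interior, ρ the uniform probability measure on K, and a nonempty compact Y ⊆ ℝᵈ. There is a constant C such that for all probability measures μ, ν carried by Y, all quadratic optimal transport maps Tμ from ρ to μ and Tν from ρ to ν, and every coupling π of μ and ν, ∫ ‖Tμ - Tν‖² dρ ≤ C · (∫ ‖y - z‖² dπ)^(1/3). With the best coupling: the L²(ρ) distance of the maps is at most √C times the cube root of the Wasserstein-2 distance of the targets. -/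
theorem result
    (d : ℕ) (hd : 2 ≤ d) (K : Set (EuclideanSpace ℝ (Fin d))) (hKc : IsCompact K) (hKv : Convex ℝ K)
    (hKi : (interior K).Nonempty) (Y : Set (EuclideanSpace ℝ (Fin d))) (hYc : IsCompact Y) (hYn : Y.Nonempty) :
    ∃ C : ℝ≥0, ∀ μ ν : Measure (EuclideanSpace ℝ (Fin d)), IsProbabilityOn Y μ → IsProbabilityOn Y ν →
      ∀ Tμ Tν : EuclideanSpace ℝ (Fin d) → EuclideanSpace ℝ (Fin d),
        IsOptimalMap (uniformProbOn K) μ Tμ → IsOptimalMap (uniformProbOn K) ν Tν →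
        ∀ π : Measure (EuclideanSpace ℝ (Fin d) × EuclideanSpace ℝ (Fin d)), IsPairCoupling μ ν π →
          ∫⁻ x, ‖Tμ x - Tν x‖ₑ ^ 2 ∂(uniformProbOn K) ≤ C * quadCost π ^ (1 / 3 : ℝ) := by
  classical
  obtain ⟨x₀, hx₀⟩ := hKi
  obtain ⟨r, hr, hball⟩ : ∃ r : ℝ, 0 < r ∧ Metric.closedBall x₀ r ⊆ K := by
    have : K ∈ nhds x₀ := mem_interior_iff_mem_nhds.mp hx₀
    exact Metric.nhds_basis_closedBall.mem_iff.mp this
  obtain ⟨R₀, hR₀⟩ := hKc.isBounded.exists_norm_le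
  obtain ⟨RY₀, hRY₀⟩ := hYc.isBounded.exists_norm_le
  obtain ⟨R, hR⟩ : ∃ R : ℝ, R = max R₀ 1 := ⟨_, rfl⟩
  obtain ⟨RY, hRY⟩ : ∃ RY : ℝ, RY = max RY₀ 1 := ⟨_, rfl⟩
  have hRpos : 0 < R := by rw [hR]; exact lt_of_lt_of_le one_pos (le_max_right _ _)
  have hRYpos : 0 < RY := by rw [hRY]; exact lt_of_lt_of_le one_pos (le_max_right _ _)
  have hKR : ∀ x ∈ K, ‖x‖ ≤ R := fun x hx => (hR₀ x hx).trans (by rw [hR]; exact le_max_left _ _)
  have hYR : ∀ y ∈ Y, ‖y‖ ≤ RY := fun y hy => (hRY₀ y hy).trans (by rw [hRY]; exact le_max_left _ _)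
  have hvol : 0 < volume K :=
    lt_of_lt_of_le (isOpen_interior.measure_pos volume ⟨x₀, hx₀⟩) (measure_mono interior_subset)
  have hB : Crest.Agent.OT.BodyHyp K R := ⟨hKc, hKv, hvol, hRpos, hKR⟩
  have hne : K.Nonempty := ⟨x₀, interior_subset hx₀⟩
  obtain ⟨g, G⟩ := Crest.Agent.OT.exists_gauge hKc hKv hr hball
  obtain ⟨C₀, hC₀⟩ : ∃ C₀ : ℝ, C₀ = (d * √(40002 * R ^ 2 * (28 * RY ^ 2 * d / r))
      + d * (22 * RY ^ 2 * d / r) + 4 * RY ^ 2 / (r / 2)) := ⟨_, rfl⟩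
  have hC₀pos : 0 < C₀ := by
    rw [hC₀]
    have h1 : 0 ≤ (d:ℝ) * √(40002 * R ^ 2 * (28 * RY ^ 2 * d / r)) := by positivity
    have h2 : 0 ≤ (d:ℝ) * (22 * RY ^ 2 * d / r) := by positivity
    have h3 : 0 < 4 * RY ^ 2 / (r / 2) := by positivity
    linarith
  refine ⟨Real.toNNReal C₀, ?_⟩
  intro μ ν hμ hν Tμ Tν hTμ hTν π hπ
  have hmain := Crest.Agent.OT.total_stability hB hne G hr hYc hYn hYR hμ hν hπ hTμ hTν
  rw [← hC₀] at hmain
  haveI := hB.isProb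
  have hC₀ne : ((Real.toNNReal C₀ : ℝ≥0) : ℝ≥0∞) ≠ 0 := by
    simpa using hC₀pos
  by_cases htop : quadCost π = ⊤
  · rw [htop, ENNReal.top_rpow_of_pos (by norm_num), ENNReal.mul_top hC₀ne]
    exact le_top
  · -- boundedness
    obtain ⟨y₀, hy₀⟩ := hYn
    have hae : ∀ {μ' : Measure (Crest.Agent.OT.EE d)} {T : Crest.Agent.OT.EE d → Crest.Agent.OT.EE d},
        IsProbabilityOn Y μ' → IsOptimalMap (uniformProbOn K) μ' T →
          ∀ᵐ x ∂(uniformProbOn K), ‖T x‖ ≤ RY := by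
      intro μ' T hμ' hT
      obtain ⟨φ, -, -, h⟩ := Crest.Agent.OT.optimal_potential hB hYc ⟨y₀, hy₀⟩ hYR hμ' hT
      exact h.mono fun x hx => hYR _ hx.1
    have hbd : ∀ᵐ x ∂(uniformProbOn K), ‖Tμ x - Tν x‖ ^ 2 ≤ 4 * RY ^ 2 := by
      filter_upwards [hae hμ hTμ, hae hν hTν] with x h1 h2
      have h3 : ‖Tμ x - Tν x‖ ≤ 2 * RY := (norm_sub_le _ _).trans (by linarith)
      have := pow_le_pow_left₀ (norm_nonneg _) h3 2
      nlinarith
    rw [lintegral_eq hTμ.1 hTν.1 hbd]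
    have e1 : quadCost π = ENNReal.ofReal (quadCost π).toReal := (ENNReal.ofReal_toReal htop).symm
    have hW : 0 ≤ (quadCost π).toReal := ENNReal.toReal_nonneg
    have e2 : quadCost π ^ (1 / 3 : ℝ) = ENNReal.ofReal ((quadCost π).toReal ^ (1 / 3 : ℝ)) := by
      nth_rewrite 1 [e1]
      rw [ENNReal.ofReal_rpow_of_nonneg hW (by norm_num)]
    have e3 : ((Real.toNNReal C₀ : ℝ≥0) : ℝ≥0∞) = ENNReal.ofReal C₀ := rfl
    rw [e2, e3, ← ENNReal.ofReal_mul hC₀pos.le]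
    exact ENNReal.ofReal_le_ofReal hmain

end Crest.Agent.S0109
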