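-- Proof of S0110 (row 82): sharpness of the exponent 1/3 on the cube.
import Crest.Statements.S0110
import Crest.Agent.Lib.OTSharpCube

set_option autoImplicit false
open MeasureTheory
open scoped ENNReal NNReal
open Crest.AnalysisR.OT
open Crest Crest.AnalysisR Crest.AnalysisR.OT

namespace Crest.Agent.S0110

open Crest.Agent.OTSharp in
/-- The exponent one third is optimal, even on the cube with three-atom targets: for d ≥ 2, ρ the uniform probability measure on the cube of points of ℝᵈ with all coordinates in [-1, 1], every α > 1/3 and every C ≥ 0, there are three-atomic probability measures μ, ν on that cube, each admitting a quadratic optimal transport map from ρ, such that for all such optimal maps Tμ, Tν some coupling π of μ, ν has C · (∫ ‖y - z‖² dπ)^α < ∫ ‖Tμ - Tν‖² dρ. Hence ‖Tμ - Tν‖_{L²(ρ)} > √C · W₂(μ, ν)^α. -/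
theorem result
    (d : ℕ) (hd : 2 ≤ d) (α : ℝ) (hα : 1 / 3 < α) (C : ℝ≥0) :
    ∃ μ ν : Measure (EuclideanSpace ℝ (Fin d)),
      IsProbabilityOn {x : EuclideanSpace ℝ (Fin d) | ∀ i, |x i| ≤ 1} μ ∧
      IsProbabilityOn {x : EuclideanSpace ℝ (Fin d) | ∀ i, |x i| ≤ 1} ν ∧
      IsThreeAtomic μ ∧ IsThreeAtomic ν ∧
      (∃ T, IsOptimalMap (uniformProbOn {x : EuclideanSpace ℝ (Fin d) | ∀ i, |x i| ≤ 1}) μ T) ∧
      (∃ T, IsOptimalMap (uniformProbOn {x : EuclideanSpace ℝ (Fin d) | ∀ i, |x i| ≤ 1}) ν T) ∧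
      ∀ Tμ Tν : EuclideanSpace ℝ (Fin d) → EuclideanSpace ℝ (Fin d),
        IsOptimalMap (uniformProbOn {x : EuclideanSpace ℝ (Fin d) | ∀ i, |x i| ≤ 1}) μ Tμ →
        IsOptimalMap (uniformProbOn {x : EuclideanSpace ℝ (Fin d) | ∀ i, |x i| ≤ 1}) ν Tν →
        ∃ π : Measure (EuclideanSpace ℝ (Fin d) × EuclideanSpace ℝ (Fin d)), IsPairCoupling μ ν π ∧
          (C : ℝ≥0∞) * quadCost π ^ α < ∫⁻ x, ‖Tμ x - Tν x‖ₑ ^ 2 ∂(uniformProbOn {x : EuclideanSpace ℝ (Fin d) | ∀ i, |x i| ≤ 1}) := by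
  obtain ⟨δ, hδ0, hδ1, hnum⟩ := exists_delta α hα C
  have hd0 : 0 < d := by omega
  have hd1 : 1 < d := by omega
  let i0 : Fin d := ⟨0, hd0⟩
  let i1 : Fin d := ⟨1, hd1⟩
  have h : i0 ≠ i1 := by simp [i0, i1, Fin.ext_iff]
  have hα0 : 0 < α := by linarith
  refine ⟨tgt i0 i1 δ 0, tgt i0 i1 δ δ, isProbOn h hδ0 hδ1 le_rfl hδ0.le,
    isProbOn h hδ0 hδ1 hδ0.le le_rfl, isThreeAtomic h hδ0 hδ1, isThreeAtomic h hδ0 hδ1,
    ⟨_, isOptimal_Tmap h hδ0 hδ1 le_rfl hδ0.le⟩, ⟨_, isOptimal_Tmap h hδ0 hδ1 hδ0.le le_rfl⟩, ?_⟩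
  intro Tμ Tν hμ hν
  refine ⟨coup i0 i1 δ, coup_isCoupling, ?_⟩
  refine lt_of_lt_of_le ?_ (lower_bound h hδ0 hδ1 hμ hν)
  rw [quadCost_coup hδ0, ENNReal.ofReal_rpow_of_pos (by positivity),
    ← ENNReal.ofReal_coe_nnreal, ← ENNReal.ofReal_mul C.coe_nonneg,
    ENNReal.ofReal_lt_ofReal_iff (by positivity)]
  exact hnum

end Crest.Agent.S0110
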