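import Crest.Statements.S0166
import Crest.Agent.Lib.DepthModel

set_option autoImplicit false
open Crest Crest.AnalysisR

namespace Crest.Agent.S0166

open Crest.Agent.Lib.TreeTests Crest.Agent.Lib.TreeAUC Crest.Agent.Lib.TwoCentreDiamond
  Crest.Agent.Lib.LpTwoSum Crest.Agent.Lib.DepthModel

/-- the `ℓ₂`-sum of the depth-limited model spaces -/
noncomputable abbrev YY : Type := lp (fun n : ℕ => XD n) 2

/-- the space as a record -/
noncomputable def theSpace : RealBanach :=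
  ⟨YY, inferInstance, inferInstance, inferInstance⟩

lemma twoCentre_YY : TwoCentre YY := twoCentre_lp twoCentre_XD

lemma reflexive_YY : Function.Surjective (NormedSpace.inclusionInDoubleDual ℝ YY) :=
  reflexive_lp reflexive_XD

lemma midpoint_YY (x : YY) (hx : ‖x‖ = 1) {t η : ℝ} (ht : 0 < t) (hη : 0 < η) :
    ∃ F : Set YY, IsCofG F ∧ ∀ y ∈ F, ‖y‖ = 1 →
      Real.sqrt (1 + t ^ 2 / 4) - 1 - η ≤ (‖x + t • y‖ + ‖x - t • y‖) / 2 - 1 :=
  midpoint_of_twoCentre twoCentre_YY x hx ht hη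

lemma not_finDim_YY : ¬ FiniteDimensional ℝ YY :=
  not_finDim (systemD 1) (eD_apply 1) (singleLI (X := fun n : ℕ => XD n) 1) (fun i => by simp)

lemma bushes_YY (h : ℕ) : ∃ x : YY, BushAt (1 : ℝ) 1 h x ∧ (1 : ℝ) ≤ ‖x‖ := by
  let J := singleLI (X := fun n : ℕ => XD n) (h + 1)
  refine ⟨J (Sv (eD (h + 1)) [0]), ?_, ?_⟩
  · exact bush_generic (systemD (h + 1)) (eD_apply (h + 1)) J (h + 1) (fun s _ hs => hs) h [0]
      (by simp; omega)
  · rw [J.norm_map]
    exact Sv_root_norm_ge (systemD (h + 1)) (eD_apply (h + 1)) (by simp)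

/-- There is a real Banach space (RealBanach record) that is separable, infinite-dimensional and reflexive, whose given norm has at every t > 0 averaged midpoint asymptotic modulus at least √(1 + t²/12) - 1 and at least (√(1 + t²/4) - 1)/2 and maximum-based midpoint modulus at least √(1 + t²/4) - 1, on which no equivalent norm is asymptotically uniformly convex, and in which for every k every map of the depth-k countably branching diamond graph of distortion at most D has 1 + k/4 ≤ D². -/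
theorem result :
    ∃ E : Crest.AnalysisR.RealBanach, E.IsSeparableInfiniteDim ∧ E.IsReflexive ∧
      (∀ t : ℝ, 0 < t → E.MidpointModulusGE E.norm t (Real.sqrt (1 + t ^ 2 / 12) - 1) ∧
        E.MidpointModulusGE E.norm t ((Real.sqrt (1 + t ^ 2 / 4) - 1) / 2) ∧
        E.MaxMidpointModulusGE E.norm t (Real.sqrt (1 + t ^ 2 / 4) - 1)) ∧
      (∀ N : E.X → ℝ, E.IsEquivNorm N → ¬ E.IsAUC N) ∧
      ∀ (k : ℕ) (f : Crest.AnalysisR.DiamondVertex k → E.X) (D : ℝ),
        E.HasDistortionLE k f D → 1 + (k : ℝ) / 4 ≤ D ^ 2 := by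
  refine ⟨theSpace, ⟨separable_lp separable_XD, not_finDim_YY⟩, reflexive_YY, fun t ht => ⟨?_, ?_, ?_⟩,
    fun N hN => ?_, fun k f D hf => ?_⟩
  · intro (x : YY) hx η hη
    obtain ⟨F, hF, hFy⟩ := midpoint_YY x hx ht hη
    refine ⟨F, hF, fun (y : YY) hy hyn => ?_⟩
    have h1 := hFy y hy hyn
    have h2 : Real.sqrt (1 + t ^ 2 / 12) ≤ Real.sqrt (1 + t ^ 2 / 4) :=
      Real.sqrt_le_sqrt (by nlinarith [sq_nonneg t])
    show Real.sqrt (1 + t ^ 2 / 12) - 1 - η ≤ (‖x + t • y‖ + ‖x - t • y‖) / 2 - 1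
    linarith
  · intro (x : YY) hx η hη
    obtain ⟨F, hF, hFy⟩ := midpoint_YY x hx ht hη
    refine ⟨F, hF, fun (y : YY) hy hyn => ?_⟩
    have h1 := hFy y hy hyn
    have h2 : 1 ≤ Real.sqrt (1 + t ^ 2 / 4) := by
      apply Real.le_sqrt_of_sq_le
      nlinarith [sq_nonneg t]
    show (Real.sqrt (1 + t ^ 2 / 4) - 1) / 2 - η ≤ (‖x + t • y‖ + ‖x - t • y‖) / 2 - 1
    linarith
  · intro (x : YY) hx η hη
    obtain ⟨F, hF, hFy⟩ := midpoint_YY x hx ht hη
    refine ⟨F, hF, fun (y : YY) hy hyn => ?_⟩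
    have h1 := hFy y hy hyn
    show Real.sqrt (1 + t ^ 2 / 4) - 1 - η ≤ max ‖x + t • y‖ ‖x - t • y‖ - 1
    have h2 := le_max_left ‖x + t • y‖ ‖x - t • y‖
    have h3 := le_max_right ‖x + t • y‖ ‖x - t • y‖
    linarith
  · exact not_isAUC_of_bushes theSpace 1 1 1 one_pos one_pos bushes_YY N hN
  · obtain ⟨s, hs, hfs⟩ := hf
    exact diamond_bound (X := YY) reflexive_YY twoCentre_YY k f D s hs hfs

end Crest.Agent.S0166
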