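import Crest.Statements.S0167
import Crest.Agent.Lib.TreeAUC
import Crest.Agent.Lib.DaugavetSlices

set_option autoImplicit false
set_option linter.unusedSectionVars false
open Crest Crest.AnalysisR

namespace Crest.Agent.S0167

open MeasureTheory Crest.AnalysisR.L1Subspace Crest.Agent.Lib.TreeAUC Crest.Agent.Lib.DaugavetSlices

section direction

variable {V : Type*} [NormedAddCommGroup V] [NormedSpace ℝ V] [Nontrivial V]

/-- Directions in a closed finite-codimensional subspace along which the norm grows slowly. -/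
lemma exists_dir (hD : HasDaugavetProperty V) (S : Submodule ℝ V) (hS : IsClosed (S : Set V))
    (hfin : FiniteDimensional ℝ (V ⧸ S)) (x : V) (hx : ‖x‖ = 1) {t ε : ℝ} (ht : 0 < t)
    (hε : 0 < ε) (hε1 : ε ≤ 1) :
    ∃ y ∈ S, ‖y‖ = 1 ∧ ‖x + t • y‖ ≤ 1 + max 0 (t - 2) + 2 * ε := by
  obtain ⟨x', hx', h1, h2⟩ := key_lemma hD S hS hfin x hx.le hε
  rw [hx] at h2
  set τ : ℝ := ‖x' - x‖ with hτ
  have hτpos : 0 < τ := by linarith
  refine ⟨τ⁻¹ • (x' - x), S.smul_mem _ hx', ?_, ?_⟩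
  · rw [norm_smul, norm_inv, Real.norm_eq_abs, abs_of_pos hτpos, inv_mul_cancel₀ hτpos.ne']
  rcases le_total t τ with htτ | htτ
  · have hθ0 : 0 ≤ t / τ := by positivity
    have hθ1 : t / τ ≤ 1 := (div_le_one hτpos).2 htτ
    have h3 : x + t • τ⁻¹ • (x' - x) = (1 - t / τ) • x + (t / τ) • x' := by
      rw [smul_smul, smul_sub, sub_smul, one_smul, ← div_eq_mul_inv]
      abel
    rw [h3]
    refine (norm_add_le _ _).trans ?_
    rw [norm_smul, norm_smul, hx, Real.norm_eq_abs, Real.norm_eq_abs, abs_of_nonneg hθ0,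
      abs_of_nonneg (by linarith)]
    have h4 : t / τ * ‖x'‖ ≤ t / τ * (1 + ε) := mul_le_mul_of_nonneg_left h1 hθ0
    have h5 : 0 ≤ max 0 (t - 2) := le_max_left _ _
    nlinarith
  · have h3 : x + t • τ⁻¹ • (x' - x) = x' + (t - τ) • τ⁻¹ • (x' - x) := by
      rw [sub_smul, smul_smul τ, mul_inv_cancel₀ hτpos.ne', one_smul]
      abel
    rw [h3]
    refine (norm_add_le _ _).trans ?_
    rw [norm_smul, norm_smul, norm_inv, Real.norm_eq_abs, Real.norm_eq_abs, abs_of_pos hτpos,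
      inv_mul_cancel₀ hτpos.ne', abs_of_nonneg (by linarith)]
    have h5 : t - 2 ≤ max 0 (t - 2) := le_max_right _ _
    linarith

/-- Bushes from the key lemma. -/
lemma bush_of_daugavet (hD : HasDaugavetProperty V) (κ : ℝ) (hκ : 0 < κ) (hκ1 : κ ≤ 1) :
    ∀ (k : ℕ) (x : V), |‖x‖ - 1| + k * κ ≤ 1 / 2 → BushAt (2 : ℝ) (1 / 2) k x := by
  intro k
  induction k with
  | zero =>
    intro x hx
    have h1 := abs_le.1 (by simpa using hx : |‖x‖ - 1| ≤ 1 / 2)
    show ‖x‖ ≤ 2
    linarith [h1.2]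
  | succ k ih =>
    intro x hx
    have hk0 : (0 : ℝ) ≤ k * κ := by positivity
    push_cast at hx
    have h1 := abs_le.1 (show |‖x‖ - 1| ≤ 1 / 2 by nlinarith [abs_nonneg (‖x‖ - 1)])
    refine ⟨by linarith [h1.2], ?_⟩
    rintro F ⟨S, rfl, hcl, hfin⟩ η hη
    set ρ : ℝ := ‖x‖ with hρ
    have hρpos : 0 < ρ := by linarith [h1.1]
    have hunit : ‖ρ⁻¹ • x‖ = 1 := by
      rw [norm_smul, norm_inv, Real.norm_eq_abs, abs_of_pos hρpos, ← hρ, inv_mul_cancel₀ hρpos.ne']
    obtain ⟨x₁, hx₁, h2, h3⟩ := key_lemma hD S hcl hfin (ρ⁻¹ • x) hunit.le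
      (show 0 < κ / 2 by positivity)
    rw [hunit] at h3
    have hstep : ρ • x₁ - x = ρ • (x₁ - ρ⁻¹ • x) := by
      rw [smul_sub, smul_smul, mul_inv_cancel₀ hρpos.ne', one_smul]
    have hnorm : ‖ρ • x₁ - x‖ = ρ * ‖x₁ - ρ⁻¹ • x‖ := by
      rw [hstep, norm_smul, Real.norm_eq_abs, abs_of_pos hρpos]
    have hnorm2 : ‖ρ • x₁‖ = ρ * ‖x₁‖ := by
      rw [norm_smul, Real.norm_eq_abs, abs_of_pos hρpos]
    have hup : ‖ρ • x₁‖ ≤ ρ + κ := by
      rw [hnorm2]
      nlinarith [h1.2]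
    have hlow1 : ρ * (1 + 1 - κ / 2) ≤ ‖ρ • x₁ - x‖ := by
      rw [hnorm]
      exact mul_le_mul_of_nonneg_left h3 hρpos.le
    have hlow2 : ρ - κ ≤ ‖ρ • x₁‖ := by
      have h4 := norm_sub_le (ρ • x₁) x
      rw [← hρ] at h4
      nlinarith [h1.2]
    refine ⟨ρ • x₁, ih _ ?_, ?_, ρ • x₁ - x, ?_, ?_⟩
    · have h5 : |‖ρ • x₁‖ - 1| ≤ |ρ - 1| + κ := by
        have h6 := abs_le.1 (le_refl |ρ - 1|)
        rw [abs_le]
        constructor <;> linarith [h6.1, h6.2]
      nlinarith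
    · nlinarith [h1.1]
    · rw [hstep]
      exact S.smul_mem _ hx₁
    · simpa using hη.le

end direction

section measure

variable {Ω : Type} [MeasurableSpace Ω] {P : Measure Ω} [IsProbabilityMeasure P]

/-- The sign of a function, with value `1` at zero. -/
noncomputable def sgnOf (g : Ω → ℝ) (ω : Ω) : ℝ := if 0 ≤ g ω then 1 else -1

lemma measurable_sgnOf {g : Ω → ℝ} (hg : Measurable g) : Measurable (sgnOf g) :=
  Measurable.ite (measurableSet_le measurable_const hg) measurable_const measurable_const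

lemma abs_sgnOf (g : Ω → ℝ) (ω : Ω) : |sgnOf g ω| = 1 := by
  unfold sgnOf
  split_ifs <;> simp

lemma integrable_mul_sgn (y : Lp ℝ 1 P) (g : Lp ℝ 1 P) :
    Integrable (fun ω => y ω * sgnOf g ω) P := by
  have hy : Integrable y P := L1.integrable_coeFn y
  have hs : Measurable (sgnOf (g : Ω → ℝ)) := measurable_sgnOf (Lp.stronglyMeasurable g).measurable
  refine hy.norm.mono' ?_ (ae_of_all _ fun ω => ?_)
  · exact (Lp.aestronglyMeasurable y).mul hs.aestronglyMeasurable
  · rw [norm_mul, Real.norm_eq_abs (sgnOf _ _), abs_sgnOf, mul_one]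

/-- Integration against a sign as a continuous linear functional. -/
noncomputable def sgnFun (g : Lp ℝ 1 P) : StrongDual ℝ (Lp ℝ 1 P) :=
  LinearMap.mkContinuous
    { toFun := fun y => ∫ ω, y ω * sgnOf g ω ∂P
      map_add' := by
        intro y z
        rw [← integral_add (integrable_mul_sgn y g) (integrable_mul_sgn z g)]
        refine integral_congr_ae ?_
        filter_upwards [Lp.coeFn_add y z] with ω hω
        rw [hω]
        simp only [Pi.add_apply]
        ring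
      map_smul' := by
        intro c y
        simp only [RingHom.id_apply, smul_eq_mul]
        rw [← integral_const_mul]
        refine integral_congr_ae ?_
        filter_upwards [Lp.coeFn_smul c y] with ω hω
        rw [hω]
        simp only [Pi.smul_apply, smul_eq_mul]
        ring } 1
    (by
      intro y
      simp only [LinearMap.coe_mk, AddHom.coe_mk, one_mul]
      rw [L1.norm_eq_integral_norm]
      refine (norm_integral_le_integral_norm _).trans (le_of_eq ?_)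
      refine integral_congr_ae (ae_of_all _ fun ω => ?_)
      simp only
      rw [norm_mul, Real.norm_eq_abs (sgnOf _ _), abs_sgnOf, mul_one])

lemma sgnFun_apply (g y : Lp ℝ 1 P) : sgnFun g y = ∫ ω, y ω * sgnOf g ω ∂P := rfl

/-- A unit vector annihilated by the sign of `g` and close to `g` in measure has half of its mass
on the small set where it is far from `g`. -/
lemma half_mass (y g : Lp ℝ 1 P) (hy : ‖y‖ = 1) (h0 : sgnFun g y = 0) {a : ℝ} (ha : 0 < a) :
    1 / 2 - a ≤ ∫ ω in {z | a < |y z - g z|}, |y ω| ∂P := by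
  set B : Set Ω := {z | a < |y z - g z|} with hB
  have hYm : Measurable (y : Ω → ℝ) := (Lp.stronglyMeasurable y).measurable
  have hGm : Measurable (g : Ω → ℝ) := (Lp.stronglyMeasurable g).measurable
  have hBm : MeasurableSet B := measurableSet_lt measurable_const (hYm.sub hGm).abs
  have hint : Integrable (y : Ω → ℝ) P := L1.integrable_coeFn y
  have hI : Integrable (fun ω => |y ω| - y ω * sgnOf g ω) P :=
    hint.abs.sub (integrable_mul_sgn y g)
  have hone : ∫ ω, (|y ω| - y ω * sgnOf g ω) ∂P = 1 := by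
    rw [integral_sub hint.abs (integrable_mul_sgn y g), ← sgnFun_apply, h0, sub_zero, ← hy,
      L1.norm_eq_integral_norm]
    rfl
  have hsplit := integral_add_compl hBm hI
  rw [hone] at hsplit
  have h1 : ∫ ω in B, (|y ω| - y ω * sgnOf g ω) ∂P ≤ ∫ ω in B, 2 * |y ω| ∂P := by
    refine setIntegral_mono hI.integrableOn (hint.abs.const_mul 2).integrableOn fun ω => ?_
    simp only [sgnOf]
    split_ifs <;> cases abs_cases (y ω) <;> linarith
  have h2 : ∫ ω in Bᶜ, (|y ω| - y ω * sgnOf g ω) ∂P ≤ ∫ ω in Bᶜ, 2 * a ∂P := by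
    refine setIntegral_mono_on hI.integrableOn (integrable_const _).integrableOn hBm.compl ?_
    intro ω hω
    have h3 : |y ω - g ω| ≤ a := by
      simpa [hB] using hω
    have h4 := abs_le.1 h3
    simp only [sgnOf]
    split_ifs with h5 <;> cases abs_cases (y ω) <;> linarith [h4.1, h4.2]
  have h3 : ∫ ω in Bᶜ, 2 * a ∂P ≤ 2 * a := by
    rw [setIntegral_const, smul_eq_mul]
    have : P.real Bᶜ ≤ 1 := measureReal_le_one
    nlinarith
  have h4 : ∫ ω in B, 2 * |y ω| ∂P = 2 * ∫ ω in B, |y ω| ∂P := integral_const_mul _ _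
  linarith

/-- the lower bound of the midpoint quantity in terms of a set -/
lemma avg_lower (x y : Lp ℝ 1 P) {t : ℝ} (ht : 0 < t) {B : Set Ω} (hB : MeasurableSet B) :
    2 * t * ∫ ω in B, |y ω| ∂P + 2 * (‖x‖ - ∫ ω in B, |x ω| ∂P) ≤ ‖x + t • y‖ + ‖x - t • y‖ := by
  have hx : Integrable (x : Ω → ℝ) P := L1.integrable_coeFn x
  have hy : Integrable (y : Ω → ℝ) P := L1.integrable_coeFn y
  have e1 : ‖x + t • y‖ = ∫ ω, |x ω + t * y ω| ∂P := by
    rw [L1.norm_eq_integral_norm]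
    refine integral_congr_ae ?_
    filter_upwards [Lp.coeFn_add x (t • y), Lp.coeFn_smul t y] with ω h1 h2
    rw [h1, Pi.add_apply, h2]
    rfl
  have e2 : ‖x - t • y‖ = ∫ ω, |x ω - t * y ω| ∂P := by
    rw [L1.norm_eq_integral_norm]
    refine integral_congr_ae ?_
    filter_upwards [Lp.coeFn_sub x (t • y), Lp.coeFn_smul t y] with ω h1 h2
    rw [h1, Pi.sub_apply, h2]
    rfl
  have e3 : ‖x‖ = ∫ ω, |x ω| ∂P := by
    rw [L1.norm_eq_integral_norm]
    rfl
  have hi1 : Integrable (fun ω => |x ω + t * y ω|) P := (hx.add (hy.const_mul t)).abs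
  have hi2 : Integrable (fun ω => |x ω - t * y ω|) P := (hx.sub (hy.const_mul t)).abs
  have hi3 : Integrable (fun ω => |x ω + t * y ω| + |x ω - t * y ω|) P := hi1.add hi2
  have hsum : ‖x + t • y‖ + ‖x - t • y‖ = ∫ ω, (|x ω + t * y ω| + |x ω - t * y ω|) ∂P := by
    rw [e1, e2, integral_add hi1 hi2]
  have h1 : ∫ ω in B, 2 * t * |y ω| ∂P ≤ ∫ ω in B, (|x ω + t * y ω| + |x ω - t * y ω|) ∂P := by
    refine setIntegral_mono (hy.abs.const_mul _).integrableOn hi3.integrableOn fun ω => ?_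
    have h2 : 2 * (t * y ω) = (x ω + t * y ω) - (x ω - t * y ω) := by ring
    have h3 : |2 * (t * y ω)| ≤ |x ω + t * y ω| + |x ω - t * y ω| := by
      rw [h2]; exact abs_sub _ _
    rw [abs_mul, abs_mul, abs_of_pos ht, abs_of_pos (by norm_num : (0 : ℝ) < 2)] at h3
    linarith
  have h2 : ∫ ω in Bᶜ, 2 * |x ω| ∂P ≤ ∫ ω in Bᶜ, (|x ω + t * y ω| + |x ω - t * y ω|) ∂P := by
    refine setIntegral_mono (hx.abs.const_mul _).integrableOn hi3.integrableOn fun ω => ?_
    have h2 : 2 * x ω = (x ω + t * y ω) + (x ω - t * y ω) := by ring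
    have h3 : |2 * x ω| ≤ |x ω + t * y ω| + |x ω - t * y ω| := by
      rw [h2]; exact abs_add_le _ _
    rw [abs_mul, abs_of_pos (by norm_num : (0 : ℝ) < 2)] at h3
    linarith
  have h3 := integral_add_compl hB hi3
  have h4 := integral_add_compl hB hx.abs
  have h5 : ∫ ω in B, 2 * t * |y ω| ∂P = 2 * t * ∫ ω in B, |y ω| ∂P := integral_const_mul _ _
  have h6 : ∫ ω in Bᶜ, 2 * |x ω| ∂P = 2 * ∫ ω in Bᶜ, |x ω| ∂P := integral_const_mul _ _
  rw [hsum, e3]
  rw [h5] at h1
  rw [h6] at h2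
  linarith

/-- absolute continuity of the integral of a fixed function -/
lemma abs_cont (x : Lp ℝ 1 P) {η : ℝ} (hη : 0 < η) : ∃ δ : ℝ, 0 < δ ∧ ∀ B : Set Ω,
    P B < ENNReal.ofReal δ → ∫ ω in B, |x ω| ∂P < η := by
  have hx : Integrable (x : Ω → ℝ) P := L1.integrable_coeFn x
  have h1 := hx.abs.tendsto_setIntegral_nhds_zero (l := Filter.comap P (nhds 0)) (s := id)
    Filter.tendsto_comap
  have h2 := Metric.tendsto_nhds.1 h1 η hη
  rw [Filter.eventually_comap] at h2
  obtain ⟨δ, hδ, h3⟩ := ENNReal.nhds_zero_basis.eventually_iff.1 h2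
  have hδ' : 0 < min δ 1 := lt_min hδ one_pos
  have hne : min δ 1 ≠ ⊤ := ne_top_of_le_ne_top ENNReal.one_ne_top (min_le_right _ _)
  refine ⟨(min δ 1).toReal, ENNReal.toReal_pos hδ'.ne' hne, fun B hB => ?_⟩
  rw [ENNReal.ofReal_toReal hne] at hB
  have h4 := h3 (lt_of_lt_of_le hB (min_le_left _ _)) B rfl
  simp only [id, Real.dist_eq, sub_zero] at h4
  exact (le_abs_self _).trans_lt h4

/-- extracting a level from the measure distance -/
lemma exists_level {f g : Lp ℝ 1 P} {ε : ℝ} (h : measureDist P f g < ε) :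
    ∃ a : ℝ, 0 < a ∧ a < ε ∧ P {z | a < |f z - g z|} < ENNReal.ofReal a := by
  have hne : {a : ℝ | 0 < a ∧ P {z | a < |f z - g z|} < ENNReal.ofReal a}.Nonempty := by
    refine ⟨2, by norm_num, ?_⟩
    refine lt_of_le_of_lt prob_le_one ?_
    rw [show (1 : ENNReal) = ENNReal.ofReal 1 by simp]
    exact (ENNReal.ofReal_lt_ofReal_iff (by norm_num)).2 (by norm_num)
  obtain ⟨a, ⟨ha, ha'⟩, hlt⟩ := exists_lt_of_csInf_lt hne h
  exact ⟨a, ha, hlt, ha'⟩

end measure

section main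

variable (Ω : Type) [MeasurableSpace Ω] (P : MeasureTheory.Measure Ω) [MeasureTheory.IsProbabilityMeasure P]
    (E : Submodule ℝ (MeasureTheory.Lp ℝ 1 P))

/-- the lower bound of the midpoint quantity -/
lemma midpoint_half (htb : UnitBallTotallyBoundedInMeasure P E) (x : E) (hx : ‖x‖ = 1) {t η : ℝ}
    (ht : 0 < t) (hη : 0 < η) :
    ∃ F : Set E, IsCofG F ∧ ∀ y ∈ F, ‖y‖ = 1 → t / 2 - η ≤ (‖x + t • y‖ + ‖x - t • y‖) / 2 - 1 := by
  classical
  obtain ⟨δ, hδ, hcont⟩ := abs_cont (x : Lp ℝ 1 P) (show 0 < η / 2 by positivity)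
  set ε : ℝ := min δ (η / (2 * t)) with hε
  have hεpos : 0 < ε := lt_min hδ (by positivity)
  obtain ⟨s, -, hs⟩ := htb ε hεpos
  let φ : Lp ℝ 1 P → StrongDual ℝ E := fun g => (sgnFun g).comp E.subtypeL
  refine ⟨_, isCofG_of_functionals s φ, fun y hy hynorm => ?_⟩
  have hy' : ‖(y : Lp ℝ 1 P)‖ ≤ 1 := by
    rw [← Submodule.coe_norm, hynorm]
  obtain ⟨g, hg, hdist⟩ := hs y y.2 hy'
  obtain ⟨a, ha, haε, hP⟩ := exists_level hdist
  have h0 : sgnFun g (y : Lp ℝ 1 P) = 0 := hy g hg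
  have hmass := half_mass (y : Lp ℝ 1 P) g (by rw [← Submodule.coe_norm, hynorm]) h0 ha
  have hYm : Measurable ((y : Lp ℝ 1 P) : Ω → ℝ) := (Lp.stronglyMeasurable _).measurable
  have hGm : Measurable (g : Ω → ℝ) := (Lp.stronglyMeasurable g).measurable
  have hBm : MeasurableSet {z | a < |(y : Lp ℝ 1 P) z - g z|} :=
    measurableSet_lt measurable_const (hYm.sub hGm).abs
  have haδ : a ≤ δ := haε.le.trans (min_le_left _ _)
  have hB2 := hcont {z | a < |(y : Lp ℝ 1 P) z - g z|}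
    (lt_of_lt_of_le hP (ENNReal.ofReal_le_ofReal haδ))
  have hlow := avg_lower (x : Lp ℝ 1 P) (y : Lp ℝ 1 P) ht hBm
  have hnx : ‖(x : Lp ℝ 1 P)‖ = 1 := by rw [← Submodule.coe_norm, hx]
  rw [hnx] at hlow
  have hta : t * a ≤ η / 2 := by
    have h1 : a ≤ η / (2 * t) := haε.le.trans (min_le_right _ _)
    calc t * a ≤ t * (η / (2 * t)) := mul_le_mul_of_nonneg_left h1 ht.le
      _ = η / 2 := by field_simp
  have e1 : ‖x + t • y‖ = ‖(x : Lp ℝ 1 P) + t • (y : Lp ℝ 1 P)‖ := by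
    rw [Submodule.coe_norm]; rfl
  have e2 : ‖x - t • y‖ = ‖(x : Lp ℝ 1 P) - t • (y : Lp ℝ 1 P)‖ := by
    rw [Submodule.coe_norm]; rfl
  rw [e1, e2]
  have h3 : 2 * t * (1 / 2 - a) ≤
      2 * t * ∫ ω in {z | a < |(y : Lp ℝ 1 P) z - g z|}, |(y : Lp ℝ 1 P) ω| ∂P :=
    mul_le_mul_of_nonneg_left hmass (by positivity)
  nlinarith

end main

/-- Let E be an infinite-dimensional closed subspace of the real L¹ of a probability space whose closed unit ball is totally bounded for convergence in measure and whose norm has the Daugavet property. Then at every unit x ∈ E and every t > 0 the averaged midpoint quantity sup_F inf_y ((‖x+ty‖+‖x-ty‖)/2 - 1) equals max(t/2, t-1) and the one-sided one sup_F inf_y (‖x+ty‖ - 1) equals max(0, t-2), as matching lower and upper bounds, and E admits no equivalent asymptotically uniformly convex norm. -/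
theorem result (Ω : Type) [MeasurableSpace Ω] (P : MeasureTheory.Measure Ω) [MeasureTheory.IsProbabilityMeasure P]
    (E : Submodule ℝ (MeasureTheory.Lp ℝ 1 P)) (hcl : IsClosed (E : Set (MeasureTheory.Lp ℝ 1 P)))
    (hinf : ¬ FiniteDimensional ℝ E)
    (htb : Crest.AnalysisR.L1Subspace.UnitBallTotallyBoundedInMeasure P E)
    (hD : Crest.AnalysisR.L1Subspace.HasDaugavetProperty E) :
    (∀ t : ℝ, 0 < t →
      (Crest.AnalysisR.L1Subspace.toRealBanach P E hcl).MidpointModulusGE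
          (Crest.AnalysisR.L1Subspace.toRealBanach P E hcl).norm t (max (t / 2) (t - 1)) ∧
        (Crest.AnalysisR.L1Subspace.toRealBanach P E hcl).MidpointModulusLE
          (Crest.AnalysisR.L1Subspace.toRealBanach P E hcl).norm t (max (t / 2) (t - 1)) ∧
        (Crest.AnalysisR.L1Subspace.toRealBanach P E hcl).OneSidedModulusGE
          (Crest.AnalysisR.L1Subspace.toRealBanach P E hcl).norm t (max 0 (t - 2)) ∧
        (Crest.AnalysisR.L1Subspace.toRealBanach P E hcl).OneSidedModulusLE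
          (Crest.AnalysisR.L1Subspace.toRealBanach P E hcl).norm t (max 0 (t - 2))) ∧
      ∀ N : E → ℝ, (Crest.AnalysisR.L1Subspace.toRealBanach P E hcl).IsEquivNorm N →
        ¬ (Crest.AnalysisR.L1Subspace.toRealBanach P E hcl).IsAUC N := by
  have hnt : Nontrivial E := by
    by_contra hn
    rw [not_nontrivial_iff_subsingleton] at hn
    exact hinf inferInstance
  refine ⟨fun t ht => ⟨?_, ?_, ?_, ?_⟩, ?_⟩
  · -- midpoint lower bound
    intro (x : E) hx η hη
    have hx' : ‖x‖ = 1 := hx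
    obtain ⟨F, hF, hFy⟩ := midpoint_half Ω P E htb x hx' ht hη
    refine ⟨F, hF, fun (y : E) hy hyn => ?_⟩
    have hyn' : ‖y‖ = 1 := hyn
    have h1 := hFy y hy hyn'
    have h2 : ‖(2 * t : ℝ) • y‖ ≤ ‖x + t • y‖ + ‖x - t • y‖ := by
      have h3 : (2 * t : ℝ) • y = (x + t • y) - (x - t • y) := by
        rw [two_mul, add_smul]; abel
      rw [h3]
      exact norm_sub_le _ _
    rw [norm_smul, hyn', mul_one, Real.norm_eq_abs, abs_of_pos (by positivity)] at h2
    show max (t / 2) (t - 1) - η ≤ (‖x + t • y‖ + ‖x - t • y‖) / 2 - 1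
    have h4 : t / 2 - η ≤ (‖x + t • y‖ + ‖x - t • y‖) / 2 - 1 := h1
    rcases max_cases (t / 2) (t - 1) with ⟨h5, _⟩ | ⟨h5, _⟩ <;> rw [h5] <;> linarith
  · -- midpoint upper bound
    rintro (x : E) hx F ⟨(S : Submodule ℝ E), rfl, hcl', hfin⟩ η hη
    have hx' : ‖x‖ = 1 := hx
    obtain ⟨y, hyS, hyn, hy⟩ := exists_dir hD S hcl' hfin x hx' ht
      (show 0 < min η 1 by exact lt_min hη one_pos) (min_le_right _ _)
    refine ⟨y, hyS, hyn, ?_⟩
    show (‖x + t • y‖ + ‖x - t • y‖) / 2 - 1 ≤ max (t / 2) (t - 1) + η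
    have h1 : ‖x - t • y‖ ≤ 1 + t := by
      refine (norm_sub_le _ _).trans ?_
      rw [norm_smul, hyn, hx', mul_one, Real.norm_eq_abs, abs_of_pos ht]
    have h2 : min η 1 ≤ η := min_le_left _ _
    rcases max_cases 0 (t - 2) with ⟨h5, h6⟩ | ⟨h5, h6⟩ <;>
      rcases max_cases (t / 2) (t - 1) with ⟨h7, h8⟩ | ⟨h7, h8⟩ <;> rw [h5] at hy <;> rw [h7] <;>
      linarith
  · -- one-sided lower bound
    intro (x : E) hx η hη
    have hx' : ‖x‖ = 1 := hx
    obtain ⟨φ, hφ, hφx⟩ := exists_dual_vector'' ℝ x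
    refine ⟨{y | ∀ i ∈ ({()} : Finset Unit), (fun _ => φ) i y = 0},
      isCofG_of_functionals {()} (fun _ => φ), fun (y : E) hy hyn => ?_⟩
    have hyn' : ‖y‖ = 1 := hyn
    have h0 : φ y = 0 := hy () (by simp)
    show max 0 (t - 2) - η ≤ ‖x + t • y‖ - 1
    have h1 : 1 ≤ ‖x + t • y‖ := by
      have h2 : φ (x + t • y) = 1 := by
        simp only [map_add, map_smul, h0, smul_zero, add_zero]
        rw [hφx, hx']
        rfl
      have h3 : |φ (x + t • y)| ≤ ‖φ‖ * ‖x + t • y‖ := φ.le_opNorm _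
      rw [h2, abs_one] at h3
      have h4 : ‖φ‖ * ‖x + t • y‖ ≤ 1 * ‖x + t • y‖ :=
        mul_le_mul_of_nonneg_right hφ (norm_nonneg _)
      linarith
    have h2 : t - 1 ≤ ‖x + t • y‖ := by
      have h3 : t • y = (x + t • y) - x := by abel
      have h4 := norm_sub_le (x + t • y) x
      rw [← h3, norm_smul, hyn', mul_one, Real.norm_eq_abs, abs_of_pos ht, hx'] at h4
      linarith
    rcases max_cases 0 (t - 2) with ⟨h5, _⟩ | ⟨h5, _⟩ <;> rw [h5] <;> linarith
  · -- one-sided upper bound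
    rintro (x : E) hx F ⟨(S : Submodule ℝ E), rfl, hcl', hfin⟩ η hη
    have hx' : ‖x‖ = 1 := hx
    obtain ⟨y, hyS, hyn, hy⟩ := exists_dir hD S hcl' hfin x hx' ht
      (show 0 < min (η / 2) 1 by exact lt_min (by positivity) one_pos) (min_le_right _ _)
    refine ⟨y, hyS, hyn, ?_⟩
    show ‖x + t • y‖ - 1 ≤ max 0 (t - 2) + η
    have h2 : min (η / 2) 1 ≤ η / 2 := min_le_left _ _
    linarith
  · intro N hN
    refine not_isAUC_of_bushes (toRealBanach P E hcl) 2 (1 / 2) 1 (by norm_num) one_pos ?_ N hN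
    intro n
    obtain ⟨x, hx⟩ := exists_norm_eq E (zero_le_one' ℝ)
    refine ⟨x, ?_, hx.ge⟩
    have hκ : (0 : ℝ) < 1 / (2 * (n + 1)) := by positivity
    have hκ1 : (1 : ℝ) / (2 * (n + 1)) ≤ 1 := by
      rw [div_le_one (by positivity)]
      have : (0 : ℝ) ≤ n := Nat.cast_nonneg n
      linarith
    refine bush_of_daugavet hD _ hκ hκ1 n x ?_
    rw [hx, sub_self, abs_zero, zero_add, mul_one_div, div_le_iff₀ (by positivity)]
    have : (0 : ℝ) ≤ n := Nat.cast_nonneg n
    linarith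

end Crest.Agent.S0167
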