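import Crest.Statements.S0168
import Crest.Agent.Lib.TreeModels

set_option autoImplicit false
open Crest Crest.AnalysisR

namespace Crest.Agent.S0168

open Crest.AnalysisR.TreePotential Crest.Agent.Lib.TreeTests Crest.Agent.Lib.TreeModels
  Crest.Agent.Lib.TreeAUC

/-- For each of the four bounded-potential coordinate models on the countably branching tree (rootless sibling, rooted sibling, antichain, global), the generated space, namely the closure of the span of the coordinate vectors in the supremum norm over the model's tests, is separable and infinite-dimensional, its norm has at every unit centre and every 0 < t < 1 averaged midpoint asymptotic quantity at least √(1 + t²/4) - 1, and no equivalent norm on it is asymptotically uniformly convex. -/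
theorem result
    (m : Crest.AnalysisR.TreePotential.PotentialModel) :
    (Crest.AnalysisR.TreePotential.modelBanach m).IsSeparableInfiniteDim ∧
      (∀ t : ℝ, 0 < t → t < 1 →
        (Crest.AnalysisR.TreePotential.modelBanach m).MidpointModulusGE
          (Crest.AnalysisR.TreePotential.modelBanach m).norm t (Real.sqrt (1 + t ^ 2 / 4) - 1)) ∧
      ∀ N : (Crest.AnalysisR.TreePotential.modelBanach m).X → ℝ,
        (Crest.AnalysisR.TreePotential.modelBanach m).IsEquivNorm N →
          ¬ (Crest.AnalysisR.TreePotential.modelBanach m).IsAUC N := by
  have hS := system m
  have he : ∀ s (f : TT (IsTest m)), (coordVector m s : LL (IsTest m)) f = f.1 s := fun s f => rfl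
  let e : List ℕ → LL (IsTest m) := coordVector m
  have hsp : modelSpace m = Sp e := rfl
  have hfin : ¬ FiniteDimensional ℝ (Sp e) :=
    not_finDim hS he (LinearIsometry.id (R := ℝ) (E := Sp e))
      (fun i => allowed_child m _ (by simp))
  refine ⟨⟨sp_separable (e := e), hfin⟩, ?_, ?_⟩
  · intro t ht _ x hx η hη
    exact midpoint_generic hS he x hx ht hη
  · intro N hN
    refine not_isAUC_of_bushes (modelBanach m) 1 1 1 one_pos one_pos ?_ N hN
    intro n
    refine ⟨Sv e [0], ?_, Sv_root_norm_ge hS he (allowed_child m _ (by simp))⟩
    exact bush_generic hS he (LinearIsometry.id (R := ℝ) (E := Sp e)) (n + 1)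
      (fun s hs _ => allowed_child m s hs) n [0] (by simp; omega)

end Crest.Agent.S0168
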