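import Crest.Statements.S0169
import Crest.Agent.Lib.TreeAUC

set_option autoImplicit false
set_option linter.unusedSectionVars false
open MeasureTheory ProbabilityTheory
open Crest Crest.AnalysisR

namespace Crest.Agent.S0169

open Crest.AnalysisR.TreeProduct Crest.Agent.Lib.TreeAUC

section aux

/-- The non-root vertices on the path from the root to `v`. -/
def anc : List ℕ → Finset (List ℕ)
  | [] => ∅
  | a :: v => insert (a :: v) (anc v)

lemma length_le_of_mem_anc : ∀ {v u : List ℕ}, u ∈ anc v → u.length ≤ v.length ∧ u ≠ []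
  | [], u, h => by simp [anc] at h
  | a :: v, u, h => by
    simp only [anc, Finset.mem_insert] at h
    rcases h with rfl | h
    · simp
    · have := length_le_of_mem_anc h
      exact ⟨by simp only [List.length_cons]; omega, this.2⟩

lemma cons_notMem_anc (a : ℕ) (v : List ℕ) : (a :: v) ∉ anc v := by
  intro h
  have := (length_le_of_mem_anc h).1
  simp at this

variable {Ω : Type} [MeasurableSpace Ω] (W : List ℕ → Ω → ℝ)

lemma pathProduct_eq_prod : ∀ (v : List ℕ) (ω : Ω), pathProduct W v ω = ∏ u ∈ anc v, W u ω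
  | [], ω => by simp [anc, pathProduct]
  | a :: v, ω => by
    simp only [anc, pathProduct]
    rw [Finset.prod_insert (cons_notMem_anc a v), pathProduct_eq_prod v ω, mul_comm]

variable {W}

lemma measurable_pathProduct (hm : ∀ v, Measurable (W v)) :
    ∀ v, Measurable (pathProduct W v)
  | [] => by simpa [pathProduct] using measurable_const
  | a :: v => by
    have := measurable_pathProduct hm v
    exact this.mul (hm _)

variable {μ : Measure Ω} [IsProbabilityMeasure μ]

lemma toL1_sum {ι : Type*} (A : Finset ι) (g : ι → Ω → ℝ) (hg : ∀ i, Integrable (g i) μ)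
    (hs : Integrable (∑ i ∈ A, g i) μ) :
    ∑ i ∈ A, (hg i).toL1 (g i) = hs.toL1 (∑ i ∈ A, g i) := by
  classical
  induction A using Finset.induction_on with
  | empty =>
    simp only [Finset.sum_empty]
    exact (Integrable.toL1_zero hs).symm
  | insert a s ha ih =>
    rw [Finset.sum_insert ha]
    have hs' : Integrable (∑ i ∈ s, g i) μ := integrable_finsetSum' s fun i _ => hg i
    rw [ih hs']
    have h1 := Integrable.toL1_add (g a) (∑ i ∈ s, g i) (hg a) hs'
    rw [← h1]
    congr 1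
    rw [Finset.sum_insert ha]

/-- Independence of a path product and a function of finitely many other variables. -/
lemma indep_path (hm : ∀ v, Measurable (W v)) (hindep : iIndepFun W μ) (v : List ℕ)
    (T : Finset (List ℕ)) (hT : Disjoint (anc v) T) (ψ : (T → ℝ) → ℝ) (hψ : Measurable ψ) :
    IndepFun (pathProduct W v) (fun ω => ψ (fun j : T => W j ω)) μ := by
  have h := iIndepFun.indepFun_finset (anc v) T hT hindep hm
  let φ : (anc v → ℝ) → ℝ := fun f => ∏ i, f i
  have hφ : Measurable φ := by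
    apply Finset.measurable_prod
    intro i _
    exact measurable_pi_apply i
  have h2 := h.comp hφ hψ
  have h3 : pathProduct W v = φ ∘ fun a (i : anc v) => W i a := by
    funext ω
    rw [pathProduct_eq_prod]
    simp only [φ, Function.comp_apply]
    exact (Finset.prod_coe_sort (anc v) fun u => W u ω).symm
  rw [h3]
  exact h2

end aux

section main

variable (ν : Measure ℝ) [IsProbabilityMeasure ν] (hpos : ν (Set.Ioi 0) = 1)
    (hnc : ∀ c : ℝ, ν ≠ Measure.dirac c) (hmean : ∫ x, x ∂ν = 1)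
    (hm2 : Integrable (fun x : ℝ => x ^ 2) ν)
    (Ω : Type) [MeasurableSpace Ω] (μ : Measure Ω) [IsProbabilityMeasure μ]
    (W : List ℕ → Ω → ℝ) (hW : Crest.AnalysisR.TreeProduct.IsRealization ν μ W)

include hm2 in
lemma integrable_id : Integrable (fun x : ℝ => x) ν := by
  refine Integrable.mono' (hm2.add (integrable_const (1 : ℝ))) measurable_id.aestronglyMeasurable
    (ae_of_all _ fun x => ?_)
  simp only [Pi.add_apply, Real.norm_eq_abs]
  have : 0 ≤ (|x| - 1) ^ 2 := sq_nonneg _
  have h2 : |x| ^ 2 = x ^ 2 := sq_abs x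
  nlinarith [abs_nonneg x]

include hW hm2 in
lemma memLp_W {v : List ℕ} (hv : v ≠ []) : MemLp (W v) 2 μ := by
  have hmv := hW.1 v
  rw [memLp_two_iff_integrable_sq hmv.aestronglyMeasurable]
  have : Integrable (fun x : ℝ => x ^ 2) (Measure.map (W v) μ) := by
    rw [hW.2.2 v hv]; exact hm2
  exact (integrable_map_measure (by fun_prop) hmv.aemeasurable).1 this

include hW hm2 in
lemma integrable_W {v : List ℕ} (hv : v ≠ []) : Integrable (W v) μ :=
  (memLp_W ν hm2 Ω μ W hW hv).integrable (by norm_num)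

include hW hm2 hmean in
lemma integral_W {v : List ℕ} (hv : v ≠ []) : ∫ ω, W v ω ∂μ = 1 := by
  have hmv := hW.1 v
  rw [← hmean, ← hW.2.2 v hv, integral_map hmv.aemeasurable (by fun_prop)]

include hW hpos in
lemma W_pos {v : List ℕ} (hv : v ≠ []) : ∀ᵐ ω ∂μ, 0 < W v ω := by
  have hmv := hW.1 v
  have h1 : ∀ᵐ x ∂(Measure.map (W v) μ), x ∈ Set.Ioi (0 : ℝ) := by
    rw [hW.2.2 v hv]
    have : ν (Set.Ioi 0)ᶜ = 0 := by
      rw [prob_compl_eq_zero_iff measurableSet_Ioi, hpos]
    exact this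
  have := ae_of_ae_map hmv.aemeasurable h1
  exact this

include hW hpos hmean hm2 in
lemma path_props : ∀ v : List ℕ, Integrable (pathProduct W v) μ ∧
    ∫ ω, pathProduct W v ω ∂μ = 1 ∧ ∀ᵐ ω ∂μ, 0 < pathProduct W v ω
  | [] => by
    refine ⟨?_, ?_, ?_⟩
    · simpa [pathProduct] using (integrable_const (1 : ℝ) : Integrable (fun _ : Ω => (1 : ℝ)) μ)
    · simp [pathProduct]
    · simp [pathProduct]
  | a :: v => by
    obtain ⟨h1, h2, h3⟩ := path_props v
    have hcons : (a :: v) ≠ [] := by simp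
    have hdisj : Disjoint (anc v) {a :: v} := by
      rw [Finset.disjoint_singleton_right]
      exact cons_notMem_anc a v
    have hind : IndepFun (pathProduct W v) (W (a :: v)) μ := by
      have h := indep_path hW.1 hW.2.1 v {a :: v} hdisj (fun f => f ⟨a :: v, by simp⟩)
        (measurable_pi_apply _)
      exact h
    have hW1 := integrable_W ν hm2 Ω μ W hW hcons
    have hmP := measurable_pathProduct hW.1 v
    refine ⟨?_, ?_, ?_⟩
    · exact hind.integrable_mul h1 hW1
    · have := hind.integral_mul_eq_mul_integral hmP.aestronglyMeasurable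
        (hW.1 _).aestronglyMeasurable
      have h5 : pathProduct W (a :: v) = pathProduct W v * W (a :: v) := rfl
      rw [h5]
      simp only [Pi.mul_apply] at this ⊢
      rw [this, h2, integral_W ν hmean hm2 Ω μ W hW hcons, one_mul]
    · filter_upwards [h3, W_pos ν hpos Ω μ W hW hcons] with ω h6 h7
      exact mul_pos h6 h7

include hW hpos hmean hm2 in
lemma integral_abs_mul (v : List ℕ) (T : Finset (List ℕ)) (hT : Disjoint (anc v) T)
    (ψ : (T → ℝ) → ℝ) (hψ : Measurable ψ) :
    ∫ ω, |pathProduct W v ω * ψ (fun j : T => W j ω)| ∂μ =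
      ∫ ω, |ψ (fun j : T => W j ω)| ∂μ := by
  obtain ⟨h1, h2, h3⟩ := path_props ν hpos hmean hm2 Ω μ W hW v
  have hind := indep_path hW.1 hW.2.1 v T hT ψ hψ
  have hind2 := hind.comp (φ := fun x : ℝ => |x|) (ψ := fun x : ℝ => |x|)
    (by fun_prop) (by fun_prop)
  have hmP := measurable_pathProduct hW.1 v
  have hmg : Measurable (fun ω => ψ (fun j : T => W j ω)) :=
    hψ.comp (measurable_pi_lambda _ fun j => hW.1 j)
  have h4 := hind2.integral_mul_eq_mul_integral hmP.abs.aestronglyMeasurable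
    hmg.abs.aestronglyMeasurable
  have h5 : ∫ ω, |pathProduct W v ω| ∂μ = 1 := by
    rw [← h2]
    refine integral_congr_ae ?_
    filter_upwards [h3] with ω hω
    exact abs_of_pos hω
  calc ∫ ω, |pathProduct W v ω * ψ (fun j : T => W j ω)| ∂μ
      = ∫ ω, (((fun x : ℝ => |x|) ∘ pathProduct W v) *
          ((fun x : ℝ => |x|) ∘ fun ω => ψ (fun j : T => W j ω))) ω ∂μ := by
        refine integral_congr_ae (ae_of_all _ fun ω => ?_)
        simp [abs_mul]
    _ = _ := by
        have h6 := h4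
        simp only [Function.comp_def] at h6 ⊢
        rw [h6]
        have h7 : ∫ ω, |pathProduct W v ω| ∂μ = 1 := h5
        simp only [h7, one_mul]

/-- the mean absolute deviation of `ν` -/
noncomputable def dev : ℝ := ∫ x, |x - 1| ∂ν

include hnc hmean hm2 in
lemma dev_pos : 0 < dev ν := by
  have hint : Integrable (fun x : ℝ => |x - 1|) ν := by
    have := integrable_id ν hm2
    exact (this.sub (integrable_const (1 : ℝ))).abs
  have h0 : 0 ≤ dev ν := integral_nonneg fun x => abs_nonneg _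
  refine lt_of_le_of_ne h0 ?_
  intro h
  have h1 : (fun x : ℝ => |x - 1|) =ᵐ[ν] 0 := by
    exact (integral_eq_zero_iff_of_nonneg (fun x => abs_nonneg _) hint).1 h.symm
  have h2 : ∀ᵐ x ∂ν, x = 1 := by
    filter_upwards [h1] with x hx
    have : |x - 1| = 0 := hx
    have := abs_eq_zero.1 this
    linarith
  refine hnc 1 ?_
  ext s hs
  rw [Measure.dirac_apply' _ hs]
  by_cases h1s : (1 : ℝ) ∈ s
  · rw [Set.indicator_of_mem h1s, Pi.one_apply]
    have : ν s = ν Set.univ := by
      refine measure_congr ?_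
      have : ∀ᵐ x ∂ν, x ∈ s := by
        filter_upwards [h2] with x hx
        rw [hx]; exact h1s
      filter_upwards [this] with x hx
      exact propext ⟨fun _ => trivial, fun _ => hx⟩
    rw [this]; simp
  · rw [Set.indicator_of_notMem h1s]
    have : ∀ᵐ x ∂ν, x ∉ s := by
      filter_upwards [h2] with x hx
      rw [hx]; exact h1s
    exact measure_eq_zero_iff_ae_notMem.2 this

include hW hm2 in
lemma integral_abs_W {v : List ℕ} (hv : v ≠ []) : ∫ ω, |W v ω - 1| ∂μ = dev ν := by
  have hmv := hW.1 v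
  unfold dev
  rw [← hW.2.2 v hv, integral_map hmv.aemeasurable (by fun_prop)]

/-- The variance constant of `ν`. -/
noncomputable def var2 : ℝ := ∫ x, (x - 1) ^ 2 ∂ν

include hW hm2 hmean in
lemma integral_sq_sum (v : List ℕ) (A : Finset ℕ) :
    ∫ ω, (∑ i ∈ A, (W (i :: v) ω - 1)) ^ 2 ∂μ = A.card * var2 ν := by
  classical
  have hZmem : ∀ i, MemLp (fun ω => W (i :: v) ω - 1) 2 μ := fun i =>
    (memLp_W ν hm2 Ω μ W hW (by simp)).sub (memLp_const 1)
  have hZint : ∀ i, ∫ ω, (W (i :: v) ω - 1) ∂μ = 0 := by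
    intro i
    rw [integral_sub (integrable_W ν hm2 Ω μ W hW (by simp)) (integrable_const _),
      integral_W ν hmean hm2 Ω μ W hW (by simp)]
    simp
  have hSint : ∫ ω, ∑ i ∈ A, (W (i :: v) ω - 1) ∂μ = 0 := by
    rw [integral_finsetSum _ fun i _ => (hZmem i).integrable (by norm_num)]
    exact Finset.sum_eq_zero fun i _ => hZint i
  have hpair : Set.Pairwise (A : Set ℕ) fun i j =>
      IndepFun (fun ω => W (i :: v) ω - 1) (fun ω => W (j :: v) ω - 1) μ := by
    intro i _ j _ hij
    have h := hW.2.1.indepFun (i := i :: v) (j := j :: v) (by simpa using hij)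
    exact h.comp (φ := fun x : ℝ => x - 1) (ψ := fun x : ℝ => x - 1)
      (by fun_prop) (by fun_prop)
  have hvar := IndepFun.variance_sum (X := fun i ω => W (i :: v) ω - 1) (s := A)
    (fun i _ => hZmem i) hpair
  have hZvar : ∀ i, variance (fun ω => W (i :: v) ω - 1) μ = var2 ν := by
    intro i
    have hm3 : Measurable fun ω => W (i :: v) ω - 1 := (hW.1 (i :: v)).sub measurable_const
    rw [variance_of_integral_eq_zero hm3.aemeasurable (hZint i)]
    unfold var2
    rw [← hW.2.2 (i :: v) (by simp),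
      integral_map (hW.1 _).aemeasurable (by fun_prop)]
  have hmS : Measurable fun ω => ∑ i ∈ A, (W (i :: v) ω - 1) :=
    Finset.measurable_sum _ fun i _ => (hW.1 _).sub measurable_const
  have hSum : variance (fun ω => ∑ i ∈ A, (W (i :: v) ω - 1)) μ =
      ∫ ω, (∑ i ∈ A, (W (i :: v) ω - 1)) ^ 2 ∂μ :=
    variance_of_integral_eq_zero hmS.aemeasurable hSint
  rw [← hSum]
  have h8 : (∑ i ∈ A, fun ω => W (i :: v) ω - 1) = fun ω => ∑ i ∈ A, (W (i :: v) ω - 1) := by
    funext ω; simp
  rw [h8] at hvar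
  rw [hvar, Finset.sum_congr rfl fun i _ => hZvar i]
  simp

include hW hm2 hmean in
lemma cesaro_abs_le (v : List ℕ) (ε : ℝ) (hε : 0 < ε) : ∃ K : ℕ, 0 < K ∧ ∀ A : Finset ℕ,
    A.card = K → ∫ ω, |(K : ℝ)⁻¹ * ∑ i ∈ A, (W (i :: v) ω - 1)| ∂μ ≤ ε := by
  obtain ⟨K₀, hK₀⟩ := exists_nat_gt (var2 ν / ε ^ 2)
  refine ⟨K₀ + 1, Nat.succ_pos _, fun A hA => ?_⟩
  set K : ℕ := K₀ + 1 with hK
  have hKpos : (0 : ℝ) < K := by rw [hK]; positivity
  have hK1 : var2 ν / ε ^ 2 < K := by
    have : (K₀ : ℝ) < K := by rw [hK]; push_cast; linarith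
    linarith
  have hK2 : var2 ν ≤ K * ε ^ 2 := by
    rw [div_lt_iff₀ (by positivity)] at hK1
    exact hK1.le
  have hZmem : ∀ i, MemLp (fun ω => W (i :: v) ω - 1) 2 μ := fun i =>
    (memLp_W ν hm2 Ω μ W hW (by simp)).sub (memLp_const 1)
  have hSmem : MemLp (fun ω => ∑ i ∈ A, (W (i :: v) ω - 1)) 2 μ :=
    memLp_finsetSum _ fun i _ => hZmem i
  have hS2 : Integrable (fun ω => (∑ i ∈ A, (W (i :: v) ω - 1)) ^ 2) μ := hSmem.integrable_sq
  have hS1 : Integrable (fun ω => ∑ i ∈ A, (W (i :: v) ω - 1)) μ := hSmem.integrable (by norm_num)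
  have hval := integral_sq_sum ν hmean hm2 Ω μ W hW v A
  have hbound : ∀ ω, |(K : ℝ)⁻¹ * ∑ i ∈ A, (W (i :: v) ω - 1)| ≤
      ((K : ℝ)⁻¹ ^ 2 / ε) / 2 * (∑ i ∈ A, (W (i :: v) ω - 1)) ^ 2 + ε / 2 := by
    intro ω
    set S := ∑ i ∈ A, (W (i :: v) ω - 1)
    have h1 : 0 ≤ (|(K : ℝ)⁻¹ * S| - ε) ^ 2 := sq_nonneg _
    have h2 : |(K : ℝ)⁻¹ * S| ^ 2 = (K : ℝ)⁻¹ ^ 2 * S ^ 2 := by
      rw [sq_abs]; ring
    have h3a : ((K : ℝ)⁻¹ ^ 2 / ε) / 2 * S ^ 2 = |(K : ℝ)⁻¹ * S| ^ 2 / (2 * ε) := by
      rw [h2]; field_simp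
    have h3 : |(K : ℝ)⁻¹ * S| ^ 2 / (2 * ε) + ε / 2 - |(K : ℝ)⁻¹ * S| =
        (|(K : ℝ)⁻¹ * S| - ε) ^ 2 / (2 * ε) := by
      generalize |(K : ℝ)⁻¹ * S| = a
      field_simp
      ring
    have h4 : 0 ≤ (|(K : ℝ)⁻¹ * S| - ε) ^ 2 / (2 * ε) := by positivity
    rw [h3a]
    linarith
  have hi : ∫ ω, |(K : ℝ)⁻¹ * ∑ i ∈ A, (W (i :: v) ω - 1)| ∂μ ≤
      ∫ ω, (((K : ℝ)⁻¹ ^ 2 / ε) / 2 * (∑ i ∈ A, (W (i :: v) ω - 1)) ^ 2 + ε / 2) ∂μ :=
    integral_mono (hS1.const_mul _).abs ((hS2.const_mul _).add (integrable_const _)) hbound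
  refine hi.trans ?_
  rw [integral_add (hS2.const_mul _) (integrable_const _), integral_const_mul, hval, hA]
  simp only [integral_const, probReal_univ, smul_eq_mul, one_mul]
  have h5 : (K : ℝ)⁻¹ ^ 2 / ε / 2 * (K * var2 ν) ≤ ε / 2 := by
    have h6 : (K : ℝ)⁻¹ ^ 2 / ε / 2 * (K * var2 ν) = var2 ν / (2 * K * ε) := by
      field_simp
    rw [h6, div_le_div_iff₀ (by positivity) (by norm_num)]
    nlinarith
  linarith

section final

variable {ν Ω μ W}

/-- the class of a path product -/
noncomputable def cl (hP : ∀ v, Integrable (pathProduct W v) μ) (v : List ℕ) : Lp ℝ 1 μ :=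
  (hP v).toL1 (pathProduct W v)

lemma cl_mem (hP : ∀ v, Integrable (pathProduct W v) μ) (v : List ℕ) :
    cl hP v ∈ productSpan μ W := by
  apply Submodule.le_topologicalClosure
  apply Submodule.subset_span
  exact ⟨v, Integrable.coeFn_toL1 (hP v)⟩

lemma norm_avg (hP : ∀ v, Integrable (pathProduct W v) μ) (v : List ℕ) (A : Finset ℕ) (c : ℝ) :
    ‖c • ∑ i ∈ A, (cl hP (i :: v) - cl hP v)‖ =
      ∫ ω, |pathProduct W v ω * (c * ∑ i ∈ A, (W (i :: v) ω - 1))| ∂μ := by
  classical
  have hw : ∀ i, Integrable (pathProduct W (i :: v) - pathProduct W v) μ :=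
    fun i => (hP _).sub (hP _)
  have h1 : ∀ i, cl hP (i :: v) - cl hP v =
      (hw i).toL1 (pathProduct W (i :: v) - pathProduct W v) := by
    intro i
    exact (Integrable.toL1_sub _ _ (hP _) (hP _)).symm
  have hs : Integrable (∑ i ∈ A, (pathProduct W (i :: v) - pathProduct W v)) μ :=
    integrable_finsetSum' A fun i _ => hw i
  rw [Finset.sum_congr rfl fun i _ => h1 i,
    toL1_sum A (fun i => pathProduct W (i :: v) - pathProduct W v) hw hs,
    ← Integrable.toL1_smul _ hs c, L1.norm_of_fun_eq_integral_norm]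
  refine integral_congr_ae (ae_of_all _ fun ω => ?_)
  simp only [Finset.sum_apply, Pi.sub_apply, smul_eq_mul, Real.norm_eq_abs]
  congr 1
  have h2 : ∀ i, pathProduct W (i :: v) ω - pathProduct W v ω =
      pathProduct W v ω * (W (i :: v) ω - 1) := by
    intro i
    simp only [pathProduct]
    ring
  rw [Finset.sum_congr rfl fun i _ => h2 i, ← Finset.mul_sum]
  ring

end final

include hpos hmean hm2 hW in
lemma integral_avg (v : List ℕ) (A : Finset ℕ) (c : ℝ) :
    ∫ ω, |pathProduct W v ω * (c * ∑ i ∈ A, (W (i :: v) ω - 1))| ∂μ =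
      ∫ ω, |c * ∑ i ∈ A, (W (i :: v) ω - 1)| ∂μ := by
  classical
  let T : Finset (List ℕ) := A.image fun i => i :: v
  have hT : Disjoint (anc v) T := by
    rw [Finset.disjoint_left]
    intro u hu hu'
    obtain ⟨i, -, rfl⟩ := Finset.mem_image.1 hu'
    exact cons_notMem_anc i v hu
  let ψ : (T → ℝ) → ℝ := fun f => c * ∑ j, (f j - 1)
  have hψ : Measurable ψ := by
    apply Measurable.const_mul
    apply Finset.measurable_sum
    intro j _
    exact (measurable_pi_apply j).sub measurable_const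
  have hψ2 : ∀ ω, ψ (fun j : T => W j ω) = c * ∑ i ∈ A, (W (i :: v) ω - 1) := by
    intro ω
    simp only [ψ]
    congr 1
    rw [Finset.sum_coe_sort T fun j => W j ω - 1, Finset.sum_image]
    intro i _ j _ hij
    simpa using hij
  have := integral_abs_mul ν hpos hmean hm2 Ω μ W hW v T hT ψ hψ
  simp only [hψ2] at this
  exact this

include hpos hnc hmean hm2 hW in
theorem main_result :
    ¬ FiniteDimensional ℝ (Crest.AnalysisR.TreeProduct.productSpan μ W) ∧
      ∀ N : (Crest.AnalysisR.TreeProduct.spanBanach μ W).X → ℝ,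
        (Crest.AnalysisR.TreeProduct.spanBanach μ W).IsEquivNorm N →
          ¬ (Crest.AnalysisR.TreeProduct.spanBanach μ W).IsAUC N := by
  have hP : ∀ v, Integrable (pathProduct W v) μ :=
    fun v => (path_props ν hpos hmean hm2 Ω μ W hW v).1
  let xx : List ℕ → productSpan μ W := fun v => ⟨cl hP v, cl_mem hP v⟩
  have hnorm : ∀ v, ‖xx v‖ = 1 := by
    intro v
    obtain ⟨h1, h2, h3⟩ := path_props ν hpos hmean hm2 Ω μ W hW v
    change ‖cl hP v‖ = 1
    unfold cl
    rw [L1.norm_of_fun_eq_integral_norm, ← h2]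
    refine integral_congr_ae ?_
    filter_upwards [h3] with ω hω
    simp only [Real.norm_eq_abs]
    exact abs_of_pos hω
  have hsum : ∀ (v : List ℕ) (A : Finset ℕ) (c : ℝ),
      ‖c • ∑ i ∈ A, (xx (i :: v) - xx v)‖ = ∫ ω, |c * ∑ i ∈ A, (W (i :: v) ω - 1)| ∂μ := by
    intro v A c
    rw [← integral_avg ν hpos hmean hm2 Ω μ W hW v A c, ← norm_avg hP v A c, Submodule.coe_norm]
    simp [xx]
  have hstep : ∀ (v : List ℕ) (i : ℕ), ‖xx (i :: v) - xx v‖ = dev ν := by
    intro v i
    have h1 := hsum v {i} 1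
    simp only [Finset.sum_singleton, one_smul, one_mul] at h1
    rw [h1]
    rw [integral_abs_W ν hm2 Ω μ W hW (by simp)]
  have hces : ∀ v ε, 0 < ε → ∃ K : ℕ, 0 < K ∧ ∀ A : Finset ℕ, A.card = K →
      ‖((K : ℝ)⁻¹) • ∑ i ∈ A, (xx (i :: v) - xx v)‖ ≤ ε := by
    intro v ε hε
    obtain ⟨K, hK, h⟩ := cesaro_abs_le ν hmean hm2 Ω μ W hW v ε hε
    refine ⟨K, hK, fun A hA => ?_⟩
    rw [hsum]
    exact h A hA
  have hδ : 0 < dev ν := dev_pos ν hnc hmean hm2
  have hC : ∀ v i, ‖xx (i :: v) - xx v‖ ≤ 2 := by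
    intro v i
    have := norm_sub_le (xx (i :: v)) (xx v)
    rw [hnorm, hnorm] at this
    linarith
  constructor
  · refine not_finiteDimensional_of_cesaro (fun i => xx [i] - xx []) 2 (dev ν) hδ
      (fun i => hC [] i) (fun i => (hstep [] i).ge) ?_
    intro ε hε
    exact hces [] ε hε
  · intro N hN
    have hbush : ∀ (n : ℕ) (v : List ℕ), BushAt 1 (dev ν) n (xx v) := by
      intro n
      induction n with
      | zero => intro v; exact (hnorm v).le
      | succ n ih =>
        intro v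
        exact bushAt_succ_of_children (xx v) (hnorm v).le (fun i => xx (i :: v))
          (fun i => ih _) (fun i => (hstep v i).ge) (fun i => hC v i) (hces v)
    refine not_isAUC_of_bushes (spanBanach μ W) 1 (dev ν) 1 hδ one_pos ?_ N hN
    intro n
    exact ⟨xx [], hbush n [], (hnorm []).ge⟩

end main

/-- Let ν be a Borel probability law on ℝ carried by (0,∞), not a point mass, with mean 1 and finite second moment, and W an independent family of real random variables on a probability space indexed by the vertices of the countably branching tree (finite lists of naturals; root [], parent of a :: v is v), each non-root one with law ν. Then the closed linear span in L¹ of the path products ∏_{root ≺ u ≼ v} W_u is infinite-dimensional and has no equivalent asymptotically uniformly convex norm. -/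
theorem result (ν : Measure ℝ) [IsProbabilityMeasure ν] (hpos : ν (Set.Ioi 0) = 1)
    (hnc : ∀ c : ℝ, ν ≠ Measure.dirac c) (hmean : ∫ x, x ∂ν = 1)
    (hm2 : Integrable (fun x : ℝ => x ^ 2) ν)
    (Ω : Type) [MeasurableSpace Ω] (μ : Measure Ω) [IsProbabilityMeasure μ]
    (W : List ℕ → Ω → ℝ) (hW : Crest.AnalysisR.TreeProduct.IsRealization ν μ W) :
    ¬ FiniteDimensional ℝ (Crest.AnalysisR.TreeProduct.productSpan μ W) ∧
      ∀ N : (Crest.AnalysisR.TreeProduct.spanBanach μ W).X → ℝ,
        (Crest.AnalysisR.TreeProduct.spanBanach μ W).IsEquivNorm N →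
          ¬ (Crest.AnalysisR.TreeProduct.spanBanach μ W).IsAUC N :=
  main_result ν hpos hnc hmean hm2 Ω μ W hW

end Crest.Agent.S0169
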