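-- Row 211, statement S0324: proof by the fan cover of `Crest.Agent.Lib.TetFan`.
import Crest.Statements.S0324
import Crest.Agent.Lib.TetCover

set_option autoImplicit false
open MeasureTheory
open scoped ENNReal
open Crest Crest.GeometryTopology Crest.GeometryTopology.Convex

namespace Crest.Agent.S0324

open Crest.Agent.Lib.TetArea Crest.Agent.Lib.TetMinProj Crest.Agent.Lib.TetFan
  Crest.Agent.Lib.TetCover in
private theorem aux :
    ∃ (m : ℕ) (u p q r : Fin m → EuclideanSpace ℝ (Fin 3)),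
      (∀ i, ‖u i‖ = 1) ∧
      (∀ i, inner ℝ (p i) (u i) = 0 ∧ inner ℝ (q i) (u i) = 0 ∧ inner ℝ (r i) (u i) = 0) ∧
      K0 ⊆ ⋃ i, cyl (u i) (p i) (q i) (r i) ∧
      ∃ δ : ℝ, 0 < δ ∧ ∀ v : EuclideanSpace ℝ (Fin 3), ‖v‖ = 1 →
        ∑ i, (μH[(2 : ℝ)] (convexHull ℝ ({p i, q i, r i} : Set (EuclideanSpace ℝ (Fin 3))))).toReal + δ ≤
          (μH[(2 : ℝ)] (prj v '' K0)).toReal / 2 := by
  obtain ⟨N, u, p, q, r, hN, hc⟩ := std_cover
  obtain ⟨u', p', q', r', h1, h2, h3, h4⟩ := IsTriCover.toFin hc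
  have hc0 := scaleC_pos
  have hs2 : 0 < √(2 : ℝ) := by positivity
  refine ⟨_, u', p', q', r', h1, h2, h3, √2 / 100000000 / scaleC, by positivity, ?_⟩
  intro v hv
  have hmin := min_proj v hv
  rw [toReal_HE] at hmin
  have hsum : ∑ i, (μH[(2 : ℝ)] (convexHull ℝ ({p' i, q' i, r' i} : Set (EuclideanSpace ℝ (Fin 3))))).toReal =
      (∑ i, triA (p' i) (q' i) (r' i)) / scaleC := by
    rw [← sum_area_eq, Finset.sum_div]
    apply Finset.sum_congr rfl
    intro i _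
    rw [toReal_HE]
    field_simp
  rw [hsum]
  have e1 : (∑ i, triA (p' i) (q' i) (r' i)) / scaleC + √2 / 100000000 / scaleC =
      ((∑ i, triA (p' i) (q' i) (r' i)) + √2 / 100000000) / scaleC := by ring
  rw [e1, div_le_iff₀ hc0]
  nlinarith

/-- The regular tetrahedron `K` with vertices `(±1, 0, 0)`, `(0, ±1, √2)` is covered by finitely many cylinders `Bᵢ + ℝ uᵢ`, each with unit direction `uᵢ` and base `Bᵢ` a triangle (convex hull of three points) in the plane `uᵢ^⊥`, whose total base area `∑ᵢ area(Bᵢ)` is smaller, by a positive margin, than half the area of the orthogonal projection of `K` onto `v^⊥` for every unit vector `v`; areas are 2-dimensional Hausdorff measure. -/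
theorem result :
    ∃ (m : ℕ) (u p q r : Fin m → EuclideanSpace ℝ (Fin 3)),
      (∀ i, ‖u i‖ = 1) ∧
      (∀ i, inner ℝ (p i) (u i) = 0 ∧ inner ℝ (q i) (u i) = 0 ∧ inner ℝ (r i) (u i) = 0) ∧
      convexHull ℝ {!₂[1, 0, 0], !₂[-1, 0, 0], !₂[0, 1, Real.sqrt 2], !₂[0, -1, Real.sqrt 2]} ⊆
        ⋃ i, {x : EuclideanSpace ℝ (Fin 3) | ∃ b ∈ convexHull ℝ {p i, q i, r i}, ∃ t : ℝ, x = b + t • u i} ∧
      ∃ δ : ℝ, 0 < δ ∧ ∀ v : EuclideanSpace ℝ (Fin 3), ‖v‖ = 1 →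
        ∑ i, (μH[(2 : ℝ)] (convexHull ℝ {p i, q i, r i})).toReal + δ ≤
          (μH[(2 : ℝ)] ((fun y => y - inner ℝ y v • v) '' convexHull ℝ {!₂[1, 0, 0], !₂[-1, 0, 0], !₂[0, 1, Real.sqrt 2], !₂[0, -1, Real.sqrt 2]})).toReal / 2 := by
  exact aux

end Crest.Agent.S0324
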