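-- Row 211, statement S0325: proof by the fan cover of `Crest.Agent.Lib.TetFan`.
import Crest.Statements.S0325
import Crest.Agent.Lib.TetCover

set_option autoImplicit false
open MeasureTheory
open scoped ENNReal
open Crest Crest.GeometryTopology Crest.GeometryTopology.Convex

namespace Crest.Agent.S0325

open Crest.Agent.Lib.TetArea Crest.Agent.Lib.TetMinProj Crest.Agent.Lib.TetFan
  Crest.Agent.Lib.TetCover in
private theorem aux (ε : ℝ) (hε : 0 < ε) (hε' : ε ≤ 1 / 2000) (n : ℕ) (hn : n = 2 * ⌈2 / ε ^ 2⌉₊) :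
    ∃ (u p q r : Fin n → EuclideanSpace ℝ (Fin 3)),
        (∀ i, ‖u i‖ = 1) ∧
        (∀ i, inner ℝ (p i) (u i) = 0 ∧ inner ℝ (q i) (u i) = 0 ∧ inner ℝ (r i) (u i) = 0) ∧
        K0 ⊆ ⋃ i, cyl (u i) (p i) (q i) (r i) ∧
        (∑ i, (μHE[2] (convexHull ℝ ({p i, q i, r i} : Set (EuclideanSpace ℝ (Fin 3))))).toReal) =
          √2 * (1 / 2 - 13 / 6000 * ε ^ 2) := by
  obtain ⟨N, u, p, q, r, hN, hc⟩ := std_cover
  have hε2 : ε ^ 2 ≤ 1 / 4000000 := by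
    calc ε ^ 2 ≤ (1 / 2000) ^ 2 := pow_le_pow_left₀ hε.le hε' 2
      _ = 1 / 4000000 := by norm_num
  have hε2' : 0 < ε ^ 2 := by positivity
  have hcard : Fintype.card (Fin N ⊕ Fin N) < n := by
    have h1 : (8000000 : ℝ) ≤ 2 / ε ^ 2 := by
      rw [le_div_iff₀ hε2']
      linarith
    have h2 : (8000000 : ℝ) ≤ (⌈2 / ε ^ 2⌉₊ : ℝ) := h1.trans (Nat.le_ceil _)
    have h3 : 8000000 ≤ ⌈2 / ε ^ 2⌉₊ := by exact_mod_cast h2
    simp only [Fintype.card_sum, Fintype.card_fin]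
    omega
  have hT : √2 * (1 / 2 - 1 / 100000000) ≤ √2 * (1 / 2 - 13 / 6000 * ε ^ 2) := by
    apply mul_le_mul_of_nonneg_left _ (by positivity)
    nlinarith
  obtain ⟨u', p', q', r', h1, h2, h3, h4⟩ := pad_cover hc n hcard _ hT
  refine ⟨u', p', q', r', h1, h2, h3, ?_⟩
  rw [sum_area_eq, h4]

/-- Let K be the regular tetrahedron with vertices (±1, 0, 0), (0, ±1, √2); areas are Lebesgue-normalised 2-dimensional Hausdorff measure. (1) The least area of an orthogonal projection of K onto a plane is √2: each map y ↦ y − ⟪y, v⟫ v with ‖v‖ = 1 sends K to a set of area ≥ √2, equal for some v. (2) For every 0 < ε ≤ 5·10⁻⁴, K is covered by 2⌈2/ε²⌉ cylinders Bᵢ + ℝ uᵢ, uᵢ a unit vector, Bᵢ a triangle (convex hull of three points) in uᵢ^⊥, of total area A with ‖A/√2 − 1/2 + 13 ε²/6000‖ ≤ 2 ε⁴. -/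
theorem result :
    ((∀ v : EuclideanSpace ℝ (Fin 3), ‖v‖ = 1 →
        ENNReal.ofReal (Real.sqrt 2) ≤ μHE[2] ((fun y => y - inner ℝ y v • v) '' convexHull ℝ {!₂[1, 0, 0], !₂[-1, 0, 0], !₂[0, 1, Real.sqrt 2], !₂[0, -1, Real.sqrt 2]})) ∧
      ∃ v : EuclideanSpace ℝ (Fin 3), ‖v‖ = 1 ∧
        μHE[2] ((fun y => y - inner ℝ y v • v) '' convexHull ℝ {!₂[1, 0, 0], !₂[-1, 0, 0], !₂[0, 1, Real.sqrt 2], !₂[0, -1, Real.sqrt 2]}) = ENNReal.ofReal (Real.sqrt 2)) ∧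
    ∀ ε : ℝ, 0 < ε → ε ≤ 1 / 2000 →
      ∃ (u p q r : Fin (2 * ⌈2 / ε ^ 2⌉₊) → EuclideanSpace ℝ (Fin 3)),
        (∀ i, ‖u i‖ = 1) ∧
        (∀ i, inner ℝ (p i) (u i) = 0 ∧ inner ℝ (q i) (u i) = 0 ∧ inner ℝ (r i) (u i) = 0) ∧
        convexHull ℝ {!₂[1, 0, 0], !₂[-1, 0, 0], !₂[0, 1, Real.sqrt 2], !₂[0, -1, Real.sqrt 2]} ⊆
          ⋃ i, {x : EuclideanSpace ℝ (Fin 3) | ∃ b ∈ convexHull ℝ {p i, q i, r i}, ∃ t : ℝ, x = b + t • u i} ∧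
        abs ((∑ i, (μHE[2] (convexHull ℝ ({p i, q i, r i} : Set (EuclideanSpace ℝ (Fin 3))))).toReal) / Real.sqrt 2 -
            (1 / 2 - 13 / 6000 * ε ^ 2)) ≤ 2 * ε ^ 4 := by
  refine ⟨⟨fun v hv => Crest.Agent.Lib.TetCover.min_proj_enn v hv,
    Crest.Agent.Lib.TetCover.e0, Crest.Agent.Lib.TetCover.e0_unit,
    Crest.Agent.Lib.TetCover.min_proj_eq⟩, ?_⟩
  intro ε hε hε'
  obtain ⟨u, p, q, r, h1, h2, h3, h4⟩ := aux ε hε hε' _ rfl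
  refine ⟨u, p, q, r, h1, h2, h3, ?_⟩
  rw [h4]
  have hs : Real.sqrt 2 ≠ 0 := by positivity
  rw [mul_div_cancel_left₀ _ hs, sub_self, abs_zero]
  positivity

end Crest.Agent.S0325
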