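-- Row 211, statement S0326: covers of a ruled set by sheared square cylinders (lattice construction).
import Crest.Statements.S0326
import Crest.Agent.Lib.RuledCover

set_option autoImplicit false
open MeasureTheory
open scoped ENNReal
open Crest Crest.GeometryTopology Crest.GeometryTopology.Convex

namespace Crest.Agent.S0326

section Aux

open scoped RealInnerProductSpace
open Crest.Agent.Lib.TetArea Crest.Agent.Lib.RuledGeom Crest.Agent.Lib.RuledCover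

set_option linter.unusedSimpArgs false
set_option linter.deprecated false

/-- The sum over grid cells of the step function is controlled by the integral. -/
theorem cell_sum (D W : Set E2) (hD : IsCompact D) (hDW : D ⊆ W) (j : E2 → ℝ) (hj : IntegrableOn j D volume)
    (hj0 : ∀ x, 0 ≤ j x) (hj1 : ∀ x, j x ≤ 1) (δ ζ : ℝ) (hδ : 0 < δ) (hζ : 0 < ζ) (hζ1 : ζ ≤ 1)
    (hW : volume W < volume D + ENNReal.ofReal ζ) (hWo : MeasurableSet W)
    (F : Finset (ℤ × ℤ)) (hFD : ∀ x ∈ D, cell δ x ∈ F) (hFW : ∀ α ∈ F, Qc δ α ⊆ W) (P : ℤ × ℤ → E2)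
    (hP : ∀ α ∈ F, ∀ x ∈ Qc δ α ∩ D, j (P α) ≤ j x + ζ) :
    ∑ α ∈ F, δ ^ 2 * (j (P α) + ζ) ≤
      (∫ x in D, j x) + 2 * ζ * (volume D).toReal + 2 * ζ := by
  have hDm : MeasurableSet D := hD.measurableSet
  have hDfin : volume D ≠ ⊤ := hD.measure_lt_top.ne
  have hQm : ∀ α, MeasurableSet (Qc δ α) := fun α => measurableSet_box _ _ _ _
  let μ₁ : ℤ × ℤ → ℝ := fun α => (volume (Qc δ α ∩ D)).toReal
  let μ₂ : ℤ × ℤ → ℝ := fun α => (volume (Qc δ α \ D)).toReal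
  have hμ₁0 : ∀ α, 0 ≤ μ₁ α := fun α => ENNReal.toReal_nonneg
  have hμ₂0 : ∀ α, 0 ≤ μ₂ α := fun α => ENNReal.toReal_nonneg
  have hQfin : ∀ α, volume (Qc δ α) ≠ ⊤ := fun α => by rw [vol_Qc δ hδ]; exact ENNReal.ofReal_ne_top
  have hsplit : ∀ α, δ ^ 2 = μ₁ α + μ₂ α := by
    intro α
    have h1 := measure_inter_add_diff (μ := volume) (Qc δ α) hDm
    rw [vol_Qc δ hδ] at h1
    have h2 : volume (Qc δ α ∩ D) ≠ ⊤ := ne_top_of_le_ne_top (hQfin α) (measure_mono Set.inter_subset_left)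
    have h3 : volume (Qc δ α \ D) ≠ ⊤ := ne_top_of_le_ne_top (hQfin α) (measure_mono Set.diff_subset)
    have := congrArg ENNReal.toReal h1
    rw [ENNReal.toReal_add h2 h3, ENNReal.toReal_ofReal (by positivity)] at this
    exact this.symm
  -- the decomposition of `D`
  have hDunion : D = ⋃ α ∈ F, (Qc δ α ∩ D) := by
    ext x
    simp only [Set.mem_iUnion, Set.mem_inter_iff, exists_prop]
    constructor
    · intro hx
      exact ⟨cell δ x, hFD x hx, (mem_Qc_iff δ hδ x _).2 rfl, hx⟩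
    · rintro ⟨α, _, _, hx⟩
      exact hx
  have hdisj1 : ∀ α ∈ F, ∀ α' ∈ F, α ≠ α' → Disjoint (Qc δ α ∩ D) (Qc δ α' ∩ D) := by
    intro α _ α' _ hne
    exact (Qc_disjoint δ hδ α α' hne).mono Set.inter_subset_left Set.inter_subset_left
  have hdisj2 : ∀ α ∈ F, ∀ α' ∈ F, α ≠ α' → Disjoint (Qc δ α \ D) (Qc δ α' \ D) := by
    intro α _ α' _ hne
    exact (Qc_disjoint δ hδ α α' hne).mono Set.diff_subset Set.diff_subset
  have hsum1 : ∑ α ∈ F, μ₁ α = (volume D).toReal := by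
    have h1 := measure_biUnion_finset (μ := volume) (s := F) (f := fun α => Qc δ α ∩ D)
      (fun α hα α' hα' hne => hdisj1 α hα α' hα' hne) (fun α _ => (hQm α).inter hDm)
    rw [← hDunion] at h1
    rw [h1, ENNReal.toReal_sum]
    intro α _
    exact ne_top_of_le_ne_top (hQfin α) (measure_mono Set.inter_subset_left)
  have hsum2 : ∑ α ∈ F, μ₂ α ≤ ζ := by
    have h1 := measure_biUnion_finset (μ := volume) (s := F) (f := fun α => Qc δ α \ D)
      (fun α hα α' hα' hne => hdisj2 α hα α' hα' hne) (fun α _ => (hQm α).diff hDm)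
    have h2 : volume (⋃ α ∈ F, Qc δ α \ D) ≤ volume (W \ D) := by
      apply measure_mono
      apply Set.iUnion₂_subset
      intro α hα
      exact Set.diff_subset_diff_left (hFW α hα)
    have h3 : volume (W \ D) ≤ ENNReal.ofReal ζ := by
      have := measure_diff_le_iff_le_add (μ := volume) hDm.nullMeasurableSet hDW hDfin
        (ε := ENNReal.ofReal ζ)
      rw [this]
      exact hW.le
    rw [h1] at h2
    have h4 := h2.trans h3
    have h5 := ENNReal.toReal_mono ENNReal.ofReal_ne_top h4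
    rw [ENNReal.toReal_ofReal hζ.le, ENNReal.toReal_sum] at h5
    · exact h5
    · intro α _
      exact ne_top_of_le_ne_top (hQfin α) (measure_mono Set.diff_subset)
  have hint : (∫ x in D, j x) = ∑ α ∈ F, ∫ x in Qc δ α ∩ D, j x := by
    conv_lhs => rw [hDunion]
    apply integral_biUnion_finset
    · exact fun α _ => (hQm α).inter hDm
    · exact fun α hα α' hα' hne => hdisj1 α hα α' hα' hne
    · exact fun α _ => hj.mono_set Set.inter_subset_right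
  -- one cell
  have hcell : ∀ α ∈ F, δ ^ 2 * (j (P α) + ζ) ≤
      (∫ x in Qc δ α ∩ D, j x) + 2 * ζ * μ₁ α + (1 + ζ) * μ₂ α := by
    intro α hα
    have hfin : volume (Qc δ α ∩ D) ≠ ⊤ :=
      ne_top_of_le_ne_top (hQfin α) (measure_mono Set.inter_subset_left)
    have hlow : μ₁ α * (j (P α) - ζ) ≤ ∫ x in Qc δ α ∩ D, j x := by
      have h1 : ∫ _ in Qc δ α ∩ D, (j (P α) - ζ) = μ₁ α * (j (P α) - ζ) := by
        rw [setIntegral_const, smul_eq_mul]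
        simp only [Measure.real, μ₁]
      rw [← h1]
      apply setIntegral_mono_on (integrableOn_const hfin) (hj.mono_set Set.inter_subset_right)
        ((hQm α).inter hDm)
      intro x hx
      have := hP α hα x hx
      linarith
    rw [hsplit α]
    have h2 : μ₂ α * j (P α) ≤ μ₂ α := mul_le_of_le_one_right (hμ₂0 α) (hj1 _)
    nlinarith
  refine (Finset.sum_le_sum hcell).trans ?_
  rw [Finset.sum_add_distrib, Finset.sum_add_distrib, ← hint, ← Finset.mul_sum, ← Finset.mul_sum, hsum1]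
  have h3 : (1 + ζ) * ∑ α ∈ F, μ₂ α ≤ 2 * ζ := by
    have h4 : 0 ≤ ∑ α ∈ F, μ₂ α := Finset.sum_nonneg (fun α _ => hμ₂0 α)
    nlinarith
  linarith

set_option maxHeartbeats 4000000 in
private theorem aux
    (D : Set (EuclideanSpace ℝ (Fin 2))) (hD : IsCompact D)
    (V : EuclideanSpace ℝ (Fin 2) → EuclideanSpace ℝ (Fin 2)) (U : Set (EuclideanSpace ℝ (Fin 2)))
    (hU : IsOpen U) (hDU : D ⊆ U) (hV : ContDiffOn ℝ 1 V U) (L h : ℝ) (hL : 0 < L) (hh : 0 < h)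
    (htr : ∀ p ∈ D, LinearMap.trace ℝ _ (fderiv ℝ V p).toLinearMap = 0)
    (hdet : ∀ p ∈ D, -(L ^ 2)⁻¹ < LinearMap.det (fderiv ℝ V p).toLinearMap ∧
      LinearMap.det (fderiv ℝ V p).toLinearMap ≤ 0)
    (ε : ℝ) (hε : 0 < ε) :
    ∃ (k : ℕ) (c a b g : Fin k → EuclideanSpace ℝ (Fin 2)),
      (∀ i, a i ≠ 0 ∧ ‖b i‖ = ‖a i‖ ∧ inner ℝ (a i) (b i) = 0) ∧
      {z : ℝ × EuclideanSpace ℝ (Fin 2) | ∃ p ∈ D, abs z.1 ≤ L ∧ z.2 = p + z.1 • V p} ⊆
        ⋃ i, {z : ℝ × EuclideanSpace ℝ (Fin 2) | ∃ x ∈ Set.Icc (0 : ℝ) 1, ∃ y ∈ Set.Icc (0 : ℝ) 1,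
          z.2 = c i + x • a i + y • b i + z.1 • g i} ∧
      ∑ i, ‖a i‖ ^ 2 / Real.sqrt (1 + (g i 0) ^ 2 + h ^ 2 * (g i 1) ^ 2) ≤
        (∫ p in D, 1 / Real.sqrt (1 + (V p 0) ^ 2 + h ^ 2 * (V p 1) ^ 2)) + ε := by
  classical
  by_cases hne : D.Nonempty
  swap
  · rw [Set.not_nonempty_iff_eq_empty] at hne
    subst hne
    refine ⟨0, Fin.elim0, Fin.elim0, Fin.elim0, Fin.elim0, fun i => i.elim0, ?_, ?_⟩
    · rintro z ⟨p, hp, _⟩
      exact absurd hp (Set.notMem_empty p)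
    · simpa using hε.le
  -- regularity
  have hVd : ∀ x ∈ U, HasFDerivAt V (fderiv ℝ V x) x := fun x hx =>
    ((hV.contDiffAt (hU.mem_nhds hx)).differentiableAt one_ne_zero).hasFDerivAt
  have hDVc : ContinuousOn (fderiv ℝ V) U := hV.continuousOn_fderiv_of_isOpen hU le_rfl
  have hVc : ContinuousOn V U := hV.continuousOn
  obtain ⟨ρ, hρ, hD₁U⟩ := hD.exists_cthickening_subset_open hU hDU
  have hD₁c : IsCompact (Metric.cthickening ρ D) := hD.cthickening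
  have hDD₁ : D ⊆ Metric.cthickening ρ D := Metric.self_subset_cthickening D
  obtain ⟨K, hK⟩ := hD₁c.exists_bound_of_continuousOn (hDVc.mono hD₁U)
  obtain ⟨p₁, hp₁⟩ := hne
  have hK0 : 0 ≤ K := (norm_nonneg _).trans (hK p₁ (hDD₁ hp₁))
  -- the bound on the determinant
  have hcoord : ∀ (i j : Fin 2), ContinuousOn (fun p => (fderiv ℝ V p (EuclideanSpace.single j 1)) i) D := by
    intro i j
    have h1 : ContinuousOn (fun p => fderiv ℝ V p (EuclideanSpace.single j (1 : ℝ))) D :=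
      (hDVc.mono (hDD₁.trans hD₁U)).clm_apply continuousOn_const
    exact (EuclideanSpace.proj (𝕜 := ℝ) i).continuous.comp_continuousOn h1
  have hfc : ContinuousOn (fun p => L ^ 2 * (-LinearMap.det (fderiv ℝ V p).toLinearMap)) D := by
    simp only [det_eq]
    exact continuousOn_const.mul (((hcoord 0 0).mul (hcoord 1 1)).sub ((hcoord 0 1).mul (hcoord 1 0))).neg
  obtain ⟨pm, hpm, hmax⟩ := hD.exists_isMaxOn ⟨p₁, hp₁⟩ hfc
  obtain ⟨κ₀, hκ₀⟩ : ∃ κ₀, κ₀ = L ^ 2 * (-LinearMap.det (fderiv ℝ V pm).toLinearMap) := ⟨_, rfl⟩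
  have hκ : κ₀ < 1 := by
    rw [hκ₀]
    have := (hdet pm hpm).1
    have hL2 : 0 < L ^ 2 := by positivity
    have e : -(L ^ 2)⁻¹ * L ^ 2 = -1 := by field_simp
    have h2 := mul_lt_mul_of_pos_right this hL2
    rw [e] at h2
    nlinarith
  have hκ' : ∀ p ∈ D, L ^ 2 * (-LinearMap.det (fderiv ℝ V p).toLinearMap) ≤ κ₀ := fun p hp => by
    rw [hκ₀]; exact hmax hp
  have hgap : 0 < 1 - κ₀ := by linarith
  obtain ⟨C₁, hC₁⟩ : ∃ C₁, C₁ = (1 + L * K) / (1 - κ₀) := ⟨_, rfl⟩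
  have hC₁0 : 0 < C₁ := by rw [hC₁]; positivity
  -- the weight
  let j : E2 → ℝ := fun x => 1 / √(1 + (V x 0) ^ 2 + h ^ 2 * (V x 1) ^ 2)
  have hrad : ∀ x, 1 ≤ 1 + (V x 0) ^ 2 + h ^ 2 * (V x 1) ^ 2 := fun x => by nlinarith [sq_nonneg (V x 0), sq_nonneg (h * V x 1)]
  have hsq1 : ∀ x, 1 ≤ √(1 + (V x 0) ^ 2 + h ^ 2 * (V x 1) ^ 2) := fun x => by
    rw [Real.one_le_sqrt]; exact hrad x
  have hj0 : ∀ x, 0 ≤ j x := fun x => by
    have := hsq1 x
    simp only [j]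
    positivity
  have hj1 : ∀ x, j x ≤ 1 := fun x => by
    have := hsq1 x
    simp only [j]
    rw [div_le_one (by linarith)]
    exact this
  have hjc : ContinuousOn j (Metric.cthickening ρ D) := by
    have hV' : ContinuousOn V (Metric.cthickening ρ D) := hVc.mono hD₁U
    have hc0 : ∀ i : Fin 2, ContinuousOn (fun x => V x i) (Metric.cthickening ρ D) := fun i =>
      (EuclideanSpace.proj (𝕜 := ℝ) i).continuous.comp_continuousOn hV'
    apply ContinuousOn.div continuousOn_const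
    · apply Real.continuous_sqrt.comp_continuousOn
      exact (continuousOn_const.add ((hc0 0).pow 2)).add (continuousOn_const.mul ((hc0 1).pow 2))
    · intro x _
      have := hsq1 x
      simp only
      linarith
  have hjD : IntegrableOn j D volume := (hjc.mono hDD₁).integrableOn_compact hD
  have hDfin : volume D ≠ ⊤ := hD.measure_lt_top.ne
  obtain ⟨v, hv⟩ : ∃ v, v = (volume D).toReal := ⟨_, rfl⟩
  have hv0 : 0 ≤ v := by rw [hv]; exact ENNReal.toReal_nonneg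
  obtain ⟨I, hI⟩ : ∃ I, I = ∫ x in D, j x := ⟨_, rfl⟩
  have hI0 : 0 ≤ I := by
    rw [hI]; exact setIntegral_nonneg hD.measurableSet (fun x _ => hj0 x)
  have hIv : I ≤ v := by
    rw [hI, hv]
    have h1 : ∫ x in D, j x ≤ ∫ _ in D, (1 : ℝ) :=
      setIntegral_mono_on hjD (integrableOn_const hDfin) hD.measurableSet (fun x _ => hj1 x)
    rw [setIntegral_const, smul_eq_mul, mul_one] at h1
    exact h1
  -- the small parameters
  obtain ⟨ζ, hζ⟩ : ∃ ζ, ζ = min 1 (ε / (53 * v + 36)) := ⟨_, rfl⟩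
  have hζ0 : 0 < ζ := by rw [hζ]; positivity
  have hζ1 : ζ ≤ 1 := by rw [hζ]; exact min_le_left _ _
  have hζε : ζ * (53 * v + 36) ≤ ε := by
    have : ζ ≤ ε / (53 * v + 36) := by rw [hζ]; exact min_le_right _ _
    rwa [le_div_iff₀ (by positivity)] at this
  obtain ⟨ε₁, hε₁⟩ : ∃ ε₁, ε₁ = ζ / (2 * L * C₁) := ⟨_, rfl⟩
  have hε₁0 : 0 < ε₁ := by rw [hε₁]; positivity
  have hε₁b : L * ε₁ * (2 * C₁) = ζ := by
    rw [hε₁]; field_simp
  obtain ⟨δa, hδa, hUCa⟩ := Metric.uniformContinuousOn_iff.1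
    (hD₁c.uniformContinuousOn_of_continuous (hDVc.mono hD₁U)) ε₁ hε₁0
  obtain ⟨δb, hδb, hUCb⟩ := Metric.uniformContinuousOn_iff.1
    (hD₁c.uniformContinuousOn_of_continuous hjc) ζ hζ0
  obtain ⟨δ₀, hδ₀⟩ : ∃ δ₀, δ₀ = min (min δa δb) ρ := ⟨_, rfl⟩
  have hδ₀0 : 0 < δ₀ := by rw [hδ₀]; positivity
  have hδ₀a : δ₀ ≤ δa := by rw [hδ₀]; exact (min_le_left _ _).trans (min_le_left _ _)
  have hδ₀b : δ₀ ≤ δb := by rw [hδ₀]; exact (min_le_left _ _).trans (min_le_right _ _)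
  have hδ₀ρ : δ₀ ≤ ρ := by rw [hδ₀]; exact min_le_right _ _
  obtain ⟨W, hDW, hWo, hWv⟩ := Set.exists_isOpen_lt_add D hDfin
    (ε := ENNReal.ofReal ζ) (by simpa using hζ0)
  obtain ⟨ρW, hρW, hWthick⟩ := hD.exists_thickening_subset_open hWo hDW
  obtain ⟨δ, hδ⟩ : ∃ δ, δ = min (δ₀ / 8) (ρW / 4) := ⟨_, rfl⟩
  have hδ0 : 0 < δ := by rw [hδ]; positivity
  have hδ1 : δ ≤ δ₀ / 8 := by rw [hδ]; exact min_le_left _ _
  have hδ2 : δ ≤ ρW / 4 := by rw [hδ]; exact min_le_right _ _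
  obtain ⟨η, hη⟩ : ∃ η, η = min (ζ * δ / (6 * (2 * C₁ + 2))) (δ₀ / (8 * C₁ + 8)) := ⟨_, rfl⟩
  have hη0 : 0 < η := by rw [hη]; positivity
  have hη1 : (2 * C₁ + 2) * η ≤ ζ * δ / 6 := by
    have : η ≤ ζ * δ / (6 * (2 * C₁ + 2)) := by rw [hη]; exact min_le_left _ _
    rw [le_div_iff₀ (by positivity)] at this
    linarith
  have hη2 : 2 * C₁ * η ≤ δ₀ / 4 := by
    have : η ≤ δ₀ / (8 * C₁ + 8) := by rw [hη]; exact min_le_right _ _
    rw [le_div_iff₀ (by positivity)] at this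
    nlinarith
  obtain ⟨r, hr⟩ : ∃ r, r = (2 * C₁ + 2) * η := ⟨_, rfl⟩
  have hr0 : 0 < r := by rw [hr]; positivity
  -- the cells
  have hFfin : (cell δ '' D).Finite := by
    obtain ⟨R, hR⟩ := hD.isBounded.subset_closedBall (0 : E2)
    apply (Set.finite_Icc ((⌊(-R) / δ⌋, ⌊(-R) / δ⌋) : ℤ × ℤ) (⌊R / δ⌋, ⌊R / δ⌋)).subset
    rintro _ ⟨x, hx, rfl⟩
    have hn : ‖x‖ ≤ R := by simpa using hR hx
    have b0 := abs_le.1 ((abs_coord_le x 0).trans hn)
    have b1 := abs_le.1 ((abs_coord_le x 1).trans hn)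
    constructor
    · constructor
      · exact Int.floor_le_floor (div_le_div_of_nonneg_right b0.1 hδ0.le)
      · exact Int.floor_le_floor (div_le_div_of_nonneg_right b1.1 hδ0.le)
    · constructor
      · exact Int.floor_le_floor (div_le_div_of_nonneg_right b0.2 hδ0.le)
      · exact Int.floor_le_floor (div_le_div_of_nonneg_right b1.2 hδ0.le)
  obtain ⟨F, hF⟩ : ∃ F : Finset (ℤ × ℤ), F = hFfin.toFinset := ⟨_, rfl⟩
  have hFmem : ∀ α, α ∈ F ↔ ∃ x ∈ D, cell δ x = α := by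
    intro α
    rw [hF, Set.Finite.mem_toFinset]
    rfl
  have hFD : ∀ x ∈ D, cell δ x ∈ F := fun x hx => (hFmem _).2 ⟨x, hx, rfl⟩
  have hex : ∀ α ∈ F, ∃ x, x ∈ D ∧ cell δ x = α := fun α hα => by
    obtain ⟨x, hx, hxα⟩ := (hFmem α).1 hα
    exact ⟨x, hx, hxα⟩
  choose! P hPD hPcell using hex
  have hPQ : ∀ α ∈ F, P α ∈ Qc δ α := fun α hα => (mem_Qc_iff δ hδ0 _ _).2 (hPcell α hα)
  have hframes : ∀ p ∈ D, ∃ e₁ e₂ β γ, IsFrame (fderiv ℝ V p) e₁ e₂ β γ := fun p hp =>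
    exists_frame2 _ (htr p hp)
  choose! E₁ E₂ Bt Gm hFr using hframes
  -- cells stay inside the open sets
  have hQW : ∀ α ∈ F, Qc δ α ⊆ W := by
    intro α hα x hx
    apply hWthick
    rw [Metric.mem_thickening_iff]
    refine ⟨P α, hPD α hα, ?_⟩
    rw [dist_eq_norm]
    have := Qc_dist δ hδ0 α x (P α) hx (hPQ α hα)
    linarith
  have hjP : ∀ α ∈ F, ∀ x ∈ Qc δ α ∩ D, j (P α) ≤ j x + ζ := by
    intro α hα x hx
    have h1 := hUCb (P α) (hDD₁ (hPD α hα)) x (hDD₁ hx.2) (by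
      rw [dist_eq_norm]
      have := Qc_dist δ hδ0 α (P α) x (hPQ α hα) hx.1
      linarith)
    rw [Real.dist_eq] at h1
    have := (abs_lt.1 h1).2
    linarith
  have hcellsum := cell_sum D W hD hDW j hjD hj0 hj1 δ ζ hδ0 hζ0 hζ1 hWv hWo.measurableSet F hFD hQW P hjP
  rw [← hv, ← hI] at hcellsum
  -- the lattice points used in a cell
  let q : ℤ × ℤ → ℤ × ℤ → E2 := fun α z => lat (P α) (E₁ (P α)) (E₂ (P α)) η z
  have hqdist : ∀ α ∈ F, ∀ z, (∃ p' ∈ Qc δ α, ‖p' - q α z‖ ≤ 2 * C₁ * η) → ‖q α z - P α‖ < δ₀ / 2 := by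
    rintro α hα z ⟨p', hp', hz⟩
    have h1 := Qc_dist δ hδ0 α p' (P α) hp' (hPQ α hα)
    have e : q α z - P α = (p' - P α) - (p' - q α z) := by abel
    rw [e]
    calc _ ≤ ‖p' - P α‖ + ‖p' - q α z‖ := norm_sub_le _ _
      _ < δ₀ / 2 := by linarith
  have hSfin : ∀ α, {z : ℤ × ℤ | α ∈ F ∧ ∃ p' ∈ Qc δ α, ‖p' - q α z‖ ≤ 2 * C₁ * η}.Finite := by
    intro α
    by_cases hα : α ∈ F
    · obtain ⟨B, hB⟩ : ∃ B : ℤ, B = ⌈δ₀ / η⌉ := ⟨_, rfl⟩
      apply (Set.finite_Icc ((-B, -B) : ℤ × ℤ) (B, B)).subset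
      rintro z ⟨_, hz⟩
      have hn := hqdist α hα z hz
      have hfr := hFr (P α) (hPD α hα)
      have o' : ⟪E₂ (P α), E₁ (P α)⟫ = 0 := by rw [real_inner_comm]; exact hfr.o
      have h1' : ⟪E₁ (P α), E₁ (P α)⟫ = 1 := by rw [real_inner_self_eq_norm_sq, hfr.n1]; norm_num
      have h2' : ⟪E₂ (P α), E₂ (P α)⟫ = 1 := by rw [real_inner_self_eq_norm_sq, hfr.n2]; norm_num
      have eq : q α z - P α = (η * z.1) • E₁ (P α) + (η * z.2) • E₂ (P α) := by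
        simp only [q, lat]; abel
      have c1 : η * z.1 = ⟪q α z - P α, E₁ (P α)⟫ := by
        rw [eq]; simp [inner_add_left, inner_smul_left, h1', o', hfr.n1]
      have c2 : η * z.2 = ⟪q α z - P α, E₂ (P α)⟫ := by
        rw [eq]; simp [inner_add_left, inner_smul_left, h2', hfr.o, hfr.n2]
      have b1 : |η * z.1| < δ₀ := by
        rw [c1]
        have := abs_real_inner_le_norm (q α z - P α) (E₁ (P α))
        rw [hfr.n1, mul_one] at this
        linarith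
      have b2 : |η * z.2| < δ₀ := by
        rw [c2]
        have := abs_real_inner_le_norm (q α z - P α) (E₂ (P α))
        rw [hfr.n2, mul_one] at this
        linarith
      have bd : ∀ m : ℤ, |η * m| < δ₀ → (-B ≤ m ∧ m ≤ B) := by
        intro m hm
        rw [abs_mul, abs_of_pos hη0] at hm
        have h3 : |(m : ℝ)| ≤ δ₀ / η := by
          rw [le_div_iff₀ hη0]
          linarith
        have h4 : δ₀ / η ≤ (B : ℝ) := by rw [hB]; exact Int.le_ceil _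
        have h5 := abs_le.1 (h3.trans h4)
        constructor
        · exact_mod_cast h5.1
        · exact_mod_cast h5.2
      exact ⟨⟨(bd _ b1).1, (bd _ b2).1⟩, ⟨(bd _ b1).2, (bd _ b2).2⟩⟩
    · convert Set.finite_empty (α := ℤ × ℤ) using 1
      ext z
      simp [hα]
  let S : ℤ × ℤ → Finset (ℤ × ℤ) := fun α => (hSfin α).toFinset
  have hSmem : ∀ α z, z ∈ S α ↔ α ∈ F ∧ ∃ p' ∈ Qc δ α, ‖p' - q α z‖ ≤ 2 * C₁ * η := by
    intro α z
    simp only [S, Set.Finite.mem_toFinset]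
    rfl
  -- the count
  have hcount : ∀ α ∈ F, ((S α).card : ℝ) * η ^ 2 ≤ (1 + ζ) * δ ^ 2 := by
    intro α hα
    have hfr := hFr (P α) (hPD α hα)
    have hZfin : volume (box (α.1 * δ - r) ((α.1 + 1) * δ + r) (α.2 * δ - r) ((α.2 + 1) * δ + r)) ≠ ⊤ := by
      rw [vol_box]
      exact ENNReal.mul_ne_top ENNReal.ofReal_ne_top ENNReal.ofReal_ne_top
    have h1 := count_lattice (P α) (E₁ (P α)) (E₂ (P α)) η hη0 hfr.n1 hfr.n2 hfr.o hfr.expand hfr.absdet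
      (S α) _ hZfin (by
        intro z hz
        obtain ⟨_, p', hp', hd⟩ := (hSmem α z).1 hz
        exact sq_sub_box δ r η _ α _ p' _ _ hfr.n1 hfr.n2 hp' hd (by rw [hr]; linarith))
    refine h1.trans ?_
    rw [vol_box, ENNReal.toReal_mul, ENNReal.toReal_ofReal, ENNReal.toReal_ofReal]
    · have e1 : (α.1 + 1 : ℝ) * δ + r - (α.1 * δ - r) = δ + 2 * r := by ring
      have e2 : (α.2 + 1 : ℝ) * δ + r - (α.2 * δ - r) = δ + 2 * r := by ring
      rw [e1, e2]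
      have hr1 : 2 * r ≤ ζ * δ / 3 := by rw [hr]; linarith
      have hr2 : δ + 2 * r ≤ δ * (1 + ζ / 3) := by nlinarith
      have h3 : (δ + 2 * r) * (δ + 2 * r) ≤ (δ * (1 + ζ / 3)) * (δ * (1 + ζ / 3)) :=
        mul_le_mul hr2 hr2 (by positivity) (by positivity)
      refine h3.trans ?_
      have h4 : (1 + ζ / 3) * (1 + ζ / 3) ≤ 1 + ζ := by nlinarith
      have h5 : δ ^ 2 * ((1 + ζ / 3) * (1 + ζ / 3)) ≤ δ ^ 2 * (1 + ζ) :=
        mul_le_mul_of_nonneg_left h4 (by positivity)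
      nlinarith
    · have e2 : (α.2 + 1 : ℝ) * δ + r - (α.2 * δ - r) = δ + 2 * r := by ring
      rw [e2]; positivity
    · have e1 : (α.1 + 1 : ℝ) * δ + r - (α.1 * δ - r) = δ + 2 * r := by ring
      rw [e1]; positivity
  -- the index set and the data of the cover
  let II : Finset (Σ _ : ℤ × ℤ, ℤ × ℤ) := F.sigma S
  let e := II.equivFin
  obtain ⟨l, hl⟩ : ∃ l, l = η * (1 + 2 * ζ) := ⟨_, rfl⟩
  have hl0 : 0 < l := by rw [hl]; positivity
  let c0 : (Σ _ : ℤ × ℤ, ℤ × ℤ) → E2 := fun x => q x.1 x.2 - (ζ * η) • (E₁ (P x.1) + E₂ (P x.1))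
  let a0 : (Σ _ : ℤ × ℤ, ℤ × ℤ) → E2 := fun x => l • E₁ (P x.1)
  let b0 : (Σ _ : ℤ × ℤ, ℤ × ℤ) → E2 := fun x => l • E₂ (P x.1)
  let g0 : (Σ _ : ℤ × ℤ, ℤ × ℤ) → E2 := fun x => V (q x.1 x.2)
  refine ⟨II.card, fun i => c0 (e.symm i), fun i => a0 (e.symm i), fun i => b0 (e.symm i),
    fun i => g0 (e.symm i), ?_, ?_, ?_⟩
  · intro i
    obtain ⟨hα, -⟩ := Finset.mem_sigma.1 (e.symm i).2
    have hfr := hFr _ (hPD _ hα)
    refine ⟨?_, ?_, ?_⟩
    · simp only [a0]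
      apply smul_ne_zero hl0.ne'
      rw [← norm_ne_zero_iff, hfr.n1]
      norm_num
    · simp only [a0, b0]
      rw [norm_smul, norm_smul, hfr.n1, hfr.n2]
    · simp only [a0, b0]
      rw [inner_smul_left, inner_smul_right, hfr.o]
      simp
  · rintro ⟨s, ξ⟩ ⟨p, hp, hs, hξ⟩
    simp only at hs hξ
    obtain ⟨α, hαd⟩ : ∃ α, α = cell δ p := ⟨_, rfl⟩
    have hα : α ∈ F := by rw [hαd]; exact hFD p hp
    have hpQ : p ∈ Qc δ α := (mem_Qc_iff δ hδ0 _ _).2 hαd.symm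
    have hfr := hFr _ (hPD α hα)
    have hTsub : Metric.ball (P α) δ₀ ⊆ Metric.cthickening ρ D := by
      intro x hx
      apply Metric.mem_cthickening_of_dist_le x (P α) ρ D (hPD α hα)
      have : dist x (P α) < δ₀ := hx
      linarith
    have hVT : ∀ x ∈ Metric.ball (P α) δ₀, ∀ y ∈ Metric.ball (P α) δ₀,
        ‖V y - V x - (fderiv ℝ V (P α)) (y - x)‖ ≤ ε₁ * ‖y - x‖ := by
      intro x hx y hy
      apply (convex_ball (P α) δ₀).norm_image_sub_le_of_norm_hasFDerivWithin_le'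
        (f := V) (f' := fderiv ℝ V) (φ := fderiv ℝ V (P α)) (C := ε₁) _ _ hx hy
      · intro x hx
        exact (hVd x (hD₁U (hTsub hx))).hasFDerivWithinAt
      · intro x hx
        have hxd : dist x (P α) < δ₀ := hx
        have := hUCa x (hTsub hx) (P α) (hDD₁ (hPD α hα)) (by linarith)
        rw [dist_eq_norm] at this
        exact this.le
    have hpT : p ∈ Metric.ball (P α) δ₀ := by
      rw [Metric.mem_ball, dist_eq_norm]
      have := Qc_dist δ hδ0 α p (P α) hpQ (hPQ α hα)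
      linarith
    have hβγ : 0 ≤ Bt (P α) * Gm (P α) := by
      rw [hfr.det]
      have := (hdet (P α) (hPD α hα)).2
      linarith
    have hβγ' : L ^ 2 * (Bt (P α) * Gm (P α)) ≤ κ₀ := by
      rw [hfr.det]
      exact hκ' _ (hPD α hα)
    obtain ⟨z, hz1, hz2⟩ := point_cover _ _ _ _ _ hfr L K κ₀ ε₁ ζ η hL
      (hK _ (hDD₁ (hPD α hα))) hκ hβγ hβγ' (by rw [← hC₁, hε₁b]) hε₁0.le hη0 hζ0.le V _ hVT
      (P α) p hpT s hs
    rw [← hC₁] at hz1
    have hzS : z ∈ S α := (hSmem α z).2 ⟨hα, p, hpQ, hz1⟩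
    have hqT : lat (P α) (E₁ (P α)) (E₂ (P α)) η z ∈ Metric.ball (P α) δ₀ := by
      rw [Metric.mem_ball, dist_eq_norm]
      have := hqdist α hα z ⟨p, hpQ, hz1⟩
      have h2 : q α z = lat (P α) (E₁ (P α)) (E₂ (P α)) η z := rfl
      rw [h2] at this
      linarith
    obtain ⟨x, hx, y, hy, hxy⟩ := hz2 hqT
    have hmem : (⟨α, z⟩ : Σ _ : ℤ × ℤ, ℤ × ℤ) ∈ II := Finset.mem_sigma.2 ⟨hα, hzS⟩
    refine Set.mem_iUnion.2 ⟨e ⟨⟨α, z⟩, hmem⟩, x, hx, y, hy, ?_⟩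
    simp only [Equiv.symm_apply_apply, c0, a0, b0, g0, hl, hξ]
    exact hxy
  · -- the estimate
    let f : (Σ _ : ℤ × ℤ, ℤ × ℤ) → ℝ := fun x =>
      ‖a0 x‖ ^ 2 / √(1 + (g0 x 0) ^ 2 + h ^ 2 * (g0 x 1) ^ 2)
    have hsum : ∑ i, ‖a0 (e.symm i)‖ ^ 2 / √(1 + (g0 (e.symm i) 0) ^ 2 + h ^ 2 * (g0 (e.symm i) 1) ^ 2) =
        ∑ x ∈ II, f x :=
      (Equiv.sum_comp e.symm (fun x : II => f x)).trans (Finset.sum_coe_sort II f)
    show ∑ i, ‖a0 (e.symm i)‖ ^ 2 / √(1 + (g0 (e.symm i) 0) ^ 2 + h ^ 2 * (g0 (e.symm i) 1) ^ 2) ≤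
      (∫ x in D, j x) + ε
    rw [hsum, ← hI, Finset.sum_sigma]
    have hterm : ∀ α ∈ F, ∑ z ∈ S α, f ⟨α, z⟩ ≤
        (1 + 2 * ζ) ^ 2 * (1 + ζ) * (δ ^ 2 * (j (P α) + ζ)) := by
      intro α hα
      have hfr := hFr _ (hPD α hα)
      have hone : ∀ z ∈ S α, f ⟨α, z⟩ ≤ l ^ 2 * (j (P α) + ζ) := by
        intro z hz
        have hn : ‖q α z - P α‖ < δ₀ / 2 := hqdist α hα z ((hSmem α z).1 hz).2
        have hq1 : q α z ∈ Metric.cthickening ρ D := by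
          apply Metric.mem_cthickening_of_dist_le _ (P α) ρ D (hPD α hα)
          rw [dist_eq_norm]
          linarith
        have h1 := hUCb (q α z) hq1 (P α) (hDD₁ (hPD α hα)) (by
          rw [dist_eq_norm]; linarith)
        rw [Real.dist_eq] at h1
        have h2 := (abs_lt.1 h1).2
        have e1 : f ⟨α, z⟩ = l ^ 2 * j (q α z) := by
          simp only [f, a0, g0, j]
          rw [norm_smul, hfr.n1, mul_one, Real.norm_eq_abs, sq_abs]
          ring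
        rw [e1]
        exact mul_le_mul_of_nonneg_left (by linarith) (by positivity)
      have h3 := Finset.sum_le_card_nsmul (S α) (fun z => f ⟨α, z⟩) _ hone
      refine h3.trans ?_
      rw [nsmul_eq_mul]
      have h4 := hcount α hα
      have h5 : 0 ≤ j (P α) + ζ := by
        have := hj0 (P α)
        linarith
      have e2 : ((S α).card : ℝ) * (l ^ 2 * (j (P α) + ζ)) =
          (1 + 2 * ζ) ^ 2 * ((((S α).card : ℝ) * η ^ 2) * (j (P α) + ζ)) := by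
        rw [hl]; ring
      rw [e2]
      have e3 : (1 + 2 * ζ) ^ 2 * (1 + ζ) * (δ ^ 2 * (j (P α) + ζ)) =
          (1 + 2 * ζ) ^ 2 * (((1 + ζ) * δ ^ 2) * (j (P α) + ζ)) := by ring
      rw [e3]
      apply mul_le_mul_of_nonneg_left _ (by positivity)
      exact mul_le_mul_of_nonneg_right h4 h5
    refine (Finset.sum_le_sum hterm).trans ?_
    rw [← Finset.mul_sum]
    have hPb : (1 + 2 * ζ) ^ 2 * (1 + ζ) ≤ 1 + 17 * ζ := by
      have h1 : ζ ^ 2 ≤ ζ := by nlinarith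
      have h2 : ζ ^ 3 ≤ ζ := by nlinarith
      nlinarith
    obtain ⟨Y, hY⟩ : ∃ Y, Y = I + 2 * ζ * v + 2 * ζ := ⟨_, rfl⟩
    have hY0 : 0 ≤ Y := by rw [hY]; positivity
    have hY1 : Y ≤ 3 * v + 2 := by
      rw [hY]
      nlinarith
    rw [← hY] at hcellsum
    have hP0 : 0 ≤ (1 + 2 * ζ) ^ 2 * (1 + ζ) := by positivity
    calc (1 + 2 * ζ) ^ 2 * (1 + ζ) * ∑ α ∈ F, δ ^ 2 * (j (P α) + ζ)
        ≤ (1 + 2 * ζ) ^ 2 * (1 + ζ) * Y := mul_le_mul_of_nonneg_left hcellsum hP0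
      _ ≤ (1 + 17 * ζ) * Y := mul_le_mul_of_nonneg_right hPb hY0
      _ = Y + 17 * (ζ * Y) := by ring
      _ ≤ Y + 17 * (ζ * (3 * v + 2)) := by
          have := mul_le_mul_of_nonneg_left hY1 hζ0.le
          linarith
      _ = I + ζ * (53 * v + 36) := by rw [hY]; ring
      _ ≤ I + ε := by linarith

end Aux

/-- Let D ⊂ ℝ² be compact, V : ℝ² → ℝ² be C¹ on an open set containing D, and L, h > 0, with tr DV(p) = 0 and −1/L² < det DV(p) ≤ 0 for p ∈ D. Let E ⊂ ℝ × ℝ² be the ruled set of points (s, p + s V(p)), p ∈ D, −L ≤ s ≤ L. For every ε > 0, finitely many squares Tᵢ = cᵢ + [0,1]aᵢ + [0,1]bᵢ (aᵢ ⊥ bᵢ of equal nonzero length) and velocities gᵢ ∈ ℝ² exist whose sheared cylinders {(s, ξ) : ξ ∈ Tᵢ + s gᵢ} cover E, with ∑ᵢ area(Tᵢ) J(gᵢ) ≤ ∫_D J(V(p)) dp + ε, where J(g) = (1 + g₁² + h² g₂²)^(−1/2). -/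
theorem result
    (D : Set (EuclideanSpace ℝ (Fin 2))) (hD : IsCompact D)
    (V : EuclideanSpace ℝ (Fin 2) → EuclideanSpace ℝ (Fin 2)) (U : Set (EuclideanSpace ℝ (Fin 2)))
    (hU : IsOpen U) (hDU : D ⊆ U) (hV : ContDiffOn ℝ 1 V U) (L h : ℝ) (hL : 0 < L) (hh : 0 < h)
    (htr : ∀ p ∈ D, LinearMap.trace ℝ _ (fderiv ℝ V p).toLinearMap = 0)
    (hdet : ∀ p ∈ D, -(L ^ 2)⁻¹ < LinearMap.det (fderiv ℝ V p).toLinearMap ∧
      LinearMap.det (fderiv ℝ V p).toLinearMap ≤ 0)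
    (ε : ℝ) (hε : 0 < ε) :
    ∃ (k : ℕ) (c a b g : Fin k → EuclideanSpace ℝ (Fin 2)),
      (∀ i, a i ≠ 0 ∧ ‖b i‖ = ‖a i‖ ∧ inner ℝ (a i) (b i) = 0) ∧
      {z : ℝ × EuclideanSpace ℝ (Fin 2) | ∃ p ∈ D, abs z.1 ≤ L ∧ z.2 = p + z.1 • V p} ⊆
        ⋃ i, {z : ℝ × EuclideanSpace ℝ (Fin 2) | ∃ x ∈ Set.Icc (0 : ℝ) 1, ∃ y ∈ Set.Icc (0 : ℝ) 1,
          z.2 = c i + x • a i + y • b i + z.1 • g i} ∧
      ∑ i, ‖a i‖ ^ 2 / Real.sqrt (1 + (g i 0) ^ 2 + h ^ 2 * (g i 1) ^ 2) ≤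
        (∫ p in D, 1 / Real.sqrt (1 + (V p 0) ^ 2 + h ^ 2 * (V p 1) ^ 2)) + ε := by
  exact aux D hD V U hU hDU hV L h hL hh htr hdet ε hε

end Crest.Agent.S0326
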