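-- Row 211, statement S0327: the fan cover transported by a similarity, with staircases of parallelograms
-- and with open thickenings of the triangular bases.
import Crest.Statements.S0327
import Crest.Agent.Lib.TetSim

set_option autoImplicit false
open MeasureTheory
open scoped ENNReal
open Crest Crest.GeometryTopology Crest.GeometryTopology.Convex

namespace Crest.Agent.S0327

section Aux

open scoped RealInnerProductSpace
open Crest.Agent.Lib.TetArea Crest.Agent.Lib.TetMinProj Crest.Agent.Lib.TetFan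
  Crest.Agent.Lib.TetCover Crest.Agent.Lib.TetSim

lemma exists_floor (β : ℝ) (h0 : 0 ≤ β) (h1 : β ≤ 1) (n : ℕ) (hn : 0 < n) :
    ∃ j : ℕ, j < n ∧ (j : ℝ) ≤ n * β ∧ n * β ≤ j + 1 := by
  have hn' : (0 : ℝ) < n := by exact_mod_cast hn
  by_cases h : (n : ℝ) * β < n
  · refine ⟨⌊(n : ℝ) * β⌋₊, ?_, Nat.floor_le (by positivity), (Nat.lt_floor_add_one _).le⟩
    exact (Nat.floor_lt (by positivity)).2 h
  · rw [not_lt] at h
    refine ⟨n - 1, by omega, ?_, ?_⟩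
    · have : ((n - 1 : ℕ) : ℝ) ≤ n := by exact_mod_cast Nat.sub_le n 1
      linarith
    · have : ((n - 1 : ℕ) : ℝ) + 1 = n := by
        have : n - 1 + 1 = n := Nat.sub_add_cancel hn
        exact_mod_cast this
      rw [this]
      nlinarith

lemma gram_smul (s t : ℝ) (x y : E3) : gram (s • x) (t • y) = (s * t) ^ 2 * gram x y := by
  unfold gram
  rw [norm_smul, norm_smul, inner_smul_left, inner_smul_right]
  simp only [Real.norm_eq_abs, conj_trivial]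
  rw [mul_pow, mul_pow, sq_abs, sq_abs]
  ring

lemma sum_stair (n : ℕ) (hn : 0 < n) :
    ∑ j ∈ Finset.range n, (1 / (n : ℝ)) * (1 - (j : ℝ) / n) = ((n : ℝ) + 1) / (2 * n) := by
  have hn' : (n : ℝ) ≠ 0 := by positivity
  have h : ∀ m : ℕ, ∑ j ∈ Finset.range m, (j : ℝ) = (m : ℝ) * ((m : ℝ) - 1) / 2 := by
    intro m
    induction m with
    | zero => simp
    | succ k ih =>
      rw [Finset.sum_range_succ, ih]
      push_cast
      ring
  have e : ∀ j : ℕ, (1 / (n : ℝ)) * (1 - (j : ℝ) / n) = 1 / (n : ℝ) - (j : ℝ) * (1 / (n : ℝ) ^ 2) := by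
    intro j
    field_simp
  simp only [e]
  rw [Finset.sum_sub_distrib, Finset.sum_const, Finset.card_range, ← Finset.sum_mul, h]
  simp only [nsmul_eq_mul]
  field_simp
  ring

/-- The staircase: a triangle is covered by `n` parallelograms of total area `(1 + 1/n)` times its own. -/
theorem stair_cover {ι : Type*} [Fintype ι] {S : Set E3} {A : ℝ} {u p q r : ι → E3}
    (h : IsTriCover S A u p q r) (n : ℕ) (hn : 0 < n) :
    ∃ (k : ℕ) (U C Ap Bp : Fin k → E3), (∀ i, ‖U i‖ = 1) ∧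
      (∀ i, ⟪C i, U i⟫ = 0 ∧ ⟪Ap i, U i⟫ = 0 ∧ ⟪Bp i, U i⟫ = 0) ∧
      (S ⊆ ⋃ i, {x | ∃ s ∈ Set.Icc (0 : ℝ) 1, ∃ t ∈ Set.Icc (0 : ℝ) 1, ∃ τ : ℝ,
        x = C i + s • Ap i + t • Bp i + τ • U i}) ∧
      ∑ i, √(gram (Ap i) (Bp i)) ≤ (1 + 1 / (n : ℝ)) * A := by
  obtain ⟨h1, h2, h3, h4⟩ := h
  have hn' : (0 : ℝ) < n := by exact_mod_cast hn
  let α := ι × Fin n
  let e : α ≃ Fin (Fintype.card α) := Fintype.equivFin α
  let U0 : α → E3 := fun x => u x.1
  let C0 : α → E3 := fun x => p x.1 + (((x.2 : ℕ) : ℝ) / n) • (q x.1 - p x.1)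
  let A0 : α → E3 := fun x => (1 / (n : ℝ)) • (q x.1 - p x.1)
  let B0 : α → E3 := fun x => (1 - ((x.2 : ℕ) : ℝ) / n) • (r x.1 - p x.1)
  refine ⟨Fintype.card α, U0 ∘ e.symm, C0 ∘ e.symm, A0 ∘ e.symm, B0 ∘ e.symm, fun i => h1 _, ?_, ?_, ?_⟩
  · intro i
    simp only [Function.comp_apply]
    obtain ⟨a, j⟩ := e.symm i
    obtain ⟨hp, hq, hr⟩ := h2 a
    simp only [U0, C0, A0, B0, inner_add_left, inner_sub_left, inner_smul_left, hp, hq, hr]
    simp
  · intro x hx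
    obtain ⟨a, ha⟩ := Set.mem_iUnion.1 (h3 hx)
    obtain ⟨y, hy, τ, rfl⟩ := ha
    obtain ⟨α', β, γ, a1, a2, a3, a4, rfl⟩ := weights_of_mem_conv3 hy
    obtain ⟨j, hj, hj1, hj2⟩ := exists_floor β a2 (by linarith) n hn
    have hpos : 0 < 1 - (j : ℝ) / n := by
      have : (j : ℝ) < n := by exact_mod_cast hj
      have : (j : ℝ) / n < 1 := (div_lt_one hn').2 this
      linarith
    have hle : (j : ℝ) / n ≤ β := by
      rw [div_le_iff₀ hn']; linarith
    refine Set.mem_iUnion.2 ⟨e (a, ⟨j, hj⟩), ?_⟩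
    simp only [Function.comp_apply, Equiv.symm_apply_apply, U0, C0, A0, B0]
    refine ⟨(n : ℝ) * β - j, ⟨by linarith, by linarith⟩, γ / (1 - (j : ℝ) / n),
      ⟨by positivity, (div_le_one hpos).2 (by linarith)⟩, τ, ?_⟩
    have e1 : ((n : ℝ) * β - j) • (1 / (n : ℝ)) • (q a - p a) =
        (β - (j : ℝ) / n) • (q a - p a) := by
      rw [smul_smul]
      congr 1
      field_simp
    have e2 : (γ / (1 - (j : ℝ) / n)) • (1 - (j : ℝ) / n) • (r a - p a) = γ • (r a - p a) := by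
      rw [smul_smul, div_mul_cancel₀ _ hpos.ne']
    rw [e1, e2]
    have : α' = 1 - β - γ := by linarith
    subst this
    module
  · have hsum : ∑ i, √(gram ((A0 ∘ e.symm) i) ((B0 ∘ e.symm) i)) = ∑ x, √(gram (A0 x) (B0 x)) :=
      Equiv.sum_comp e.symm (fun x => √(gram (A0 x) (B0 x)))
    rw [hsum, Fintype.sum_prod_type]
    have hterm : ∀ (a : ι) (j : Fin n), √(gram (A0 (a, j)) (B0 (a, j))) =
        (1 / (n : ℝ)) * (1 - ((j : ℕ) : ℝ) / n) * (2 * triA (p a) (q a) (r a)) := by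
      intro a j
      have hj : ((j : ℕ) : ℝ) / n ≤ 1 := by
        rw [div_le_one hn']
        exact_mod_cast j.2.le
      simp only [A0, B0]
      rw [gram_smul, Real.sqrt_mul (by positivity), Real.sqrt_sq (mul_nonneg (by positivity) (by linarith))]
      simp only [triA]
      ring
    simp only [hterm]
    have hin : ∀ a : ι, ∑ j : Fin n, (1 / (n : ℝ)) * (1 - ((j : ℕ) : ℝ) / n) * (2 * triA (p a) (q a) (r a)) =
        (1 + 1 / (n : ℝ)) * triA (p a) (q a) (r a) := by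
      intro a
      rw [← Finset.sum_mul, Fin.sum_univ_eq_sum_range (fun j : ℕ => (1 / (n : ℝ)) * (1 - (j : ℝ) / n)) n,
        sum_stair n hn]
      field_simp
    simp only [hin]
    rw [← Finset.mul_sum]
    exact mul_le_mul_of_nonneg_left h4 (by positivity)

private theorem aux (w : Fin 4 → EuclideanSpace ℝ (Fin 3)) (ℓ : ℝ) (hℓ : 0 < ℓ)
    (hw : ∀ i j, i ≠ j → dist (w i) (w j) = ℓ) :
    (∃ (k : ℕ) (u c a b : Fin k → EuclideanSpace ℝ (Fin 3)),
      (∀ i, ‖u i‖ = 1) ∧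
      (∀ i, inner ℝ (c i) (u i) = 0 ∧ inner ℝ (a i) (u i) = 0 ∧ inner ℝ (b i) (u i) = 0) ∧
      convexHull ℝ (Set.range w) ⊆ ⋃ i, {x : EuclideanSpace ℝ (Fin 3) |
        ∃ s ∈ Set.Icc (0 : ℝ) 1, ∃ t ∈ Set.Icc (0 : ℝ) 1, ∃ τ : ℝ, x = c i + s • a i + t • b i + τ • u i} ∧
      (∃ δ : ℝ, 0 < δ ∧ ∀ v : EuclideanSpace ℝ (Fin 3), ‖v‖ = 1 →
        (∑ i, (μHE[2] (par (c i) (a i) (b i))).toReal) + δ ≤
          (μHE[2] (prj v '' convexHull ℝ (Set.range w))).toReal / 2) ∧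
      ∑ i, (μHE[2] (par (c i) (a i) (b i))).toReal /
          (μHE[2] (prj (u i) '' convexHull ℝ (Set.range w))).toReal < 1 / 2) ∧
    (∃ (k : ℕ) (u : Fin k → EuclideanSpace ℝ (Fin 3)) (B : Fin k → Set (EuclideanSpace ℝ (Fin 3))),
      (∀ i, ‖u i‖ = 1) ∧
      (∀ i, Bornology.IsBounded (B i) ∧ ∃ O : Set (EuclideanSpace ℝ (Fin 3)), IsOpen O ∧
        B i = O ∩ {x | inner ℝ x (u i) = 0}) ∧
      convexHull ℝ (Set.range w) ⊆
        ⋃ i, {x : EuclideanSpace ℝ (Fin 3) | ∃ y ∈ B i, ∃ τ : ℝ, x = y + τ • u i} ∧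
      (∃ δ : ℝ, 0 < δ ∧ ∀ v : EuclideanSpace ℝ (Fin 3), ‖v‖ = 1 →
        (∑ i, (μHE[2] (B i)).toReal) + δ ≤
          (μHE[2] (prj v '' convexHull ℝ (Set.range w))).toReal / 2) ∧
      ∑ i, (μHE[2] (B i)).toReal /
          (μHE[2] (prj (u i) '' convexHull ℝ (Set.range w))).toReal < 1 / 2) := by
  obtain ⟨Q, b0, hK⟩ := exists_similarity w ℓ hℓ hw
  rw [hK]
  obtain ⟨lam, hlam⟩ : ∃ lam, lam = ℓ / 2 := ⟨_, rfl⟩
  rw [← hlam]
  have hlam0 : 0 < lam := by rw [hlam]; positivity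
  obtain ⟨N, u, p, q, r, -, hc⟩ := std_cover
  have hc' := hc.sim Q lam b0 hlam0.le
  obtain ⟨m, hm⟩ : ∃ m, m = lam ^ 2 * √2 := ⟨_, rfl⟩
  have hm0 : 0 < m := by rw [hm]; positivity
  have hmin : ∀ v : E3, ‖v‖ = 1 → m ≤ (μHE[2] (prj v '' (simMap Q lam b0 '' K0))).toReal := by
    intro v hv
    rw [hm]
    exact area_prj_simMap Q lam hlam0 b0 v hv
  have hA : lam ^ 2 * (√2 * (1 / 2 - 1 / 100000000)) = m * (1 / 2 - 1 / 100000000) := by
    rw [hm]; ring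
  rw [hA] at hc'
  -- a bound for ratios
  have hratio : ∀ (κ : ℕ) (U : Fin κ → E3) (F : Fin κ → ℝ), (∀ i, ‖U i‖ = 1) → (∀ i, 0 ≤ F i) →
      ∑ i, F i ≤ m * (1 / 2 - 1 / 200000000) →
      ∑ i, F i / (μHE[2] (prj (U i) '' (simMap Q lam b0 '' K0))).toReal < 1 / 2 := by
    intro κ U F hU hF hsum
    have h1 : ∑ i, F i / (μHE[2] (prj (U i) '' (simMap Q lam b0 '' K0))).toReal ≤ ∑ i, F i / m := by
      apply Finset.sum_le_sum
      intro i _
      exact div_le_div_of_nonneg_left (hF i) hm0 (hmin _ (hU i))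
    refine h1.trans_lt ?_
    rw [← Finset.sum_div, div_lt_iff₀ hm0]
    nlinarith
  have hfinal : ∀ X : ℝ, X ≤ m * (1 / 2 - 1 / 200000000) → ∀ v : E3, ‖v‖ = 1 →
      X + m / 200000000 ≤ (μHE[2] (prj v '' (simMap Q lam b0 '' K0))).toReal / 2 := by
    intro X hX v hv
    have := hmin v hv
    linarith
  constructor
  · -- parallelogram bases
    obtain ⟨n, hn⟩ : ∃ n : ℕ, n = 100000000 := ⟨_, rfl⟩
    have hn' : (n : ℝ) = 100000000 := by rw [hn]; norm_num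
    obtain ⟨k, U, C, Ap, Bp, h1, h2, h3, h4⟩ := stair_cover hc' n (by omega)
    rw [hn'] at h4
    have hbd : ∑ i, √(gram (Ap i) (Bp i)) ≤ m * (1 / 2 - 1 / 200000000) := by
      refine h4.trans ?_
      nlinarith
    have harea : ∀ i, (μHE[2] (par (C i) (Ap i) (Bp i))).toReal = √(gram (Ap i) (Bp i)) :=
      fun i => area_par_toReal _ _ _
    refine ⟨k, U, C, Ap, Bp, h1, h2, h3, ⟨m / 200000000, by positivity, ?_⟩, ?_⟩
    · intro v hv
      simp only [harea]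
      exact hfinal _ hbd v hv
    · simp only [harea]
      exact hratio k U _ h1 (fun i => Real.sqrt_nonneg _) hbd
  · -- open bases
    obtain ⟨u', p', q', r', h1, h2, h3, h4⟩ := IsTriCover.toFin hc'
    generalize Fintype.card (Fin N ⊕ Fin N) = k at u' p' q' r' h1 h2 h3 h4
    have hk0 : (0 : ℝ) < (k : ℝ) + 1 := by positivity
    obtain ⟨η, hη⟩ : ∃ η, η = m / (400000000 * ((k : ℝ) + 1)) := ⟨_, rfl⟩
    have hη0 : 0 < η := by rw [hη]; positivity
    have hthick := fun i => exists_thicken (u' i) (h1 i) (convexHull ℝ {p' i, q' i, r' i})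
      ((Set.toFinite ({p' i, q' i, r' i} : Set E3)).isCompact_convexHull (𝕜 := ℝ)).isBounded
      (by
        intro x hx
        obtain ⟨α, β, γ, -, -, -, -, rfl⟩ := weights_of_mem_conv3 hx
        obtain ⟨e1, e2, e3⟩ := h2 i
        simp only [inner_add_left, inner_smul_left, e1, e2, e3]
        simp) η hη0
    choose B hB1 hB2 hB3 hB4 using hthick
    have hbd : ∑ i, (μHE[2] (B i)).toReal ≤ m * (1 / 2 - 1 / 200000000) := by
      have s1 : ∑ i, (μHE[2] (B i)).toReal ≤ ∑ i, (triA (p' i) (q' i) (r' i) + η) := by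
        apply Finset.sum_le_sum
        intro i _
        have := hB4 i
        rwa [area_tri_toReal] at this
      refine s1.trans ?_
      rw [Finset.sum_add_distrib, Finset.sum_const, Finset.card_univ, Fintype.card_fin, nsmul_eq_mul]
      have s2 : (k : ℝ) * η ≤ m / 400000000 := by
        rw [hη]
        have : (k : ℝ) * (m / (400000000 * ((k : ℝ) + 1))) = (m / 400000000) * ((k : ℝ) / ((k : ℝ) + 1)) := by
          field_simp
        rw [this]
        have : (k : ℝ) / ((k : ℝ) + 1) ≤ 1 := (div_le_one hk0).2 (by linarith)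
        nlinarith
      nlinarith
    refine ⟨k, u', B, h1, fun i => ⟨hB2 i, hB3 i⟩, ?_, ⟨m / 200000000, by positivity, ?_⟩, ?_⟩
    · intro x hx
      obtain ⟨i, y, hy, τ, hxe⟩ := Set.mem_iUnion.1 (h3 hx)
      exact Set.mem_iUnion.2 ⟨i, y, hB1 i hy, τ, hxe⟩
    · intro v hv
      exact hfinal _ hbd v hv
    · exact hratio k u' _ h1 (fun i => ENNReal.toReal_nonneg) hbd

end Aux

/-- Let K ⊂ ℝ³ be a regular tetrahedron (convex hull of four points with equal pairwise distances ℓ > 0); areas are Lebesgue-normalised 2-dimensional Hausdorff measure, π_v y = y − ⟪y, v⟫ v. (1) Finitely many cylinders Bᵢ + ℝ uᵢ, ‖uᵢ‖ = 1, with parallelogram bases Bᵢ = cᵢ + [0,1]aᵢ + [0,1]bᵢ in uᵢ^⊥ cover K, ∑ᵢ area(Bᵢ) being below half of area(π_v K) by a positive margin for all unit v, and ∑ᵢ area(Bᵢ)/area(π_{uᵢ} K) < 1/2. (2) The same with bounded relatively open subsets of the uᵢ^⊥ as bases. -/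
theorem result
    (w : Fin 4 → EuclideanSpace ℝ (Fin 3)) (ℓ : ℝ) (hℓ : 0 < ℓ)
    (hw : ∀ i j, i ≠ j → dist (w i) (w j) = ℓ) :
    (∃ (k : ℕ) (u c a b : Fin k → EuclideanSpace ℝ (Fin 3)),
      (∀ i, ‖u i‖ = 1) ∧
      (∀ i, inner ℝ (c i) (u i) = 0 ∧ inner ℝ (a i) (u i) = 0 ∧ inner ℝ (b i) (u i) = 0) ∧
      convexHull ℝ (Set.range w) ⊆ ⋃ i, {x : EuclideanSpace ℝ (Fin 3) |
        ∃ s ∈ Set.Icc (0 : ℝ) 1, ∃ t ∈ Set.Icc (0 : ℝ) 1, ∃ τ : ℝ, x = c i + s • a i + t • b i + τ • u i} ∧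
      (∃ δ : ℝ, 0 < δ ∧ ∀ v : EuclideanSpace ℝ (Fin 3), ‖v‖ = 1 →
        (∑ i, (μHE[2] {x : EuclideanSpace ℝ (Fin 3) |
            ∃ s ∈ Set.Icc (0 : ℝ) 1, ∃ t ∈ Set.Icc (0 : ℝ) 1, x = c i + s • a i + t • b i}).toReal) + δ ≤
          (μHE[2] ((fun y => y - inner ℝ y v • v) '' convexHull ℝ (Set.range w))).toReal / 2) ∧
      ∑ i, (μHE[2] {x : EuclideanSpace ℝ (Fin 3) |
            ∃ s ∈ Set.Icc (0 : ℝ) 1, ∃ t ∈ Set.Icc (0 : ℝ) 1, x = c i + s • a i + t • b i}).toReal /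
          (μHE[2] ((fun y => y - inner ℝ y (u i) • u i) '' convexHull ℝ (Set.range w))).toReal < 1 / 2) ∧
    (∃ (k : ℕ) (u : Fin k → EuclideanSpace ℝ (Fin 3)) (B : Fin k → Set (EuclideanSpace ℝ (Fin 3))),
      (∀ i, ‖u i‖ = 1) ∧
      (∀ i, Bornology.IsBounded (B i) ∧ ∃ O : Set (EuclideanSpace ℝ (Fin 3)), IsOpen O ∧
        B i = O ∩ {x | inner ℝ x (u i) = 0}) ∧
      convexHull ℝ (Set.range w) ⊆
        ⋃ i, {x : EuclideanSpace ℝ (Fin 3) | ∃ y ∈ B i, ∃ τ : ℝ, x = y + τ • u i} ∧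
      (∃ δ : ℝ, 0 < δ ∧ ∀ v : EuclideanSpace ℝ (Fin 3), ‖v‖ = 1 →
        (∑ i, (μHE[2] (B i)).toReal) + δ ≤
          (μHE[2] ((fun y => y - inner ℝ y v • v) '' convexHull ℝ (Set.range w))).toReal / 2) ∧
      ∑ i, (μHE[2] (B i)).toReal /
          (μHE[2] ((fun y => y - inner ℝ y (u i) • u i) '' convexHull ℝ (Set.range w))).toReal < 1 / 2) := by
  exact aux w ℓ hℓ hw

end Crest.Agent.S0327
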