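-- Row 211, statement S0328: triangular cylinder covers of a radial sweep.
import Crest.Statements.S0328
import Crest.Agent.Lib.RadialSweep

set_option autoImplicit false
open MeasureTheory
open scoped ENNReal
open Crest Crest.GeometryTopology Crest.GeometryTopology.Convex

namespace Crest.Agent.S0328

section Aux

open scoped RealInnerProductSpace
open Crest.Agent.Lib.TetArea Crest.Agent.Lib.TetMinProj Crest.Agent.Lib.TetFan
  Crest.Agent.Lib.TetCover Crest.Agent.Lib.RadialSweep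

set_option linter.unusedSimpArgs false
set_option linter.deprecated false

/-- The triangle of one cell of the partition. -/
theorem cell_cover (e a b p₀ : E3) (he : ‖e‖ = 1) (ha : ⟪a, e⟫ = 0) (hb : ⟪b, e⟫ = 0)
    (hG : 0 < gram a b) (L Λ : ℝ) (hL : 0 < L) (hΛ : 0 ≤ Λ) (α β : ℝ) (R : ℝ → ℝ)
    (w : ℝ → E3) (hw : ∀ t ∈ Set.Icc α β, ⟪w t, e⟫ = 0) (lam : ℝ → ℝ)
    (hlam : ∀ t ∈ Set.Icc α β, |lam t| ≤ Λ)
    (hw' : ∀ t ∈ Set.Icc α β, HasDerivWithinAt w (lam t • (a + t • b)) (Set.Icc α β) t)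
    (τ₁ τ₂ c Rb : ℝ) (hτ : τ₁ < τ₂) (h1 : α ≤ τ₁) (h2 : τ₂ ≤ β) (hc1 : τ₁ ≤ c) (hc2 : c ≤ τ₂)
    (hRb : ∀ τ ∈ Set.Icc τ₁ τ₂, R τ ≤ Rb) (hRb0 : 0 ≤ Rb)
    (τ ρ s : ℝ) (hτ' : τ ∈ Set.Icc τ₁ τ₂) (hρ : ρ ∈ Set.Icc 0 (R τ)) (hs : |s| ≤ L) :
    ∃ y ∈ convexHull ℝ
      {prv (e + w c) (p₀ + (-(6 * ((L * Λ + 1) * (τ₂ - τ₁)))) • a +
          (3 * ((L * Λ + 1) * (τ₂ - τ₁) ^ 2) - 6 * ((L * Λ + 1) * (τ₂ - τ₁)) * (τ₂ - c) -
            c * (6 * ((L * Λ + 1) * (τ₂ - τ₁)))) • b),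
       prv (e + w c) (p₀ + (-(6 * ((L * Λ + 1) * (τ₂ - τ₁)))) • a +
          (3 * ((L * Λ + 1) * (τ₂ - τ₁) ^ 2) - 6 * ((L * Λ + 1) * (τ₂ - τ₁)) * (τ₂ - c) -
            c * (6 * ((L * Λ + 1) * (τ₂ - τ₁)))) • b +
          (Rb + 7 * ((L * Λ + 1) * (τ₂ - τ₁))) • (a + τ₁ • b)),
       prv (e + w c) (p₀ + (-(6 * ((L * Λ + 1) * (τ₂ - τ₁)))) • a +
          (3 * ((L * Λ + 1) * (τ₂ - τ₁) ^ 2) - 6 * ((L * Λ + 1) * (τ₂ - τ₁)) * (τ₂ - c) -
            c * (6 * ((L * Λ + 1) * (τ₂ - τ₁)))) • b +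
          (Rb + 7 * ((L * Λ + 1) * (τ₂ - τ₁))) • (a + τ₂ • b))},
      ∃ σ : ℝ, p₀ + ρ • (a + τ • b) + s • (e + w τ) = y + σ • (e + w c) := by
  obtain ⟨C, hC⟩ : ∃ C, C = L * Λ + 1 := ⟨_, rfl⟩
  obtain ⟨h, hh⟩ : ∃ h, h = τ₂ - τ₁ := ⟨_, rfl⟩
  rw [← hC, ← hh]
  have hpos : 0 < h := by rw [hh]; linarith
  have hC0 : 0 < C := by rw [hC]; positivity
  have hLΛ : L * Λ ≤ C := by rw [hC]; linarith
  obtain ⟨hτ1, hτ2⟩ := hτ'
  have hsub : Set.Icc τ₁ τ₂ ⊆ Set.Icc α β := Set.Icc_subset_Icc h1 h2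
  have hτmem : τ ∈ Set.Icc α β := hsub ⟨hτ1, hτ2⟩
  have hcmem : c ∈ Set.Icc α β := hsub ⟨hc1, hc2⟩
  -- dual coordinates along the curve
  let Φ : ℝ → ℝ := fun σ => dualA a b (w σ)
  let Χ : ℝ → ℝ := fun σ => dualB a b (w σ)
  have hΦ : ∀ σ ∈ Set.Icc τ₁ τ₂, HasDerivWithinAt Φ (lam σ) (Set.Icc τ₁ τ₂) σ := by
    intro σ hσ
    have := hasDeriv_dualA a b w _ _ σ (hw' σ (hsub hσ))
    rw [dualA_comb a b hG] at this
    exact this.mono hsub
  have hΧ : ∀ σ ∈ Set.Icc τ₁ τ₂, HasDerivWithinAt Χ (lam σ * σ) (Set.Icc τ₁ τ₂) σ := by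
    intro σ hσ
    have := hasDeriv_dualB a b w _ _ σ (hw' σ (hsub hσ))
    rw [dualB_comb a b hG] at this
    exact this.mono hsub
  have hdist : |τ - c| ≤ h := by
    rw [abs_le, hh]; constructor <;> linarith
  have hΦb : |Φ τ - Φ c| ≤ Λ * h := by
    have := Convex.norm_image_sub_le_of_norm_hasDerivWithin_le (f := Φ) (C := Λ) hΦ
      (fun σ hσ => by simpa using hlam σ (hsub hσ)) (convex_Icc τ₁ τ₂)
      (⟨hc1, hc2⟩ : c ∈ Set.Icc τ₁ τ₂) (⟨hτ1, hτ2⟩ : τ ∈ Set.Icc τ₁ τ₂)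
    simp only [Real.norm_eq_abs] at this
    exact this.trans (mul_le_mul_of_nonneg_left hdist hΛ)
  have hgb : |(Χ τ - Χ c) - c * (Φ τ - Φ c)| ≤ Λ * h ^ 2 := by
    have hG' : ∀ σ ∈ Set.Icc τ₁ τ₂, HasDerivWithinAt (fun σ => Χ σ - c * Φ σ) (lam σ * σ - c * lam σ)
        (Set.Icc τ₁ τ₂) σ := fun σ hσ => (hΧ σ hσ).sub ((hΦ σ hσ).const_mul c)
    have := Convex.norm_image_sub_le_of_norm_hasDerivWithin_le (f := fun σ => Χ σ - c * Φ σ)
      (C := Λ * h) hG'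
      (fun σ hσ => by
        have e1 : lam σ * σ - c * lam σ = lam σ * (σ - c) := by ring
        rw [e1, norm_mul, Real.norm_eq_abs, Real.norm_eq_abs]
        apply mul_le_mul (hlam σ (hsub hσ)) _ (abs_nonneg _) hΛ
        rw [abs_le, hh]
        constructor <;> linarith [hσ.1, hσ.2])
      (convex_Icc τ₁ τ₂) (⟨hc1, hc2⟩ : c ∈ Set.Icc τ₁ τ₂) (⟨hτ1, hτ2⟩ : τ ∈ Set.Icc τ₁ τ₂)
    simp only [Real.norm_eq_abs] at this
    have e2 : (Χ τ - Χ c) - c * (Φ τ - Φ c) = (Χ τ - c * Φ τ) - (Χ c - c * Φ c) := by ring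
    rw [e2]
    refine this.trans ?_
    calc Λ * h * |τ - c| ≤ Λ * h * h := mul_le_mul_of_nonneg_left hdist (by positivity)
      _ = Λ * h ^ 2 := by ring
  obtain ⟨A, hA⟩ : ∃ A, A = s * (Φ τ - Φ c) := ⟨_, rfl⟩
  obtain ⟨B, hB⟩ : ∃ B, B = s * ((Χ τ - Χ c) - c * (Φ τ - Φ c)) := ⟨_, rfl⟩
  have hAb : |A| ≤ C * h := by
    rw [hA, abs_mul]
    calc |s| * |Φ τ - Φ c| ≤ L * (Λ * h) := mul_le_mul hs hΦb (abs_nonneg _) hL.le
      _ = (L * Λ) * h := by ring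
      _ ≤ C * h := mul_le_mul_of_nonneg_right hLΛ hpos.le
  have hBb : |B| ≤ C * h ^ 2 := by
    rw [hB, abs_mul]
    calc |s| * |(Χ τ - Χ c) - c * (Φ τ - Φ c)| ≤ L * (Λ * h ^ 2) :=
          mul_le_mul hs hgb (abs_nonneg _) hL.le
      _ = (L * Λ) * h ^ 2 := by ring
      _ ≤ C * h ^ 2 := mul_le_mul_of_nonneg_right hLΛ (by positivity)
  obtain ⟨ξ, hξ⟩ : ∃ ξ, ξ = τ - c := ⟨_, rfl⟩
  have hwr := wedge_real ρ A B ξ (τ₁ - c) (τ₂ - c) C h hC0.le hpos hρ.1 hAb hBb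
    (by rw [hξ]; linarith) (by rw [hξ]; linarith) (by rw [hh]; ring) (by rw [hξ]; exact hdist)
  simp only at hwr
  obtain ⟨hw1, hw2⟩ := hwr
  obtain ⟨d, hd⟩ : ∃ d, d = 6 * (C * h) := ⟨_, rfl⟩
  obtain ⟨y₀, hy₀⟩ : ∃ y₀, y₀ = 3 * (C * h ^ 2) - 6 * (C * h) * (τ₂ - c) := ⟨_, rfl⟩
  rw [← hy₀, ← hd] at hw1 hw2
  rw [← hy₀, ← hd]
  have hDpos : 0 < Rb + 7 * (C * h) := by positivity
  have hX : ρ + A + d ≤ Rb + 7 * (C * h) := by
    have a1 := (abs_le.1 hAb).2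
    have a2 : ρ ≤ Rb := hρ.2.trans (hRb τ ⟨hτ1, hτ2⟩)
    rw [hd]; linarith
  have hsec := sector_mem (p₀ + (-d) • a + (y₀ - c * d) • b) a b (Rb + 7 * (C * h)) τ₁ τ₂
    (ρ + A + d) (ρ * ξ + B + c * (ρ + A) - y₀ + c * d) hDpos hτ hX
    (by nlinarith) (by nlinarith)
  obtain ⟨y, hy, σ, hyσ⟩ := mem_cyl_prv (e + w c) _ _ _ _ hsec s
  refine ⟨y, hy, σ, ?_⟩
  rw [← hyσ]
  have hwτ := decomp e a b (w τ) he ha hb hG (hw τ hτmem)
  have hwc := decomp e a b (w c) he ha hb hG (hw c hcmem)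
  have e1 : s • (e + w τ) = s • (e + w c) + (s * (Φ τ - Φ c)) • a + (s * (Χ τ - Χ c)) • b := by
    have hdiff : w τ = w c + (Φ τ - Φ c) • a + (Χ τ - Χ c) • b := by
      have e5 : w τ - w c = (Φ τ - Φ c) • a + (Χ τ - Χ c) • b := by
        nth_rewrite 1 [hwτ]
        nth_rewrite 1 [hwc]
        simp only [Φ, Χ, sub_smul]
        abel
      rw [add_assoc, ← e5]
      abel
    nth_rewrite 1 [hdiff]
    module
  rw [e1, hξ, hA, hB]
  have e2 : (s * (Χ τ - Χ c)) = s * (Χ τ - Χ c - c * (Φ τ - Φ c)) + c * (s * (Φ τ - Φ c)) := by ring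
  rw [e2]
  module

/-- The projected sector lies in the projection of the cell. -/
lemma sector_sub (e a b p₀ : E3) (L : ℝ) (hL : 0 < L) (R : ℝ → ℝ) (w : ℝ → E3) (v : E3)
    (τ₁ τ₂ Rm : ℝ) (hτ : τ₁ ≤ τ₂) (hRm0 : 0 ≤ Rm) (hRm : ∀ τ ∈ Set.Icc τ₁ τ₂, Rm ≤ R τ) :
    convexHull ℝ {prv v p₀, prv v (p₀ + Rm • (a + τ₁ • b)), prv v (p₀ + Rm • (a + τ₂ • b))} ⊆
      prv v '' {x | ∃ τ ∈ Set.Icc τ₁ τ₂, ∃ ρ ∈ Set.Icc 0 (R τ), ∃ s : ℝ, |s| ≤ L ∧
        x = p₀ + ρ • (a + τ • b) + s • (e + w τ)} := by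
  intro y hy
  obtain ⟨l₀, l₁, l₂, h0, h1, h2, h3, rfl⟩ := weights_of_mem_conv3 hy
  rw [← prv_lin]
  refine ⟨_, ?_, rfl⟩
  have hl : l₁ + l₂ ≤ 1 := by linarith
  by_cases hz : l₁ + l₂ = 0
  · have hl1 : l₁ = 0 := by linarith
    have hl2 : l₂ = 0 := by linarith
    have hl0 : l₀ = 1 := by linarith
    refine ⟨τ₁, ⟨le_rfl, hτ⟩, 0, ⟨le_rfl, hRm0.trans (hRm τ₁ ⟨le_rfl, hτ⟩)⟩, 0, by simpa using hL.le, ?_⟩
    rw [hl0, hl1, hl2]
    simp
  · have hpos : 0 < l₁ + l₂ := lt_of_le_of_ne (by positivity) (Ne.symm hz)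
    obtain ⟨τ, hτdef⟩ : ∃ τ, τ = (l₁ * τ₁ + l₂ * τ₂) / (l₁ + l₂) := ⟨_, rfl⟩
    have hτ1 : τ₁ ≤ τ := by
      rw [hτdef, le_div_iff₀ hpos]; nlinarith
    have hτ2 : τ ≤ τ₂ := by
      rw [hτdef, div_le_iff₀ hpos]; nlinarith
    have hτe : (l₁ + l₂) * τ = l₁ * τ₁ + l₂ * τ₂ := by
      rw [hτdef]; field_simp
    refine ⟨τ, ⟨hτ1, hτ2⟩, Rm * (l₁ + l₂), ⟨by positivity, ?_⟩, 0, by simpa using hL.le, ?_⟩
    · calc Rm * (l₁ + l₂) ≤ Rm * 1 := mul_le_mul_of_nonneg_left hl hRm0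
        _ = Rm := mul_one _
        _ ≤ R τ := hRm τ ⟨hτ1, hτ2⟩
    · have e1 : (Rm * (l₁ + l₂)) • (a + τ • b) =
          (Rm * (l₁ + l₂)) • a + (Rm * (l₁ * τ₁ + l₂ * τ₂)) • b := by
        rw [← hτe, smul_add, smul_smul]
        congr 2
        ring
      rw [e1]
      have hl0 : l₀ = 1 - l₁ - l₂ := by linarith
      rw [hl0]
      module

private theorem aux (e a b p₀ : EuclideanSpace ℝ (Fin 3)) (he : ‖e‖ = 1)
    (ha : inner ℝ a e = 0) (hb : inner ℝ b e = 0)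
    (hab : LinearIndependent ℝ ![a, b]) (L : ℝ) (hL : 0 < L) (α β : ℝ) (hαβ : α < β)
    (R : ℝ → ℝ) (hR : ContinuousOn R (Set.Icc α β)) (hR0 : ∀ t ∈ Set.Icc α β, 0 ≤ R t)
    (w : ℝ → EuclideanSpace ℝ (Fin 3)) (hw : ∀ t ∈ Set.Icc α β, inner ℝ (w t) e = 0)
    (lam : ℝ → ℝ) (hlam : ContinuousOn lam (Set.Icc α β))
    (hw' : ∀ t ∈ Set.Icc α β, HasDerivWithinAt w (lam t • (a + t • b)) (Set.Icc α β) t)
    (η : ℝ) (hη : 0 < η) :
    ∃ δ : ℝ, 0 < δ ∧ ∀ (N : ℕ) (t : Fin (N + 1) → ℝ) (c : Fin N → ℝ),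
      StrictMono t → t 0 = α → t (Fin.last N) = β →
      (∀ i : Fin N, t i.succ - t i.castSucc ≤ δ) →
      (∀ i : Fin N, t i.castSucc ≤ c i ∧ c i ≤ t i.succ) →
      (∃ (p q r : Fin N → EuclideanSpace ℝ (Fin 3)),
        (∀ i, inner ℝ (p i) (e + w (c i)) = 0 ∧ inner ℝ (q i) (e + w (c i)) = 0 ∧
          inner ℝ (r i) (e + w (c i)) = 0) ∧
        (∀ i, AffineIndependent ℝ ![p i, q i, r i]) ∧
        {x : EuclideanSpace ℝ (Fin 3) | ∃ τ ∈ Set.Icc α β, ∃ ρ ∈ Set.Icc 0 (R τ), ∃ s : ℝ, abs s ≤ L ∧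
            x = p₀ + ρ • (a + τ • b) + s • (e + w τ)} ⊆
          ⋃ i, {x : EuclideanSpace ℝ (Fin 3) | ∃ y ∈ convexHull ℝ {p i, q i, r i}, ∃ σ : ℝ,
            x = y + σ • (e + w (c i))} ∧
        abs ((∑ i, (μHE[2] (convexHull ℝ ({p i, q i, r i} : Set (EuclideanSpace ℝ (Fin 3))))).toReal) -
            √(gram a b) *
              ∫ τ in α..β, R τ ^ 2 / (2 * Real.sqrt (1 + ‖w τ‖ ^ 2))) ≤ η) ∧
      abs ((∑ i : Fin N, (μHE[2] (prv (e + w (c i)) ''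
            {x : EuclideanSpace ℝ (Fin 3) | ∃ τ ∈ Set.Icc (t i.castSucc) (t i.succ), ∃ ρ ∈ Set.Icc 0 (R τ),
              ∃ s : ℝ, abs s ≤ L ∧ x = p₀ + ρ • (a + τ • b) + s • (e + w τ)})).toReal) -
          √(gram a b) *
            ∫ τ in α..β, R τ ^ 2 / (2 * Real.sqrt (1 + ‖w τ‖ ^ 2))) ≤ η := by
  have hG := gram_pos_of_li hab
  obtain ⟨Λ, hΛ⟩ := isCompact_Icc.exists_bound_of_continuousOn hlam
  have hΛ0 : 0 ≤ Λ := (norm_nonneg _).trans (hΛ α ⟨le_rfl, hαβ.le⟩)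
  have hΛ' : ∀ t ∈ Set.Icc α β, |lam t| ≤ Λ := fun t ht => by simpa using hΛ t ht
  have hwc : ContinuousOn w (Set.Icc α β) := fun τ hτ => (hw' τ hτ).continuousWithinAt
  obtain ⟨κ, hκ⟩ : ∃ κ, κ = √(gram a b) := ⟨_, rfl⟩
  rw [← hκ]
  have hκ0 : 0 ≤ κ := by rw [hκ]; positivity
  have hwidth : 0 < β - α := by linarith
  obtain ⟨ε₁, hε₁⟩ : ∃ ε₁, ε₁ = η / (κ * (β - α) + 1) := ⟨_, rfl⟩
  have hε₁0 : 0 < ε₁ := by rw [hε₁]; positivity
  have hε₁b : κ * (ε₁ * (β - α)) ≤ η := by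
    rw [hε₁]
    have e1 : κ * (η / (κ * (β - α) + 1) * (β - α)) = η * ((κ * (β - α)) / (κ * (β - α) + 1)) := by
      field_simp
    rw [e1]
    have : (κ * (β - α)) / (κ * (β - α) + 1) ≤ 1 := (div_le_one (by positivity)).2 (by linarith)
    nlinarith
  -- the function controlling all cells
  let H : ℝ × ℝ → ℝ := fun z => (max (R z.1 + z.2) 0) ^ 2 / (2 * √(1 + ‖w z.1‖ ^ 2))
  have hs : ∀ τ : ℝ, 0 < √(1 + ‖w τ‖ ^ 2) := fun τ => Real.sqrt_pos.2 (by positivity)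
  have hHc : ContinuousOn H (Set.Icc α β ×ˢ Set.Icc (-1 : ℝ) 1) := by
    have hfst : Set.MapsTo Prod.fst (Set.Icc α β ×ˢ Set.Icc (-1 : ℝ) 1) (Set.Icc α β) :=
      fun z hz => hz.1
    have h1 : ContinuousOn (fun z : ℝ × ℝ => R z.1) (Set.Icc α β ×ˢ Set.Icc (-1 : ℝ) 1) :=
      hR.comp continuousOn_fst hfst
    have h2 : ContinuousOn (fun z : ℝ × ℝ => w z.1) (Set.Icc α β ×ˢ Set.Icc (-1 : ℝ) 1) :=
      hwc.comp continuousOn_fst hfst
    have h3 : ContinuousOn (fun z : ℝ × ℝ => R z.1 + z.2) (Set.Icc α β ×ˢ Set.Icc (-1 : ℝ) 1) :=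
      h1.add continuousOn_snd
    apply ContinuousOn.div
    · exact (h3.sup continuousOn_const).pow 2
    · apply continuousOn_const.mul
      apply Real.continuous_sqrt.comp_continuousOn
      exact continuousOn_const.add (h2.norm.pow 2)
    · intro z _
      have := hs z.1
      positivity
  obtain ⟨δ₀, hδ₀, hUC⟩ := Metric.uniformContinuousOn_iff.1
    ((isCompact_Icc.prod isCompact_Icc).uniformContinuousOn_of_continuous hHc) ε₁ hε₁0
  obtain ⟨η', hη'⟩ : ∃ η', η' = min (δ₀ / 4) (1 / 2) := ⟨_, rfl⟩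
  have hη'0 : 0 < η' := by rw [hη']; positivity
  have hη'1 : η' ≤ δ₀ / 4 := by rw [hη']; exact min_le_left _ _
  have hη'2 : η' ≤ 1 / 2 := by rw [hη']; exact min_le_right _ _
  obtain ⟨δ₁, hδ₁, hRUC⟩ := Metric.uniformContinuousOn_iff.1
    (isCompact_Icc.uniformContinuousOn_of_continuous hR) η' hη'0
  obtain ⟨C, hC⟩ : ∃ C, C = L * Λ + 1 := ⟨_, rfl⟩
  have hC0 : 0 < C := by rw [hC]; positivity
  obtain ⟨δ, hδ⟩ : ∃ δ, δ = min (δ₁ / 2) (min (δ₀ / 2) (η' / (7 * C))) := ⟨_, rfl⟩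
  have hδ0 : 0 < δ := by rw [hδ]; positivity
  have hδ1 : δ < δ₁ := by
    have : δ ≤ δ₁ / 2 := by rw [hδ]; exact min_le_left _ _
    linarith
  have hδ2 : δ < δ₀ := by
    have : δ ≤ δ₀ / 2 := by rw [hδ]; exact (min_le_right _ _).trans (min_le_left _ _)
    linarith
  have hδ3 : 7 * (C * δ) ≤ η' := by
    have : δ ≤ η' / (7 * C) := by rw [hδ]; exact (min_le_right _ _).trans (min_le_right _ _)
    have h7 : 0 < 7 * C := by positivity
    rw [le_div_iff₀ h7] at this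
    linarith
  -- the integrand
  obtain ⟨F, hF⟩ : ∃ F : ℝ → ℝ, F = fun τ => R τ ^ 2 / (2 * √(1 + ‖w τ‖ ^ 2)) := ⟨_, rfl⟩
  have hFc : ContinuousOn F (Set.Icc α β) := by
    rw [hF]
    apply ContinuousOn.div (hR.pow 2)
    · apply continuousOn_const.mul
      apply Real.continuous_sqrt.comp_continuousOn
      exact continuousOn_const.add (hwc.norm.pow 2)
    · intro z _
      have := hs z
      positivity
  have hFH : ∀ τ ∈ Set.Icc α β, F τ = H (τ, 0) := by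
    intro τ hτ
    simp only [hF, H, add_zero, max_eq_left (hR0 τ hτ)]
  refine ⟨δ, hδ0, ?_⟩
  intro N t c hmono ht0 htl hmesh htags
  have hN : 0 < N := by
    rcases N with _ | n
    · exfalso
      have : (0 : Fin 1) = Fin.last 0 := rfl
      rw [this, htl] at ht0
      linarith
    · omega
  have hm : Monotone t := hmono.monotone
  have hc1 : ∀ i : Fin N, α ≤ t i.castSucc := fun i => by rw [← ht0]; exact hm (Fin.zero_le _)
  have hc2 : ∀ i : Fin N, t i.succ ≤ β := fun i => by rw [← htl]; exact hm (Fin.le_last _)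
  have hlt : ∀ i : Fin N, t i.castSucc < t i.succ := fun i => hmono Fin.castSucc_lt_succ
  have hcell : ∀ i : Fin N, Set.Icc (t i.castSucc) (t i.succ) ⊆ Set.Icc α β :=
    fun i => Set.Icc_subset_Icc (hc1 i) (hc2 i)
  have hcmem : ∀ i : Fin N, c i ∈ Set.Icc α β := fun i => hcell i (htags i)
  have hRc : ∀ i : Fin N, 0 ≤ R (c i) := fun i => hR0 _ (hcmem i)
  -- closeness of the radius in each cell
  have hclose : ∀ i : Fin N, ∀ τ ∈ Set.Icc (t i.castSucc) (t i.succ), |R τ - R (c i)| < η' := by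
    intro i τ hτ
    have h1 := hRUC τ (hcell i hτ) (c i) (hcmem i) (by
      rw [Real.dist_eq]
      refine lt_of_le_of_lt ?_ hδ1
      refine le_trans ?_ (hmesh i)
      rw [abs_le]
      constructor <;> linarith [hτ.1, hτ.2, (htags i).1, (htags i).2])
    simpa [Real.dist_eq] using h1
  -- comparison of the cell value with the integrand
  have hHclose : ∀ (i : Fin N) (μ : ℝ), |μ| < δ₀ → |μ| ≤ 1 → ∀ τ ∈ Set.Icc (t i.castSucc) (t i.succ),
      |H (c i, μ) - F τ| ≤ ε₁ := by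
    intro i μ hμ hμ1 τ hτ
    rw [hFH τ (hcell i hτ)]
    have h1 := hUC (c i, μ) ⟨hcmem i, abs_le.1 hμ1⟩ (τ, 0)
      ⟨hcell i hτ, by norm_num, by norm_num⟩ (by
        rw [Prod.dist_eq]
        apply max_lt
        · rw [Real.dist_eq]
          refine lt_of_le_of_lt ?_ hδ2
          refine le_trans ?_ (hmesh i)
          rw [abs_le]
          constructor <;> linarith [hτ.1, hτ.2, (htags i).1, (htags i).2]
        · simpa [Real.dist_eq] using hμ)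
    rw [Real.dist_eq] at h1
    exact h1.le
  have hFc' : ContinuousOn F (Set.Icc (t 0) (t (Fin.last N))) := by
    rw [ht0, htl]; exact hFc
  -- the two cell values
  let h' : Fin N → ℝ := fun i => t i.succ - t i.castSucc
  have hh'pos : ∀ i, 0 < h' i := fun i => sub_pos.2 (hlt i)
  have hh'le : ∀ i, h' i ≤ δ := hmesh
  let μp : Fin N → ℝ := fun i => η' + 7 * (C * h' i)
  have hμp0 : ∀ i, 0 < μp i := fun i => by
    have := hh'pos i
    simp only [μp]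
    positivity
  have hμp1 : ∀ i, μp i ≤ 2 * η' := fun i => by
    have : 7 * (C * h' i) ≤ 7 * (C * δ) := by
      have := mul_le_mul_of_nonneg_left (hh'le i) hC0.le
      linarith
    simp only [μp]
    linarith
  have hRiemannP := riemann_bound N t F (fun i => H (c i, μp i)) ε₁ hm hFc' (by
    intro i τ hτ
    apply hHclose i _ _ _ τ hτ
    · rw [abs_of_pos (hμp0 i)]
      have := hμp1 i
      linarith
    · rw [abs_of_pos (hμp0 i)]
      have := hμp1 i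
      linarith)
  have hRiemannM := riemann_bound N t F (fun i => H (c i, -η')) ε₁ hm hFc' (by
    intro i τ hτ
    apply hHclose i _ _ _ τ hτ
    · rw [abs_neg, abs_of_pos hη'0]
      linarith
    · rw [abs_neg, abs_of_pos hη'0]
      linarith)
  rw [ht0, htl] at hRiemannP hRiemannM
  rw [← hF]
  -- the apex and the triangle of each cell
  let A0 : Fin N → E3 := fun i => p₀ + (-(6 * ((L * Λ + 1) * h' i))) • a +
    (3 * ((L * Λ + 1) * h' i ^ 2) - 6 * ((L * Λ + 1) * h' i) * (t i.succ - c i) -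
      c i * (6 * ((L * Λ + 1) * h' i))) • b
  let D : Fin N → ℝ := fun i => R (c i) + η' + 7 * ((L * Λ + 1) * h' i)
  let v : Fin N → E3 := fun i => e + w (c i)
  have hv : ∀ i, v i ≠ 0 := by
    intro i h0
    have hw0 := hw (c i) (hcmem i)
    have h1 : ‖v i‖ ^ 2 = 1 + ‖w (c i)‖ ^ 2 := by
      simp only [v]
      rw [← real_inner_self_eq_norm_sq, inner_add_left, inner_add_right, inner_add_right,
        real_inner_self_eq_norm_sq, real_inner_self_eq_norm_sq, he, hw0, real_inner_comm, hw0]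
      ring
    rw [h0] at h1
    simp at h1
    nlinarith [sq_nonneg ‖w (c i)‖]
  let p : Fin N → E3 := fun i => prv (v i) (A0 i)
  let q : Fin N → E3 := fun i => prv (v i) (A0 i + D i • (a + t i.castSucc • b))
  let r : Fin N → E3 := fun i => prv (v i) (A0 i + D i • (a + t i.succ • b))
  have hDe : ∀ i, D i = R (c i) + μp i := fun i => by
    simp only [D, μp, hC]
    ring
  have hD0 : ∀ i, 0 < D i := fun i => by
    rw [hDe]
    have := hRc i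
    have := hμp0 i
    linarith
  have htri : ∀ i, triA (p i) (q i) (r i) = κ * (h' i * H (c i, μp i)) := by
    intro i
    have := triA_sector e a b (w (c i)) (A0 i) he ha hb hG (hw _ (hcmem i)) (D i) _ _ (hlt i).le
    simp only [p, q, r, v]
    rw [this, ← hκ]
    congr 2
    simp only [H]
    rw [hDe, max_eq_left (by
      have := hRc i
      have := hμp0 i
      linarith)]
  have hcover : ∀ i : Fin N, ∀ x ∈ {x : E3 | ∃ τ ∈ Set.Icc (t i.castSucc) (t i.succ), ∃ ρ ∈ Set.Icc 0 (R τ),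
      ∃ s : ℝ, |s| ≤ L ∧ x = p₀ + ρ • (a + τ • b) + s • (e + w τ)},
      ∃ y ∈ convexHull ℝ {p i, q i, r i}, ∃ σ : ℝ, x = y + σ • v i := by
    rintro i x ⟨τ, hτ, ρ, hρ, s, hs', rfl⟩
    have hRb : ∀ τ ∈ Set.Icc (t i.castSucc) (t i.succ), R τ ≤ R (c i) + η' := by
      intro τ hτ
      have := (abs_lt.1 (hclose i τ hτ)).2
      linarith
    exact cell_cover e a b p₀ he ha hb hG L Λ hL hΛ0 α β R w hw lam hΛ' hw' _ _ (c i) (R (c i) + η')
      (hlt i) (hc1 i) (hc2 i) (htags i).1 (htags i).2 hRb (by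
        have := hRc i
        linarith) τ ρ s hτ hρ hs'
  constructor
  · -- triangular bases
    refine ⟨p, q, r, ?_, ?_, ?_, ?_⟩
    · intro i
      exact ⟨prv_orth _ (hv i) _, prv_orth _ (hv i) _, prv_orth _ (hv i) _⟩
    · intro i
      apply affineIndependent_of_gram
      intro h0
      have h1 := htri i
      rw [triA, h0] at h1
      simp only [Real.sqrt_zero, zero_div] at h1
      have h2 : 0 < H (c i, μp i) := by
        simp only [H]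
        rw [max_eq_left (by
          have := hRc i
          have := hμp0 i
          linarith)]
        have h3 : 0 < R (c i) + μp i := by
          have := hRc i
          have := hμp0 i
          linarith
        have := hs (c i)
        positivity
      have h3 : 0 < κ := by
        rw [hκ]
        exact Real.sqrt_pos.2 hG
      have h4 := hh'pos i
      have : 0 < κ * (h' i * H (c i, μp i)) := by positivity
      linarith
    · rintro x ⟨τ, hτ, ρ, hρ, s, hs', rfl⟩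
      obtain ⟨i, hi1, hi2⟩ := exists_cell N hN t τ (by rw [ht0]; exact hτ.1) (by rw [htl]; exact hτ.2)
      obtain ⟨y, hy, σ, hσ⟩ := hcover i _ ⟨τ, ⟨hi1, hi2⟩, ρ, hρ, s, hs', rfl⟩
      exact Set.mem_iUnion.2 ⟨i, y, hy, σ, hσ⟩
    · rw [sum_area_eq]
      simp only [htri]
      rw [← Finset.mul_sum, ← mul_sub, abs_mul, abs_of_nonneg hκ0]
      exact (mul_le_mul_of_nonneg_left hRiemannP hκ0).trans hε₁b
  · -- the projected cells
    have hupper : ∀ i : Fin N, prv (v i) '' {x : E3 | ∃ τ ∈ Set.Icc (t i.castSucc) (t i.succ), ∃ ρ ∈ Set.Icc 0 (R τ),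
        ∃ s : ℝ, |s| ≤ L ∧ x = p₀ + ρ • (a + τ • b) + s • (e + w τ)} ⊆ convexHull ℝ {p i, q i, r i} := by
      rintro i _ ⟨x, hx, rfl⟩
      obtain ⟨y, hy, σ, rfl⟩ := hcover i x hx
      rw [prv_add_smul _ (hv i)]
      -- the triangle lies in the plane
      obtain ⟨l₀, l₁, l₂, h0, h1, h2, h3, rfl⟩ := weights_of_mem_conv3 hy
      rw [prv_lin]
      have hpp : ∀ z, prv (v i) (prv (v i) z) = prv (v i) z := fun z =>
        prv_of_perp _ _ (prv_orth _ (hv i) z)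
      simp only [p, q, r, hpp]
      exact mem_conv3_of_weights h0 h1 h2 h3 rfl
    have hlower : ∀ i : Fin N, κ * (h' i * H (c i, -η')) ≤
        (μHE[2] (prv (v i) '' {x : E3 | ∃ τ ∈ Set.Icc (t i.castSucc) (t i.succ), ∃ ρ ∈ Set.Icc 0 (R τ),
        ∃ s : ℝ, |s| ≤ L ∧ x = p₀ + ρ • (a + τ • b) + s • (e + w τ)})).toReal := by
      intro i
      obtain ⟨Rm, hRm⟩ : ∃ Rm, Rm = max (R (c i) + -η') 0 := ⟨_, rfl⟩
      have hRm0 : 0 ≤ Rm := by rw [hRm]; exact le_max_right _ _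
      have hsec := sector_sub e a b p₀ L hL R w (v i) (t i.castSucc) (t i.succ) Rm (hlt i).le hRm0 (by
        intro τ hτ
        rw [hRm]
        apply max_le
        · have := (abs_lt.1 (hclose i τ hτ)).1
          linarith
        · exact hR0 τ (hcell i hτ))
      have hval := triA_sector e a b (w (c i)) p₀ he ha hb hG (hw _ (hcmem i)) Rm _ _ (hlt i).le
      have harea := area_tri_toReal (prv (v i) p₀) (prv (v i) (p₀ + Rm • (a + t i.castSucc • b)))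
        (prv (v i) (p₀ + Rm • (a + t i.succ • b)))
      have hfin : μHE[2] (prv (v i) '' {x : E3 | ∃ τ ∈ Set.Icc (t i.castSucc) (t i.succ), ∃ ρ ∈ Set.Icc 0 (R τ),
          ∃ s : ℝ, |s| ≤ L ∧ x = p₀ + ρ • (a + τ • b) + s • (e + w τ)}) ≠ ⊤ := by
        apply ne_top_of_le_ne_top _ (measure_mono (hupper i))
        rw [area_tri]
        exact ENNReal.ofReal_ne_top
      have h1 := ENNReal.toReal_mono hfin (measure_mono hsec)
      refine le_trans (le_of_eq ?_) h1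
      rw [harea]
      change _ = triA _ _ _
      simp only [v]
      rw [hval, ← hκ]
      simp only [H, hRm]
      rfl
    have hupper' : ∀ i : Fin N,
        (μHE[2] (prv (v i) '' {x : E3 | ∃ τ ∈ Set.Icc (t i.castSucc) (t i.succ), ∃ ρ ∈ Set.Icc 0 (R τ),
        ∃ s : ℝ, |s| ≤ L ∧ x = p₀ + ρ • (a + τ • b) + s • (e + w τ)})).toReal ≤
        κ * (h' i * H (c i, μp i)) := by
      intro i
      have hfin : μHE[2] (convexHull ℝ ({p i, q i, r i} : Set E3)) ≠ ⊤ := by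
        rw [area_tri]
        exact ENNReal.ofReal_ne_top
      have h1 := ENNReal.toReal_mono hfin (measure_mono (hupper i))
      rw [area_tri_toReal] at h1
      rw [← htri i]
      exact h1
    have hS1 := Finset.sum_le_sum (fun i (_ : i ∈ Finset.univ) => hupper' i)
    have hS2 := Finset.sum_le_sum (fun i (_ : i ∈ Finset.univ) => hlower i)
    rw [← Finset.mul_sum] at hS1 hS2
    obtain ⟨hP1, hP2⟩ := abs_le.1 hRiemannP
    obtain ⟨hM1, hM2⟩ := abs_le.1 hRiemannM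
    have t1 := mul_le_mul_of_nonneg_left hP2 hκ0
    have t2 := mul_le_mul_of_nonneg_left hM1 hκ0
    rw [abs_le]
    constructor
    · have e1 : κ * (-(ε₁ * (β - α))) = -(κ * (ε₁ * (β - α))) := by ring
      rw [e1] at t2
      rw [mul_sub] at t2
      linarith
    · rw [mul_sub] at t1
      linarith

end Aux

/-- Unit e; a, b, p₀ ∈ e^⊥, a, b independent; α < β; L > 0; R ≥ 0, λ both continuous on [α, β]; w(t) ∈ e^⊥, w′ = λ(t)(a + tb). S = {p₀ + ρ(a + t b) + s(e + w t) : α ≤ t ≤ β, 0 ≤ ρ ≤ R t, ‖s‖ ≤ L}; A = κ ∫_α^β R²/(2√(1 + ‖w‖²)), κ = area spanned by a, b. For η > 0 a δ > 0 makes each partition t₀ < … < t_N of [α, β] of mesh ≤ δ, tags cᵢ, admit N cylinders (axes e + w(cᵢ), nondegenerate triangle bases) covering S, total area within η of A; same for S's pieces tᵢ ≤ t ≤ tᵢ₊₁ projected along these axes. -/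
theorem result
    (e a b p₀ : EuclideanSpace ℝ (Fin 3)) (he : ‖e‖ = 1)
    (ha : inner ℝ a e = 0) (hb : inner ℝ b e = 0) (hp₀ : inner ℝ p₀ e = 0)
    (hab : LinearIndependent ℝ ![a, b]) (L : ℝ) (hL : 0 < L) (α β : ℝ) (hαβ : α < β)
    (R : ℝ → ℝ) (hR : ContinuousOn R (Set.Icc α β)) (hR0 : ∀ t ∈ Set.Icc α β, 0 ≤ R t)
    (w : ℝ → EuclideanSpace ℝ (Fin 3)) (hw : ∀ t ∈ Set.Icc α β, inner ℝ (w t) e = 0)
    (lam : ℝ → ℝ) (hlam : ContinuousOn lam (Set.Icc α β))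
    (hw' : ∀ t ∈ Set.Icc α β, HasDerivWithinAt w (lam t • (a + t • b)) (Set.Icc α β) t)
    (η : ℝ) (hη : 0 < η) :
    ∃ δ : ℝ, 0 < δ ∧ ∀ (N : ℕ) (t : Fin (N + 1) → ℝ) (c : Fin N → ℝ),
      StrictMono t → t 0 = α → t (Fin.last N) = β →
      (∀ i : Fin N, t i.succ - t i.castSucc ≤ δ) →
      (∀ i : Fin N, t i.castSucc ≤ c i ∧ c i ≤ t i.succ) →
      (∃ (p q r : Fin N → EuclideanSpace ℝ (Fin 3)),
        (∀ i, inner ℝ (p i) (e + w (c i)) = 0 ∧ inner ℝ (q i) (e + w (c i)) = 0 ∧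
          inner ℝ (r i) (e + w (c i)) = 0) ∧
        (∀ i, AffineIndependent ℝ ![p i, q i, r i]) ∧
        {x : EuclideanSpace ℝ (Fin 3) | ∃ τ ∈ Set.Icc α β, ∃ ρ ∈ Set.Icc 0 (R τ), ∃ s : ℝ, abs s ≤ L ∧
            x = p₀ + ρ • (a + τ • b) + s • (e + w τ)} ⊆
          ⋃ i, {x : EuclideanSpace ℝ (Fin 3) | ∃ y ∈ convexHull ℝ {p i, q i, r i}, ∃ σ : ℝ,
            x = y + σ • (e + w (c i))} ∧
        abs ((∑ i, (μHE[2] (convexHull ℝ ({p i, q i, r i} : Set (EuclideanSpace ℝ (Fin 3))))).toReal) -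
            Real.sqrt (‖a‖ ^ 2 * ‖b‖ ^ 2 - inner ℝ a b ^ 2) *
              ∫ τ in α..β, R τ ^ 2 / (2 * Real.sqrt (1 + ‖w τ‖ ^ 2))) ≤ η) ∧
      abs ((∑ i : Fin N, (μHE[2] ((fun y => y - (inner ℝ y (e + w (c i)) / ‖e + w (c i)‖ ^ 2) • (e + w (c i))) ''
            {x : EuclideanSpace ℝ (Fin 3) | ∃ τ ∈ Set.Icc (t i.castSucc) (t i.succ), ∃ ρ ∈ Set.Icc 0 (R τ),
              ∃ s : ℝ, abs s ≤ L ∧ x = p₀ + ρ • (a + τ • b) + s • (e + w τ)})).toReal) -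
          Real.sqrt (‖a‖ ^ 2 * ‖b‖ ^ 2 - inner ℝ a b ^ 2) *
            ∫ τ in α..β, R τ ^ 2 / (2 * Real.sqrt (1 + ‖w τ‖ ^ 2))) ≤ η := by
  exact aux e a b p₀ he ha hb hab L hL α β hαβ R hR hR0 w hw lam hlam hw' η hη

end Crest.Agent.S0328
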