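-- Row 211, statement S0329: from the sheared squares of S0326 to cylinders in space with open bases.
import Crest.Statements.S0329
import Crest.Agent.S0326
import Crest.Agent.Lib.TetSim

set_option autoImplicit false
open MeasureTheory
open scoped ENNReal
open Crest Crest.GeometryTopology Crest.GeometryTopology.Convex

namespace Crest.Agent.S0329

section Aux

open scoped RealInnerProductSpace
open Crest.Agent.Lib.TetArea Crest.Agent.Lib.TetMinProj Crest.Agent.Lib.TetFan Crest.Agent.Lib.TetSim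

set_option linter.unusedSimpArgs false
set_option linter.deprecated false

/-- The map from the plane of base points into space. -/
noncomputable def iota (h : ℝ) (ξ : E2) : E3 := !₂[0, ξ 0, h * ξ 1]

/-- The axis of a sheared square. -/
noncomputable def axis (h : ℝ) (g : E2) : E3 := !₂[1, g 0, h * g 1]

lemma axis_ne (h : ℝ) (g : E2) : axis h g ≠ 0 := by
  intro h0
  have := congrArg (fun x : E3 => x 0) h0
  simp [axis] at this

lemma axis_norm (h : ℝ) (g : E2) : ‖axis h g‖ = √(1 + (g 0) ^ 2 + h ^ 2 * (g 1) ^ 2) := by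
  have h2 : ‖axis h g‖ ^ 2 = 1 + (g 0) ^ 2 + h ^ 2 * (g 1) ^ 2 := by
    rw [normsq3]
    simp [axis]
    ring
  rw [← h2, Real.sqrt_sq (norm_nonneg _)]

/-- The area of the projected square. -/
lemma base_area (h : ℝ) (hh : 0 < h) (a b g : E2) (hn : ‖b‖ = ‖a‖) (ho : ⟪a, b⟫ = 0) :
    √(gram (prj ((‖axis h g‖⁻¹ : ℝ) • axis h g) (iota h a))
      (prj ((‖axis h g‖⁻¹ : ℝ) • axis h g) (iota h b))) =
      h * (‖a‖ ^ 2 / √(1 + (g 0) ^ 2 + h ^ 2 * (g 1) ^ 2)) := by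
  rw [gram_prj _ (unit_of_ne _ (axis_ne h g))]
  have hd0 : 0 < ‖axis h g‖ := norm_pos_iff.2 (axis_ne h g)
  have hdet : det3 (iota h a) (iota h b) ((‖axis h g‖⁻¹ : ℝ) • axis h g) =
      h * (a 0 * b 1 - a 1 * b 0) * ‖axis h g‖⁻¹ := by
    simp [det3, iota, axis]
    ring
  have hab : (a 0 * b 1 - a 1 * b 0) ^ 2 = (‖a‖ ^ 2) ^ 2 := by
    have h1 : (a 0 * b 1 - a 1 * b 0) ^ 2 = ‖a‖ ^ 2 * ‖b‖ ^ 2 - ⟪a, b⟫ ^ 2 := by
      rw [normsq2, normsq2, inner2]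
      ring
    rw [h1, ho, hn]
    ring
  have habs : |a 0 * b 1 - a 1 * b 0| = ‖a‖ ^ 2 := by
    rw [← Real.sqrt_sq_eq_abs, hab, Real.sqrt_sq (by positivity)]
  rw [hdet, Real.sqrt_sq_eq_abs, abs_mul, abs_mul, abs_of_pos hh, habs,
    abs_of_pos (inv_pos.2 hd0), axis_norm]
  ring

lemma iota_lin (h : ℝ) (c a b : E2) (x y s : ℝ) (g : E2) :
    !₂[s, (c + x • a + y • b + s • g) 0, h * (c + x • a + y • b + s • g) 1] =
      ((1 : ℝ) • iota h c + x • iota h a + y • iota h b) + s • axis h g := by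
  ext i
  fin_cases i <;> simp [iota, axis] <;> ring

private theorem aux
    (h M : ℝ) (hh : 0 < h) (hM : 0 < M) (D : Set (EuclideanSpace ℝ (Fin 2))) (hD : IsCompact D)
    (V : EuclideanSpace ℝ (Fin 2) → EuclideanSpace ℝ (Fin 2)) (U : Set (EuclideanSpace ℝ (Fin 2)))
    (hU : IsOpen U) (hDU : D ⊆ U) (hV : ContDiffOn ℝ 1 V U)
    (htr : ∀ p ∈ D, LinearMap.trace ℝ _ (fderiv ℝ V p).toLinearMap = 0)
    (hdet : ∀ p ∈ D, -(M ^ 2)⁻¹ < LinearMap.det (fderiv ℝ V p).toLinearMap ∧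
      LinearMap.det (fderiv ℝ V p).toLinearMap < 0)
    (ε : ℝ) (hε : 0 < ε) :
    ∃ (k : ℕ) (u : Fin k → EuclideanSpace ℝ (Fin 3)) (B : Fin k → Set (EuclideanSpace ℝ (Fin 3))),
      (∀ i, ‖u i‖ = 1) ∧
      (∀ i, Bornology.IsBounded (B i) ∧ ∃ O : Set (EuclideanSpace ℝ (Fin 3)), IsOpen O ∧
        B i = O ∩ {x | inner ℝ x (u i) = 0}) ∧
      {z : EuclideanSpace ℝ (Fin 3) | ∃ p ∈ D, ∃ x : ℝ, abs x ≤ M ∧
          z = !₂[x, p 0 + x * V p 0, h * (p 1 + x * V p 1)]} ⊆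
        ⋃ i, {z : EuclideanSpace ℝ (Fin 3) | ∃ y ∈ B i, ∃ τ : ℝ, z = y + τ • u i} ∧
      ∑ i, (μHE[2] (B i)).toReal ≤
        h * (∫ p in D, 1 / Real.sqrt (1 + (V p 0) ^ 2 + h ^ 2 * (V p 1) ^ 2)) + ε := by
  obtain ⟨k, c, a, b, g, h1, h2, h3⟩ := Crest.Agent.S0326.result D hD V U hU hDU hV M h hM hh htr
    (fun p hp => ⟨(hdet p hp).1, (hdet p hp).2.le⟩) (ε / (2 * h)) (by positivity)
  let u : Fin k → E3 := fun i => (‖axis h (g i)‖⁻¹ : ℝ) • axis h (g i)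
  have hu : ∀ i, ‖u i‖ = 1 := fun i => unit_of_ne _ (axis_ne h (g i))
  let c' : Fin k → E3 := fun i => prj (u i) (iota h (c i))
  let a' : Fin k → E3 := fun i => prj (u i) (iota h (a i))
  let b' : Fin k → E3 := fun i => prj (u i) (iota h (b i))
  have hk0 : (0 : ℝ) < (k : ℝ) + 1 := by positivity
  obtain ⟨η, hη⟩ : ∃ η, η = ε / (2 * ((k : ℝ) + 1)) := ⟨_, rfl⟩
  have hη0 : 0 < η := by rw [hη]; positivity
  have hthick := fun i => exists_thicken (u i) (hu i) (par (c' i) (a' i) (b' i))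
    (by
      rw [isBounded_iff_forall_norm_le]
      refine ⟨‖c' i‖ + ‖a' i‖ + ‖b' i‖, ?_⟩
      rintro x ⟨s, ⟨hs0, hs1⟩, t, ⟨ht0, ht1⟩, rfl⟩
      calc ‖c' i + s • a' i + t • b' i‖ ≤ ‖c' i‖ + ‖s • a' i‖ + ‖t • b' i‖ := norm_add₃_le
        _ ≤ ‖c' i‖ + ‖a' i‖ + ‖b' i‖ := by
          rw [norm_smul, norm_smul, Real.norm_eq_abs, Real.norm_eq_abs, abs_of_nonneg hs0,
            abs_of_nonneg ht0]
          have := mul_le_of_le_one_left (norm_nonneg (a' i)) hs1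
          have := mul_le_of_le_one_left (norm_nonneg (b' i)) ht1
          linarith)
    (by
      rintro x ⟨s, -, t, -, rfl⟩
      simp only [inner_add_left, inner_smul_left, c', a', b', prj_orth _ (hu i)]
      simp) η hη0
  choose B hB1 hB2 hB3 hB4 using hthick
  refine ⟨k, u, B, hu, fun i => ⟨hB2 i, hB3 i⟩, ?_, ?_⟩
  · rintro z ⟨p, hp, x, hx, rfl⟩
    have hmem : ((x, p + x • V p) : ℝ × E2) ∈ {z : ℝ × E2 | ∃ p ∈ D, |z.1| ≤ M ∧ z.2 = p + z.1 • V p} :=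
      ⟨p, hp, hx, rfl⟩
    obtain ⟨i, s, hs, t, ht, hst⟩ := Set.mem_iUnion.1 (h2 hmem)
    simp only at hst
    have e0 : p 0 + x * V p 0 = (c i + s • a i + t • b i + x • g i) 0 := by
      rw [← hst]; simp
    have e1 : p 1 + x * V p 1 = (c i + s • a i + t • b i + x • g i) 1 := by
      rw [← hst]; simp
    rw [e0, e1, iota_lin]
    have hin : c' i + s • a' i + t • b' i ∈ B i := hB1 i ⟨s, hs, t, ht, rfl⟩
    refine Set.mem_iUnion.2 ⟨i, _, hin, ?_⟩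
    -- the point is its projection plus a multiple of the axis
    obtain ⟨P, hP⟩ : ∃ P, P = (1 : ℝ) • iota h (c i) + s • iota h (a i) + t • iota h (b i) := ⟨_, rfl⟩
    have hprj : c' i + s • a' i + t • b' i = prj (u i) P := by
      rw [hP, prj_lin, one_smul]
    have hd : axis h (g i) = ‖axis h (g i)‖ • u i := by
      have : ‖axis h (g i)‖ ≠ 0 := norm_ne_zero_iff.2 (axis_ne h (g i))
      simp only [u]
      rw [smul_smul, mul_inv_cancel₀ this, one_smul]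
    refine ⟨⟪P, u i⟫ + x * ‖axis h (g i)‖, ?_⟩
    rw [hprj, ← hP]
    nth_rewrite 1 [hd]
    simp only [prj, add_smul, mul_smul]
    abel
  · have hsum : ∑ i, (μHE[2] (B i)).toReal ≤
        ∑ i, (h * (‖a i‖ ^ 2 / √(1 + (g i 0) ^ 2 + h ^ 2 * (g i 1) ^ 2)) + η) := by
      apply Finset.sum_le_sum
      intro i _
      refine (hB4 i).trans ?_
      rw [area_par_toReal]
      simp only [a', b', u]
      rw [base_area h hh (a i) (b i) (g i) (h1 i).2.1 (h1 i).2.2]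
    refine hsum.trans ?_
    rw [Finset.sum_add_distrib, ← Finset.mul_sum, Finset.sum_const, Finset.card_univ,
      Fintype.card_fin, nsmul_eq_mul]
    have h4 := mul_le_mul_of_nonneg_left h3 hh.le
    have e1 : h * ((∫ p in D, 1 / √(1 + (V p 0) ^ 2 + h ^ 2 * (V p 1) ^ 2)) + ε / (2 * h)) =
        h * (∫ p in D, 1 / √(1 + (V p 0) ^ 2 + h ^ 2 * (V p 1) ^ 2)) + ε / 2 := by
      field_simp
    rw [e1] at h4
    have h5 : (k : ℝ) * η ≤ ε / 2 := by
      rw [hη]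
      have : (k : ℝ) * (ε / (2 * ((k : ℝ) + 1))) = (ε / 2) * ((k : ℝ) / ((k : ℝ) + 1)) := by
        field_simp
      rw [this]
      have : (k : ℝ) / ((k : ℝ) + 1) ≤ 1 := (div_le_one hk0).2 (by linarith)
      nlinarith
    linarith

end Aux

/-- Let h, M > 0, D ⊂ ℝ² be compact with Lebesgue-null boundary, and V : ℝ² → ℝ² be C¹ on an open set containing D with tr DV(p) = 0 and −1/M² < det DV(p) < 0 for p ∈ D. For every ε > 0 the set of points (x, p₁ + x V₁(p), h (p₂ + x V₂(p))) ∈ ℝ³ with p ∈ D, −M ≤ x ≤ M is covered by finitely many cylinders Bᵢ + ℝ uᵢ, ‖uᵢ‖ = 1, with bases Bᵢ bounded relatively open subsets of the planes uᵢ^⊥ and ∑ᵢ area(Bᵢ) ≤ h ∫_D (1 + V₁² + h² V₂²)^(−1/2) + ε (areas: normalised 2-dimensional Hausdorff measure). -/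
theorem result
    (h M : ℝ) (hh : 0 < h) (hM : 0 < M) (D : Set (EuclideanSpace ℝ (Fin 2))) (hD : IsCompact D)
    (hbd : volume (frontier D) = 0)
    (V : EuclideanSpace ℝ (Fin 2) → EuclideanSpace ℝ (Fin 2)) (U : Set (EuclideanSpace ℝ (Fin 2)))
    (hU : IsOpen U) (hDU : D ⊆ U) (hV : ContDiffOn ℝ 1 V U)
    (htr : ∀ p ∈ D, LinearMap.trace ℝ _ (fderiv ℝ V p).toLinearMap = 0)
    (hdet : ∀ p ∈ D, -(M ^ 2)⁻¹ < LinearMap.det (fderiv ℝ V p).toLinearMap ∧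
      LinearMap.det (fderiv ℝ V p).toLinearMap < 0)
    (ε : ℝ) (hε : 0 < ε) :
    ∃ (k : ℕ) (u : Fin k → EuclideanSpace ℝ (Fin 3)) (B : Fin k → Set (EuclideanSpace ℝ (Fin 3))),
      (∀ i, ‖u i‖ = 1) ∧
      (∀ i, Bornology.IsBounded (B i) ∧ ∃ O : Set (EuclideanSpace ℝ (Fin 3)), IsOpen O ∧
        B i = O ∩ {x | inner ℝ x (u i) = 0}) ∧
      {z : EuclideanSpace ℝ (Fin 3) | ∃ p ∈ D, ∃ x : ℝ, abs x ≤ M ∧
          z = !₂[x, p 0 + x * V p 0, h * (p 1 + x * V p 1)]} ⊆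
        ⋃ i, {z : EuclideanSpace ℝ (Fin 3) | ∃ y ∈ B i, ∃ τ : ℝ, z = y + τ • u i} ∧
      ∑ i, (μHE[2] (B i)).toReal ≤
        h * (∫ p in D, 1 / Real.sqrt (1 + (V p 0) ^ 2 + h ^ 2 * (V p 1) ^ 2)) + ε := by
  exact aux h M hh hM D hD V U hU hDU hV htr hdet ε hε

end Crest.Agent.S0329
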